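/-
Row 168 (S0254, S0255): discrete stochastic localization.  Definitions only.  See BLUEPRINT.md.
-/
import Mathlib
import Crest.Prelude.Def_Labels

set_option autoImplicit false

namespace Crest.Agent.Lib.SRF

open MeasureTheory Filter Topology Set

/-- Labels. -/
abbrev Lab := unitInterval

/-- i.i.d. uniform labels. -/
noncomputable abbrev lam (V : Type*) : Measure (V → Lab) := Crest.ProbabilityR.Labels.labelMeasure V

variable {E : Type*}

/-- Coefficient table of a law: `coef ν W S` is the mass of "occupied exactly at `S` within `W`". -/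
noncomputable def coef (ν : Measure (E → Bool)) (W S : Finset E) : ℝ :=
  (ν {ω | ∀ i ∈ W, (ω i = true ↔ i ∈ S)}).toReal

/-- `exp (∑_{a ∈ S} h a)`. -/
noncomputable def expSum (h : E → ℝ) (S : Finset E) : ℝ := Real.exp (∑ a ∈ S, h a)

/-- Partition function of the tilted law on subsets of `W` with base weights `c`. -/
noncomputable def gibbsZ (c : Finset E → ℝ) (W : Finset E) (h : E → ℝ) : ℝ :=
  ∑ S ∈ W.powerset, c S * expSum h S

open Classical in
/-- Numerator of the tilted occupation probability of `e`. -/
noncomputable def gibbsNum (c : Finset E → ℝ) (W : Finset E) (e : E) (h : E → ℝ) : ℝ :=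
  ∑ S ∈ W.powerset, if e ∈ S then c S * expSum h S else 0

/-- Tilted occupation probability of `e`: `M_e(h) = E_{ν^h}[X_e]`. -/
noncomputable def gibbsMean (c : Finset E → ℝ) (W : Finset E) (e : E) (h : E → ℝ) : ℝ :=
  gibbsNum c W e h / gibbsZ c W h

/-- Nonnegative normalised base weights on subsets of `W`. -/
structure GoodCoef (c : Finset E → ℝ) (W : Finset E) : Prop where
  nonneg : ∀ S ∈ W.powerset, 0 ≤ c S
  sum_eq_one : ∑ S ∈ W.powerset, c S = 1

/-- The generating polynomial of `c` on `W` does not vanish on the product of upper half planes. -/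
def StableOn (c : Finset E → ℝ) (W : Finset E) : Prop :=
  ∀ z : E → ℂ, (∀ i ∈ W, 0 < (z i).im) →
    ∑ S ∈ W.powerset, ((c S : ℝ) : ℂ) * ∏ i ∈ S, z i ≠ 0

/-! ### The channel -/

/-- Log-likelihood ratio of an observation. -/
noncomputable def logL (y : Lab) : ℝ := Real.log ((y : ℝ) + 1 / 2)

/-- CDF of the observation when the posterior probability of occupation is `m`:
density `1 + m (y - 1/2)`. -/
noncomputable def mixCDF (m y : ℝ) : ℝ := y + m / 2 * (y ^ 2 - y)

/-- Innovation of observation `y` under posterior probability `m` (clamped to `[0,1]` so that the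
function is total; the clamp is inactive for `m ∈ [0,1]`). -/
noncomputable def mixV (m : ℝ) (y : Lab) : Lab :=
  Set.projIcc (0 : ℝ) 1 zero_le_one (mixCDF m y)

/-- Quantile function of density `y + 1/2`, namely `(-1 + √(1 + 8 w)) / 2`, clamped. -/
noncomputable def Q1 (w : Lab) : Lab :=
  Set.projIcc (0 : ℝ) 1 zero_le_one ((-1 + Real.sqrt (1 + 8 * (w : ℝ))) / 2)

/-- An observation from uniform noise `w`, given the occupation bit `b`. -/
noncomputable def Qt (b : Bool) (w : Lab) : Lab := if b then Q1 w else w

/-- All observations from occupation `x` and noise `w`. -/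
noncomputable def Yobs (x : E → Bool) (w : E × ℕ → Lab) : E × ℕ → Lab :=
  fun i => Qt (x i.1) (w i)

/-- Tilt at site `a` accumulated strictly before the ring `(e,k)`: round `j < k` at `a`, and round
`k` at `a` if `a` has an earlier phase than `e`. -/
noncomputable def pastTilt (u : E → Lab) (y : E × ℕ → Lab) (e : E) (k : ℕ) (a : E) : ℝ :=
  (∑ j ∈ Finset.range k, logL (y (a, j))) + (if u a < u e then logL (y (a, k)) else 0)

/-- Posterior approximant in the `n`-th window of `e`. -/
noncomputable def mApprox (c : Finset E → Finset E → ℝ) (W : E → ℕ → Finset E)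
    (u : E → Lab) (y : E × ℕ → Lab) (e : E) (k n : ℕ) : ℝ :=
  gibbsMean (c (W e n)) (W e n) e (pastTilt u y e k)

/-- Posterior at the ring `(e,k)` (a genuine limit on `Good`). -/
noncomputable def mLim (c : Finset E → Finset E → ℝ) (W : E → ℕ → Finset E)
    (u : E → Lab) (y : E × ℕ → Lab) (e : E) (k : ℕ) : ℝ :=
  limsup (fun n => mApprox c W u y e k n) atTop

/-- Innovations. -/
noncomputable def innov (c : Finset E → Finset E → ℝ) (W : E → ℕ → Finset E)
    (u : E → Lab) (y : E × ℕ → Lab) : E × ℕ → Lab :=
  fun i => mixV (mLim c W u y i.1 i.2) (y i)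

/-- Where all posterior limits exist. -/
def Good (c : Finset E → Finset E → ℝ) (W : E → ℕ → Finset E) :
    Set ((E → Lab) × (E × ℕ → Lab)) :=
  {p | ∀ e k, ∃ l, Tendsto (fun n => mApprox c W p.1 p.2 e k n) atTop (𝓝 l)}

/-- The localization map. -/
noncomputable def TT (c : Finset E → Finset E → ℝ) (W : E → ℕ → Finset E)
    (p : (E → Lab) × (E × ℕ → Lab)) : (E → Lab) × (E × ℕ → Lab) :=
  (p.1, innov c W p.1 p.2)

/-- Law-of-large-numbers recovery of the configuration from the observations. -/
noncomputable def recov (y : E × ℕ → Lab) : E → Bool := fun e =>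
  haveI := Classical.propDecidable
  decide ((13 : ℝ) / 24 < limsup (fun K : ℕ => (∑ k ∈ Finset.range K, (y (e, k) : ℝ)) / K) atTop)

/-- What the deterministic uniqueness argument needs from a coefficient table. -/
structure IsLip (c : Finset E → Finset E → ℝ) (W : E → ℕ → Finset E) : Prop where
  mem : ∀ e n, e ∈ W e n
  bdd : ∀ e n (h : E → ℝ), 0 ≤ gibbsMean (c (W e n)) (W e n) e h ∧
    gibbsMean (c (W e n)) (W e n) e h ≤ 1
  lip : ∀ e n (h h' : E → ℝ) (ε : ℝ), (∀ a ∈ W e n, |h a - h' a| ≤ ε) →
    |gibbsMean (c (W e n)) (W e n) e h - gibbsMean (c (W e n)) (W e n) e h'| ≤ ε / 2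

/-! ### The total space: a measurable family of tables over a parameter space -/

/-- A family of tables parametrised by `θ`, with the parameter set where it is good. -/
structure Family (Θ E : Type*) where
  c : Θ → Finset E → Finset E → ℝ
  W : Θ → E → ℕ → Finset E
  good₀ : Set Θ

/-- Total space of the localization map. -/
abbrev Total (Θ E : Type*) := Θ × ((E → Lab) × (E × ℕ → Lab))

/-- Good points of the total space. -/
def GoodHat {Θ : Type*} (F : Family Θ E) : Set (Total Θ E) :=
  {p | p.1 ∈ F.good₀ ∧ p.2 ∈ Good (F.c p.1) (F.W p.1)}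

/-- The localization map on the total space. -/
noncomputable def THat {Θ : Type*} (F : Family Θ E) (p : Total Θ E) : Total Θ E :=
  (p.1, TT (F.c p.1) (F.W p.1) p.2)

/-- The factor map: recover the configuration through the inverse of `THat`; all-false off the
image. -/
noncomputable def Psi {Θ : Type*} (F : Family Θ E) : Total Θ E → (E → Bool) :=
  Function.extend (fun q : GoodHat F => THat F q.1) (fun q : GoodHat F => recov q.1.2.2)
    (fun _ _ => false)

/-! ### The probability space (moved here from Stubs so that proofs need not import sorries) -/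

/-- Exhausting windows. -/
structure Exhausting (W : E → ℕ → Finset E) : Prop where
  mono : ∀ e, Monotone (W e)
  mem : ∀ e n, e ∈ W e n
  exh : ∀ e a, ∃ n, a ∈ W e n

/-- The probability space: configuration and i.i.d. noise. -/
noncomputable def PP (ν : Measure (E → Bool)) : Measure ((E → Bool) × (E × ℕ → Lab)) :=
  ν.prod (lam (E × ℕ))

end Crest.Agent.Lib.SRF
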