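/-
Row 168, task P2: Bayes formula in a finite window and Levy's upward theorem.
-/
import Crest.Agent.Lib.SRF.Defs

set_option autoImplicit false

namespace Crest.Agent.Lib.SRF

open MeasureTheory Filter Topology Set ProbabilityTheory
open scoped ENNReal

variable {E : Type*}

instance lam_isProb (V : Type*) : IsProbabilityMeasure (lam V) := by
  unfold lam Crest.ProbabilityR.Labels.labelMeasure
  infer_instance

instance PP_isProb (ν : Measure (E → Bool)) [IsProbabilityMeasure ν] : IsProbabilityMeasure (PP ν) := by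
  unfold PP
  infer_instance

/-! ### One-dimensional facts -/

lemma measurable_Q1b : Measurable Q1 := by
  unfold Q1
  apply Measurable.comp (continuous_projIcc (a := (0:ℝ)) (b := 1) (h := zero_le_one)).measurable
  fun_prop

lemma Qt_false : Qt false = id := by
  funext w; simp [Qt]

lemma Qt_true : Qt true = Q1 := by
  funext w; simp [Qt]

lemma measurable_Qt (b : Bool) : Measurable (Qt b) := by
  cases b
  · rw [Qt_false]; exact measurable_id
  · rw [Qt_true]; exact measurable_Q1b

/-- Density of an observation. -/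
noncomputable def rho1 (b : Bool) (y : Lab) : ℝ := if b then (y : ℝ) + 1 / 2 else 1

lemma rho1_pos (b : Bool) (y : Lab) : 0 < rho1 b y := by
  unfold rho1
  split_ifs
  · have := y.2.1; positivity
  · norm_num

lemma rho1_le (b : Bool) (y : Lab) : rho1 b y ≤ 2 := by
  unfold rho1
  split_ifs
  · have := y.2.2; linarith
  · norm_num

lemma measurable_rho1 (b : Bool) : Measurable (rho1 b) := by
  unfold rho1
  cases b
  · simp
  · simp only [if_true]; fun_prop

/-- The quadratic inverse of the quantile. -/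
private lemma Q1_key {y : ℝ} (hy : y ∈ Icc (0 : ℝ) 1) :
    (-1 + Real.sqrt (1 + 8 * ((y ^ 2 + y) / 2))) / 2 = y := by
  have h : 1 + 8 * ((y ^ 2 + y) / 2) = (2 * y + 1) ^ 2 := by ring
  rw [h, Real.sqrt_sq (by linarith [hy.1])]
  ring

/-- The law of `Q1`. -/
lemma lintegral_Q1 (f : Lab → ℝ≥0∞) :
    ∫⁻ w : Lab, f (Q1 w) = ∫⁻ y : Lab, ENNReal.ofReal ((y : ℝ) + 1 / 2) * f y := by
  -- transfer to the real line
  set G : ℝ → ℝ≥0∞ := fun t => f (Q1 (projIcc 0 1 zero_le_one t)) with hG
  set F : ℝ → ℝ≥0∞ := fun t => ENNReal.ofReal (t + 1 / 2) * f (projIcc 0 1 zero_le_one t) with hF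
  have e1 : ∫⁻ w : Lab, f (Q1 w) = ∫⁻ t in Icc (0 : ℝ) 1, G t := by
    rw [← lintegral_subtype_comap measurableSet_Icc]
    apply lintegral_congr
    intro w
    simp [hG, projIcc_val]
  have e2 : ∫⁻ y : Lab, ENNReal.ofReal ((y : ℝ) + 1 / 2) * f y = ∫⁻ t in Icc (0 : ℝ) 1, F t := by
    rw [← lintegral_subtype_comap measurableSet_Icc]
    apply lintegral_congr
    intro w
    simp [hF, projIcc_val]
  rw [e1, e2]
  -- the substitution `t = (y^2+y)/2`
  have himg : (fun y : ℝ => (y ^ 2 + y) / 2) '' Icc (0 : ℝ) 1 = Icc (0 : ℝ) 1 := by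
    have hcont : ContinuousOn (fun y : ℝ => (y ^ 2 + y) / 2) (Icc 0 1) := by fun_prop
    apply Subset.antisymm
    · rintro _ ⟨y, hy, rfl⟩
      constructor <;> nlinarith [hy.1, hy.2]
    · intro t ht
      have := intermediate_value_Icc (zero_le_one) hcont
      apply this
      simpa using ht
  have hinj : InjOn (fun y : ℝ => (y ^ 2 + y) / 2) (Icc 0 1) := by
    intro a ha b hb hab
    have h1 := Q1_key ha
    have h2 := Q1_key hb
    simp only at hab
    rw [← h1, ← h2, hab]
  have hderiv : ∀ y ∈ Icc (0 : ℝ) 1,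
      HasDerivWithinAt (fun y : ℝ => (y ^ 2 + y) / 2) (y + 1 / 2) (Icc 0 1) y := by
    intro y _
    have := (((hasDerivAt_id y).pow 2).add (hasDerivAt_id y)).div_const 2
    refine (this.congr_deriv ?_).hasDerivWithinAt
    simp; ring
  have := lintegral_image_eq_lintegral_abs_deriv_mul measurableSet_Icc hderiv hinj G
  rw [himg] at this
  rw [this]
  apply setLIntegral_congr_fun measurableSet_Icc
  intro y hy
  have hy' : |y + 1 / 2| = y + 1 / 2 := abs_of_nonneg (by linarith [hy.1])
  simp only [hF, hG, hy']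
  congr 2
  -- `Q1 (projIcc ((y^2+y)/2)) = projIcc y`
  unfold Q1
  congr 1
  have hmem : (y ^ 2 + y) / 2 ∈ Icc (0 : ℝ) 1 := by
    constructor <;> nlinarith [hy.1, hy.2]
  rw [projIcc_of_mem _ hmem]
  exact Q1_key hy

/-- The law of an observation. -/
lemma map_Qt (b : Bool) : (volume : Measure Lab).map (Qt b) =
    (volume : Measure Lab).withDensity (fun y => ENNReal.ofReal (rho1 b y)) := by
  ext s hs
  rw [Measure.map_apply (measurable_Qt b) hs, withDensity_apply _ hs]
  cases b
  · simp [Qt_false, rho1]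
  · have h := lintegral_Q1 (s.indicator 1)
    simp only [Qt_true, rho1, if_true]
    have h1 : ∫⁻ w : Lab, s.indicator 1 (Q1 w) = volume (Q1 ⁻¹' s) := by
      rw [← lintegral_indicator_one (measurable_Q1b hs)]
      rfl
    rw [← h1, h, ← lintegral_indicator hs]
    apply lintegral_congr
    intro y
    by_cases hy : y ∈ s <;> simp [hy]

/-! ### Finite products -/

section Product

variable {ι : Type*} [Fintype ι]

/-- Product Lebesgue measure on finitely many labels. -/
noncomputable abbrev volPi (ι : Type*) [Fintype ι] : Measure (ι → Lab) :=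
  Measure.pi fun _ => (volume : Measure Lab)

/-- Product of the densities. -/
noncomputable def rhoProd (b : ι → Bool) (z : ι → Lab) : ℝ := ∏ i, rho1 (b i) (z i)

lemma rhoProd_pos (b : ι → Bool) (z : ι → Lab) : 0 < rhoProd b z :=
  Finset.prod_pos fun i _ => rho1_pos _ _

lemma rhoProd_le (b : ι → Bool) (z : ι → Lab) : rhoProd b z ≤ 2 ^ Fintype.card ι := by
  unfold rhoProd
  calc ∏ i, rho1 (b i) (z i) ≤ ∏ _i : ι, (2 : ℝ) :=
        Finset.prod_le_prod (fun i _ => (rho1_pos _ _).le) (fun i _ => rho1_le _ _)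
    _ = 2 ^ Fintype.card ι := by simp

lemma measurable_rhoProd (b : ι → Bool) : Measurable (rhoProd b) := by
  unfold rhoProd
  apply Finset.measurable_prod
  intro i _
  exact (measurable_rho1 _).comp (measurable_pi_apply i)

instance withDensity_rho1_isProb (b : Bool) : IsProbabilityMeasure
    ((volume : Measure Lab).withDensity (fun y => ENNReal.ofReal (rho1 b y))) := by
  rw [← map_Qt]
  exact Measure.isProbabilityMeasure_map (measurable_Qt b).aemeasurable

lemma pi_withDensity_eq (b : ι → Bool) :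
    Measure.pi (fun i : ι =>
        (volume : Measure Lab).withDensity (fun y => ENNReal.ofReal (rho1 (b i) y)))
      = (volPi ι).withDensity (fun z => ENNReal.ofReal (rhoProd b z)) := by
  classical
  apply Measure.pi_eq
  intro s hs
  rw [withDensity_apply _ (MeasurableSet.univ_pi hs)]
  have h1 : ∀ z : ι → Lab,
      (Set.pi univ s).indicator (fun z => ENNReal.ofReal (rhoProd b z)) z
        = ∏ i, (s i).indicator (fun y => ENNReal.ofReal (rho1 (b i) y)) (z i) := by
    intro z
    by_cases hz : z ∈ Set.pi univ s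
    · rw [indicator_of_mem hz, rhoProd,
        ENNReal.ofReal_prod_of_nonneg (fun i _ => (rho1_pos _ _).le)]
      apply Finset.prod_congr rfl
      intro i _
      rw [indicator_of_mem (hz i (mem_univ i))]
    · rw [indicator_of_notMem hz]
      simp only [Set.mem_pi, mem_univ, forall_const, not_forall] at hz
      obtain ⟨i, hi⟩ := hz
      symm
      apply Finset.prod_eq_zero (Finset.mem_univ i)
      rw [indicator_of_notMem hi]
  rw [← lintegral_indicator (MeasurableSet.univ_pi hs)]
  simp_rw [h1]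
  have hind : iIndepFun (fun (i : ι) (z : ι → Lab) =>
      (s i).indicator (fun y => ENNReal.ofReal (rho1 (b i) y)) (z i)) (volPi ι) :=
    iIndepFun_pi (X := fun i y => (s i).indicator (fun y => ENNReal.ofReal (rho1 (b i) y)) y)
      (fun i => (((measurable_rho1 (b i)).ennreal_ofReal).indicator (hs i)).aemeasurable)
  rw [lintegral_prod_eq_prod_lintegral_of_indepFun Finset.univ _ hind]
  · apply Finset.prod_congr rfl
    intro i _
    rw [withDensity_apply _ (hs i), ← lintegral_indicator (hs i)]
    have hmp := measurePreserving_eval (fun _ : ι => (volume : Measure Lab)) i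
    have hmeas : Measurable ((s i).indicator (fun y => ENNReal.ofReal (rho1 (b i) y))) :=
      ((measurable_rho1 (b i)).ennreal_ofReal).indicator (hs i)
    exact hmp.lintegral_comp hmeas
  · intro i
    exact (((measurable_rho1 (b i)).ennreal_ofReal).indicator (hs i)).comp (measurable_pi_apply i)

lemma map_pi_Qt (b : ι → Bool) :
    (volPi ι).map (fun v i => Qt (b i) (v i))
      = (volPi ι).withDensity (fun z => ENNReal.ofReal (rhoProd b z)) := by
  rw [Measure.pi_map_pi (fun i => (measurable_Qt (b i)).aemeasurable)]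
  simp_rw [map_Qt]
  exact pi_withDensity_eq b

lemma measurable_piQt (b : ι → Bool) :
    Measurable (fun (v : ι → Lab) (i : ι) => Qt (b i) (v i)) :=
  measurable_pi_iff.2 fun i => (measurable_Qt (b i)).comp (measurable_pi_apply i)

lemma integral_Qt_pi (b : ι → Bool) (G : (ι → Lab) → ℝ) (hG : Measurable G) :
    ∫ v, G (fun i => Qt (b i) (v i)) ∂volPi ι = ∫ z, G z * rhoProd b z ∂volPi ι := by
  rw [← integral_map (measurable_piQt b).aemeasurable hG.aestronglyMeasurable, map_pi_Qt,
    integral_withDensity_eq_integral_toReal_smul (measurable_rhoProd b).ennreal_ofReal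
      (ae_of_all _ fun z => ENNReal.ofReal_lt_top)]
  apply integral_congr_ae
  refine ae_of_all _ fun z => ?_
  simp only [smul_eq_mul]
  rw [ENNReal.toReal_ofReal (rhoProd_pos b z).le, mul_comm]

end Product

/-! ### Window integrals -/

section Window

variable (ν : Measure (E → Bool)) [IsProbabilityMeasure ν]

lemma measurable_Yobs_coord (i : E × ℕ) :
    Measurable (fun ω : (E → Bool) × (E × ℕ → Lab) => Yobs ω.1 ω.2 i) := by
  unfold Yobs Qt
  refine Measurable.ite ?_ (measurable_Q1b.comp ((measurable_pi_apply i).comp measurable_snd))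
    ((measurable_pi_apply i).comp measurable_snd)
  have : Measurable (fun ω : (E → Bool) × (E × ℕ → Lab) => ω.1 i.1) :=
    (measurable_pi_apply i.1).comp measurable_fst
  exact this (measurableSet_singleton true)

lemma measurable_Yobsb :
    Measurable (fun ω : (E → Bool) × (E × ℕ → Lab) => Yobs ω.1 ω.2) :=
  measurable_pi_iff.2 measurable_Yobs_coord

/-- Coordinates seen in the finite set `R`. -/
noncomputable def Zf (R : Finset (E × ℕ)) (ω : (E → Bool) × (E × ℕ → Lab)) : R → Lab :=
  fun i => Yobs ω.1 ω.2 i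

lemma measurable_Zf (R : Finset (E × ℕ)) : Measurable (Zf (E := E) R) :=
  measurable_pi_iff.2 fun i => measurable_Yobs_coord i.1

/-- Sites of the window occupied by `x`. -/
noncomputable def sat (W₀ : Finset E) (x : E → Bool) : Finset E := W₀.filter (fun a => x a = true)

lemma integral_lam_Zf (R : Finset (E × ℕ)) (x : E → Bool) (G : (R → Lab) → ℝ) (hG : Measurable G) :
    ∫ w, G (Zf R (x, w)) ∂lam (E × ℕ)
      = ∫ z, G z * rhoProd (fun i : R => x i.1.1) z ∂volPi R := by
  rw [← integral_Qt_pi (fun i : R => x i.1.1) G hG]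
  have hmap : (lam (E × ℕ)).map (Finset.restrict R) = volPi R :=
    Measure.infinitePi_map_restrict (μ := fun _ : E × ℕ => (volume : Measure Lab))
  rw [← hmap, integral_map (Finset.measurable_restrict R).aemeasurable
    (hG.comp (measurable_piQt _)).aestronglyMeasurable]
  rfl

/-- Density of the observations in `R` when the occupied sites are `S`. -/
noncomputable def dens (R : Finset (E × ℕ)) (S : Finset E) (z : R → Lab) : ℝ :=
  open Classical in rhoProd (fun i : R => decide (i.1.1 ∈ S)) z

lemma dens_pos (R : Finset (E × ℕ)) (S : Finset E) (z : R → Lab) : 0 < dens R S z :=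
  rhoProd_pos _ _

lemma dens_le (R : Finset (E × ℕ)) (S : Finset E) (z : R → Lab) :
    dens R S z ≤ 2 ^ Fintype.card R :=
  rhoProd_le _ _

lemma measurable_dens (R : Finset (E × ℕ)) (S : Finset E) : Measurable (dens R S) :=
  measurable_rhoProd _

lemma sat_preimage (W₀ S : Finset E) (hS : S ∈ W₀.powerset) :
    {x : E → Bool | sat W₀ x = S} = {ω : E → Bool | ∀ i ∈ W₀, (ω i = true ↔ i ∈ S)} := by
  ext x
  simp only [mem_ofPred_eq, sat]
  have hS' := Finset.mem_powerset.1 hS
  constructor
  · rintro rfl i hi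
    simp [hi]
  · intro h
    ext a
    simp only [Finset.mem_filter]
    constructor
    · rintro ⟨ha, hxa⟩
      exact (h a ha).1 hxa
    · intro ha
      exact ⟨hS' ha, (h a (hS' ha)).2 ha⟩

lemma measurableSet_sat (W₀ S : Finset E) : MeasurableSet {x : E → Bool | sat W₀ x = S} := by
  by_cases hS : S ∈ W₀.powerset
  · rw [sat_preimage W₀ S hS]
    have : {ω : E → Bool | ∀ i ∈ W₀, (ω i = true ↔ i ∈ S)}
        = ⋂ i ∈ W₀, {ω : E → Bool | ω i = true ↔ i ∈ S} := by
      ext; simp
    rw [this]
    apply Finset.measurableSet_biInter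
    intro i _
    by_cases hi : i ∈ S
    · simp only [hi, iff_true]
      have : {ω : E → Bool | ω i = true} = (fun ω : E → Bool => ω i) ⁻¹' {true} := by
        ext ω; simp
      rw [this]
      exact (measurable_pi_apply i) (measurableSet_singleton true)
    · simp only [hi, iff_false]
      have : {ω : E → Bool | ¬ ω i = true} = (fun ω : E → Bool => ω i) ⁻¹' {false} := by
        ext ω; simp
      rw [this]
      exact (measurable_pi_apply i) (measurableSet_singleton false)
  · have : {x : E → Bool | sat W₀ x = S} = ∅ := by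
      ext x
      simp only [mem_ofPred_eq, mem_empty_iff_false, iff_false]
      rintro rfl
      exact hS (Finset.mem_powerset.2 (Finset.filter_subset _ _))
    rw [this]
    exact MeasurableSet.empty

lemma sat_mem_powerset (W₀ : Finset E) (x : E → Bool) : sat W₀ x ∈ W₀.powerset :=
  Finset.mem_powerset.2 (Finset.filter_subset _ _)

/-- Integrating a function of the window occupation. -/
lemma integral_sat (W₀ : Finset E) (Φ : Finset E → ℝ) :
    ∫ x, Φ (sat W₀ x) ∂ν = ∑ S ∈ W₀.powerset, coef ν W₀ S * Φ S := by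
  classical
  have h1 : ∀ x, Φ (sat W₀ x)
      = ∑ S ∈ W₀.powerset, ({x : E → Bool | sat W₀ x = S}.indicator (fun _ => Φ S)) x := by
    intro x
    rw [Finset.sum_eq_single (sat W₀ x)]
    · rw [indicator_of_mem]; simp
    · intro S _ hS
      rw [indicator_of_notMem]
      simpa using hS.symm
    · intro h
      exact absurd (sat_mem_powerset W₀ x) h
  simp_rw [h1]
  rw [integral_finsetSum]
  · apply Finset.sum_congr rfl
    intro S hS
    rw [integral_indicator (measurableSet_sat W₀ S), setIntegral_const, sat_preimage W₀ S hS]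
    simp [coef, Measure.real]
  · intro S _
    exact (integrable_const (Φ S)).indicator (measurableSet_sat W₀ S)

lemma sum_coef (W₀ : Finset E) : ∑ S ∈ W₀.powerset, coef ν W₀ S = 1 := by
  have := integral_sat ν W₀ (fun _ => (1 : ℝ))
  simpa using this.symm

lemma coef_nonneg (W₀ S : Finset E) : 0 ≤ coef ν W₀ S := ENNReal.toReal_nonneg

lemma rhoProd_sat (W₀ : Finset E) (R : Finset (E × ℕ)) (hR : ∀ i ∈ R, i.1 ∈ W₀) (x : E → Bool)
    (z : R → Lab) : rhoProd (fun i : R => x i.1.1) z = dens R (sat W₀ x) z := by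
  classical
  unfold dens rhoProd
  apply Finset.prod_congr rfl
  intro i _
  congr 1
  have := hR i.1 i.2
  by_cases hx : x i.1.1 = true
  · simp [sat, hx, this]
  · simp [sat, hx]

/-- The basic formula (D). -/
theorem integral_window (W₀ : Finset E) (R : Finset (E × ℕ)) (hR : ∀ i ∈ R, i.1 ∈ W₀)
    (G : (R → Lab) → ℝ) (hG : Measurable G) (C : ℝ) (hC : ∀ z, |G z| ≤ C) (φ : Finset E → ℝ) :
    ∫ ω, G (Zf R ω) * φ (sat W₀ ω.1) ∂PP ν
      = ∑ S ∈ W₀.powerset, coef ν W₀ S * (φ S * ∫ z, G z * dens R S z ∂volPi R) := by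
  classical
  have hmeas : Measurable (fun ω : (E → Bool) × (E × ℕ → Lab) => G (Zf R ω) * φ (sat W₀ ω.1)) := by
    apply (hG.comp (measurable_Zf R)).mul
    have : (fun ω : (E → Bool) × (E × ℕ → Lab) => φ (sat W₀ ω.1))
        = (fun x => ∑ S ∈ W₀.powerset, ({x : E → Bool | sat W₀ x = S}.indicator (fun _ => φ S)) x)
          ∘ Prod.fst := by
      funext ω
      simp only [Function.comp]
      rw [Finset.sum_eq_single (sat W₀ ω.1)]
      · rw [indicator_of_mem]; simp
      · intro S _ hS
        rw [indicator_of_notMem]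
        simpa using hS.symm
      · intro h
        exact absurd (sat_mem_powerset W₀ ω.1) h
    rw [this]
    apply Measurable.comp _ measurable_fst
    apply Finset.measurable_sum
    intro S _
    exact measurable_const.indicator (measurableSet_sat W₀ S)
  have hbdd : ∃ D, ∀ ω, ‖G (Zf R ω) * φ (sat W₀ ω.1)‖ ≤ D := by
    refine ⟨C * ∑ S ∈ W₀.powerset, |φ S|, fun ω => ?_⟩
    rw [norm_mul, Real.norm_eq_abs, Real.norm_eq_abs]
    apply mul_le_mul (hC _) _ (abs_nonneg _) ((abs_nonneg _).trans (hC (Zf R ω)))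
    exact Finset.single_le_sum (f := fun S => |φ S|) (fun _ _ => abs_nonneg _)
      (sat_mem_powerset W₀ ω.1)
  obtain ⟨D, hD⟩ := hbdd
  have hint : Integrable (fun ω : (E → Bool) × (E × ℕ → Lab) => G (Zf R ω) * φ (sat W₀ ω.1))
      (PP ν) := Integrable.of_bound hmeas.aestronglyMeasurable D (ae_of_all _ hD)
  unfold PP at hint ⊢
  rw [integral_prod _ hint]
  have h2 : ∀ x : E → Bool, ∫ w, G (Zf R (x, w)) * φ (sat W₀ x) ∂lam (E × ℕ)
      = φ (sat W₀ x) * ∫ z, G z * dens R (sat W₀ x) z ∂volPi R := by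
    intro x
    rw [integral_mul_const, integral_lam_Zf R x G hG, mul_comm]
    congr 1
    apply integral_congr_ae
    refine ae_of_all _ fun z => ?_
    simp only
    rw [rhoProd_sat W₀ R hR x z]
  simp only [h2]
  exact integral_sat ν W₀ (fun S => φ S * ∫ z, G z * dens R S z ∂volPi R)

end Window

/-! ### The tilt as a density -/

section Tilt

open Classical in
/-- The past of the ring `(e,k)` seen in the window `W₀`. -/
noncomputable def winPast (u : E → Lab) (e : E) (k : ℕ) (W₀ : Finset E) : Finset (E × ℕ) :=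
  (W₀ ×ˢ Finset.range (k + 1)).filter (fun i => i.2 < k ∨ (i.2 = k ∧ u i.1 < u e))

lemma mem_winPast {u : E → Lab} {e : E} {k : ℕ} {W₀ : Finset E} {i : E × ℕ} :
    i ∈ winPast u e k W₀ ↔ i.1 ∈ W₀ ∧ (i.2 < k ∨ (i.2 = k ∧ u i.1 < u e)) := by
  classical
  simp only [winPast, Finset.mem_filter, Finset.mem_product, Finset.mem_range]
  constructor
  · rintro ⟨⟨h1, _⟩, h3⟩
    exact ⟨h1, h3⟩
  · rintro ⟨h1, h3⟩
    refine ⟨⟨h1, ?_⟩, h3⟩
    rcases h3 with h | h <;> omega

lemma winPast_fst {u : E → Lab} {e : E} {k : ℕ} {W₀ : Finset E} :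
    ∀ i ∈ winPast u e k W₀, i.1 ∈ W₀ := fun _ hi => (mem_winPast.1 hi).1

lemma logL_pos (y : Lab) : 0 < (y : ℝ) + 1 / 2 := by
  have := y.2.1; positivity

lemma exp_pastTilt (u : E → Lab) (y : E × ℕ → Lab) (e : E) (k : ℕ) (a : E) :
    Real.exp (pastTilt u y e k a)
      = (∏ j ∈ Finset.range k, ((y (a, j) : ℝ) + 1 / 2))
        * (if u a < u e then (y (a, k) : ℝ) + 1 / 2 else 1) := by
  unfold pastTilt
  rw [Real.exp_add, Real.exp_sum]
  congr 1
  · apply Finset.prod_congr rfl
    intro j _
    rw [logL, Real.exp_log (logL_pos _)]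
  · split_ifs
    · rw [logL, Real.exp_log (logL_pos _)]
    · simp

lemma expSum_pastTilt (u : E → Lab) (y : E × ℕ → Lab) (e : E) (k : ℕ) {W₀ S : Finset E}
    (hS : S ⊆ W₀) :
    expSum (pastTilt u y e k) S
      = dens (winPast u e k W₀) S (Finset.restrict (winPast u e k W₀) y) := by
  classical
  unfold expSum dens rhoProd
  rw [Real.exp_sum]
  simp_rw [exp_pastTilt]
  -- the right side
  have h1 : ∏ i : (winPast u e k W₀), rho1 (decide (i.1.1 ∈ S)) (Finset.restrict (winPast u e k W₀) y i)
      = ∏ i ∈ winPast u e k W₀, rho1 (decide (i.1 ∈ S)) (y i) :=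
    Finset.prod_coe_sort (winPast u e k W₀) (fun i => rho1 (decide (i.1 ∈ S)) (y i))
  rw [h1]
  unfold winPast
  rw [Finset.prod_filter, Finset.prod_product]
  symm
  rw [← Finset.prod_subset hS]
  · apply Finset.prod_congr rfl
    intro a ha
    rw [Finset.prod_range_succ]
    congr 1
    · apply Finset.prod_congr rfl
      intro j hj
      have hj' := Finset.mem_range.1 hj
      simp [hj', ha, rho1]
    · simp [ha, rho1]
  · intro a _ ha
    apply Finset.prod_eq_one
    intro j _
    split_ifs
    · simp [ha, rho1]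
    · rfl

end Tilt

/-! ### Bayes -/

section BayesSec

variable (ν : Measure (E → Bool)) [IsProbabilityMeasure ν]

open Classical in
/-- Numerator of the posterior mean as a function of the observations in `R`. -/
noncomputable def numF (c : Finset E → ℝ) (W₀ : Finset E) (R : Finset (E × ℕ)) (e : E)
    (z : R → Lab) : ℝ :=
  ∑ S ∈ W₀.powerset, if e ∈ S then c S * dens R S z else 0

/-- Normalisation of the posterior mean as a function of the observations in `R`. -/
noncomputable def zF (c : Finset E → ℝ) (W₀ : Finset E) (R : Finset (E × ℕ)) (z : R → Lab) : ℝ :=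
  ∑ S ∈ W₀.powerset, c S * dens R S z

/-- The posterior mean as a function of the observations in `R`. -/
noncomputable def mF (c : Finset E → ℝ) (W₀ : Finset E) (R : Finset (E × ℕ)) (e : E)
    (z : R → Lab) : ℝ :=
  numF c W₀ R e z / zF c W₀ R z

lemma measurable_numF (c : Finset E → ℝ) (W₀ : Finset E) (R : Finset (E × ℕ)) (e : E) :
    Measurable (numF c W₀ R e) := by
  classical
  unfold numF
  apply Finset.measurable_sum
  intro S _
  by_cases he : e ∈ S
  · simp only [he, if_true]
    exact measurable_const.mul (measurable_dens R S)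
  · simp only [he, if_false]
    exact measurable_const

lemma measurable_zF (c : Finset E → ℝ) (W₀ : Finset E) (R : Finset (E × ℕ)) :
    Measurable (zF c W₀ R) := by
  unfold zF
  apply Finset.measurable_sum
  intro S _
  exact measurable_const.mul (measurable_dens R S)

lemma measurable_mF (c : Finset E → ℝ) (W₀ : Finset E) (R : Finset (E × ℕ)) (e : E) :
    Measurable (mF c W₀ R e) :=
  (measurable_numF c W₀ R e).div (measurable_zF c W₀ R)

lemma zF_pos (W₀ : Finset E) (R : Finset (E × ℕ)) (z : R → Lab) :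
    0 < zF (coef ν W₀) W₀ R z := by
  classical
  unfold zF
  have h1 : ∑ S ∈ W₀.powerset, coef ν W₀ S = 1 := sum_coef ν W₀
  obtain ⟨S, hS, hpos⟩ : ∃ S ∈ W₀.powerset, 0 < coef ν W₀ S := by
    by_contra hcon
    push Not at hcon
    have : ∑ S ∈ W₀.powerset, coef ν W₀ S ≤ 0 := Finset.sum_nonpos hcon
    linarith
  apply Finset.sum_pos' (fun S _ => mul_nonneg (coef_nonneg ν W₀ S) (dens_pos R S z).le)
  exact ⟨S, hS, mul_pos hpos (dens_pos R S z)⟩

lemma numF_nonneg (W₀ : Finset E) (R : Finset (E × ℕ)) (e : E) (z : R → Lab) :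
    0 ≤ numF (coef ν W₀) W₀ R e z := by
  classical
  unfold numF
  apply Finset.sum_nonneg
  intro S _
  split_ifs
  · exact mul_nonneg (coef_nonneg ν W₀ S) (dens_pos R S z).le
  · exact le_rfl

lemma numF_le_zF (W₀ : Finset E) (R : Finset (E × ℕ)) (e : E) (z : R → Lab) :
    numF (coef ν W₀) W₀ R e z ≤ zF (coef ν W₀) W₀ R z := by
  classical
  unfold numF zF
  apply Finset.sum_le_sum
  intro S _
  split_ifs
  · exact le_rfl
  · exact mul_nonneg (coef_nonneg ν W₀ S) (dens_pos R S z).le

lemma mF_nonneg (W₀ : Finset E) (R : Finset (E × ℕ)) (e : E) (z : R → Lab) :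
    0 ≤ mF (coef ν W₀) W₀ R e z :=
  div_nonneg (numF_nonneg ν W₀ R e z) (zF_pos ν W₀ R z).le

lemma mF_le_one (W₀ : Finset E) (R : Finset (E × ℕ)) (e : E) (z : R → Lab) :
    mF (coef ν W₀) W₀ R e z ≤ 1 :=
  (div_le_one (zF_pos ν W₀ R z)).2 (numF_le_zF ν W₀ R e z)

lemma gibbsMean_eq_mF (u : E → Lab) (y : E × ℕ → Lab) (e : E) (k : ℕ) (c : Finset E → ℝ)
    (W₀ : Finset E) :
    gibbsMean c W₀ e (pastTilt u y e k)
      = mF c W₀ (winPast u e k W₀) e (Finset.restrict (winPast u e k W₀) y) := by
  classical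
  unfold gibbsMean mF gibbsNum gibbsZ numF zF
  congr 1
  · apply Finset.sum_congr rfl
    intro S hS
    rw [expSum_pastTilt u y e k (Finset.mem_powerset.1 hS)]
  · apply Finset.sum_congr rfl
    intro S hS
    rw [expSum_pastTilt u y e k (Finset.mem_powerset.1 hS)]

lemma integrable_mul_dens {R : Finset (E × ℕ)} (H : (R → Lab) → ℝ) (hH : Measurable H) (C : ℝ)
    (hC : ∀ z, |H z| ≤ C) (S : Finset E) :
    Integrable (fun z => H z * dens R S z) (volPi R) := by
  apply Integrable.of_bound (hH.mul (measurable_dens R S)).aestronglyMeasurable (C * 2 ^ Fintype.card R)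
  refine ae_of_all _ fun z => ?_
  show ‖H z * dens R S z‖ ≤ _
  rw [norm_mul, Real.norm_eq_abs, Real.norm_eq_abs, abs_of_pos (dens_pos R S z)]
  exact mul_le_mul (hC z) (dens_le R S z) (dens_pos R S z).le ((abs_nonneg _).trans (hC z))

/-- Bayes' formula in a finite window. -/
theorem bayes_window {W₀ : Finset E} {R : Finset (E × ℕ)} (hR : ∀ i ∈ R, i.1 ∈ W₀) {e : E}
    (he : e ∈ W₀) (H : (R → Lab) → ℝ) (hH : Measurable H) (C : ℝ) (hC : ∀ z, |H z| ≤ C) :
    ∫ ω, H (Zf R ω) * (if ω.1 e = true then (1 : ℝ) else 0) ∂PP ν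
      = ∫ ω, H (Zf R ω) * mF (coef ν W₀) W₀ R e (Zf R ω) ∂PP ν := by
  classical
  set φ : Finset E → ℝ := fun S => if e ∈ S then 1 else 0 with hφ
  have hsat : ∀ x : E → Bool, (if x e = true then (1 : ℝ) else 0) = φ (sat W₀ x) := by
    intro x
    simp [hφ, sat, he]
  -- left side
  have hL : ∫ ω, H (Zf R ω) * (if ω.1 e = true then (1 : ℝ) else 0) ∂PP ν
      = ∫ z, H z * numF (coef ν W₀) W₀ R e z ∂volPi R := by
    simp_rw [hsat]
    rw [integral_window ν W₀ R hR H hH C hC φ]
    unfold numF
    simp_rw [Finset.mul_sum]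
    rw [integral_finsetSum]
    · apply Finset.sum_congr rfl
      intro S _
      by_cases heS : e ∈ S
      · simp only [hφ, heS, if_true, one_mul]
        rw [← integral_const_mul]
        apply integral_congr_ae
        refine ae_of_all _ fun z => ?_
        ring
      · simp [hφ, heS]
    · intro S _
      by_cases heS : e ∈ S
      · simp only [heS, if_true]
        have := (integrable_mul_dens H hH C hC S).const_mul (coef ν W₀ S)
        refine this.congr (ae_of_all _ fun z => ?_)
        simp only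
        ring
      · simp [heS]
  -- right side
  have hmFbdd : ∀ z, |H z * mF (coef ν W₀) W₀ R e z| ≤ C := by
    intro z
    rw [abs_mul, abs_of_nonneg (mF_nonneg ν W₀ R e z)]
    calc |H z| * mF (coef ν W₀) W₀ R e z ≤ |H z| * 1 :=
          mul_le_mul_of_nonneg_left (mF_le_one ν W₀ R e z) (abs_nonneg _)
      _ ≤ C := by simpa using hC z
  have hmeas2 : Measurable (fun z => H z * mF (coef ν W₀) W₀ R e z) :=
    hH.mul (measurable_mF _ _ _ _)
  have hR' : ∫ ω, H (Zf R ω) * mF (coef ν W₀) W₀ R e (Zf R ω) ∂PP ν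
      = ∫ z, H z * numF (coef ν W₀) W₀ R e z ∂volPi R := by
    have := integral_window ν W₀ R hR (fun z => H z * mF (coef ν W₀) W₀ R e z) hmeas2 C hmFbdd
      (fun _ => (1 : ℝ))
    simp only [mul_one, one_mul] at this
    rw [this]
    have hkey : ∀ z, H z * numF (coef ν W₀) W₀ R e z
        = ∑ S ∈ W₀.powerset, coef ν W₀ S * (H z * mF (coef ν W₀) W₀ R e z * dens R S z) := by
      intro z
      have h1 : numF (coef ν W₀) W₀ R e z = mF (coef ν W₀) W₀ R e z * zF (coef ν W₀) W₀ R z := by
        unfold mF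
        rw [div_mul_cancel₀ _ (zF_pos ν W₀ R z).ne']
      rw [h1]
      unfold zF
      rw [Finset.mul_sum, Finset.mul_sum]
      apply Finset.sum_congr rfl
      intro S _
      ring
    simp_rw [hkey]
    rw [integral_finsetSum]
    · apply Finset.sum_congr rfl
      intro S _
      rw [integral_const_mul]
    · intro S _
      exact (integrable_mul_dens _ hmeas2 C hmFbdd S).const_mul _
  rw [hL, hR']

end BayesSec

/-! ### Levy's upward theorem -/

section Levy

variable (ν : Measure (E → Bool)) [IsProbabilityMeasure ν] {W : E → ℕ → Finset E}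

/-- The rings strictly before `(e,k)`. -/
def pastIdx (u : E → Lab) (e : E) (k : ℕ) : Set (E × ℕ) := {i | i.2 < k ∨ (i.2 = k ∧ u i.1 < u e)}

/-- The sigma-algebra of the past of `(e,k)`. -/
@[reducible] def pastSigma (u : E → Lab) (e : E) (k : ℕ) : MeasurableSpace (E × ℕ → Lab) :=
  ⨆ i ∈ pastIdx u e k, MeasurableSpace.comap (fun y => y i) inferInstance

lemma winPast_subset_pastIdx (u : E → Lab) (e : E) (k : ℕ) (W₀ : Finset E) :
    ∀ i ∈ winPast u e k W₀, i ∈ pastIdx u e k := fun _ hi => (mem_winPast.1 hi).2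

lemma pastSigma_le (u : E → Lab) (e : E) (k : ℕ) :
    pastSigma u e k ≤ (inferInstance : MeasurableSpace (E × ℕ → Lab)) := by
  unfold pastSigma
  refine iSup₂_le fun i _ => ?_
  exact (measurable_pi_apply i).comap_le

lemma measurable_coord_pastSigma (u : E → Lab) (e : E) (k : ℕ) {i : E × ℕ}
    (hi : i ∈ pastIdx u e k) : Measurable[pastSigma u e k] (fun y : E × ℕ → Lab => y i) := by
  rw [measurable_iff_comap_le]
  exact le_iSup₂_of_le i hi le_rfl

/-- `mApprox` as a function of the observations in the window. -/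
lemma mApprox_eq (c : Finset E → Finset E → ℝ) (W : E → ℕ → Finset E) (u : E → Lab)
    (y : E × ℕ → Lab) (e : E) (k n : ℕ) :
    mApprox c W u y e k n = mF (c (W e n)) (W e n) (winPast u e k (W e n)) e
      (Finset.restrict (winPast u e k (W e n)) y) :=
  gibbsMean_eq_mF u y e k _ _

lemma mApprox_nonneg (u : E → Lab) (y : E × ℕ → Lab) (e : E) (k n : ℕ) :
    0 ≤ mApprox (coef ν) W u y e k n := by
  rw [mApprox_eq]; exact mF_nonneg ν _ _ _ _

lemma mApprox_le_one (u : E → Lab) (y : E × ℕ → Lab) (e : E) (k n : ℕ) :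
    mApprox (coef ν) W u y e k n ≤ 1 := by
  rw [mApprox_eq]; exact mF_le_one ν _ _ _ _

lemma mLim_nonneg (u : E → Lab) (y : E × ℕ → Lab) (e : E) (k : ℕ) :
    0 ≤ mLim (coef ν) W u y e k := by
  unfold mLim
  apply le_limsup_of_frequently_le
  · exact Eventually.frequently (Eventually.of_forall fun n => mApprox_nonneg ν u y e k n)
  · exact isBoundedUnder_of ⟨1, fun n => mApprox_le_one ν u y e k n⟩

lemma mLim_le_one (u : E → Lab) (y : E × ℕ → Lab) (e : E) (k : ℕ) :
    mLim (coef ν) W u y e k ≤ 1 := by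
  unfold mLim
  apply limsup_le_of_le
  · exact isCoboundedUnder_le_of_le atTop (x := 0) fun n => mApprox_nonneg ν u y e k n
  · exact Eventually.of_forall fun n => mApprox_le_one ν u y e k n

lemma measurable_mApprox_pastSigma (c : Finset E → Finset E → ℝ) (W : E → ℕ → Finset E)
    (u : E → Lab) (e : E) (k n : ℕ) :
    Measurable[pastSigma u e k] (fun y : E × ℕ → Lab => mApprox c W u y e k n) := by
  simp_rw [mApprox_eq]
  refine (measurable_mF _ _ _ _).comp ?_
  refine @measurable_pi_iff _ _ _ (pastSigma u e k) _ _ |>.2 fun i => ?_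
  exact measurable_coord_pastSigma u e k (winPast_subset_pastIdx u e k _ i.1 i.2)

/-- The posterior limit depends only on the past. -/
lemma measurable_mLim_pastSigma (c : Finset E → Finset E → ℝ) (W : E → ℕ → Finset E)
    (u : E → Lab) (e : E) (k : ℕ) :
    Measurable[pastSigma u e k] (fun y : E × ℕ → Lab => mLim c W u y e k) := by
  unfold mLim
  exact Measurable.limsup (fun n => measurable_mApprox_pastSigma c W u e k n)

/-- The occupation of `e` as a real random variable. -/
noncomputable def bitF (e : E) (ω : (E → Bool) × (E × ℕ → Lab)) : ℝ :=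
  if ω.1 e = true then 1 else 0

lemma measurable_bitF (e : E) : Measurable (bitF (E := E) e) := by
  unfold bitF
  refine Measurable.ite ?_ measurable_const measurable_const
  have : Measurable (fun ω : (E → Bool) × (E × ℕ → Lab) => ω.1 e) :=
    (measurable_pi_apply e).comp measurable_fst
  exact this (measurableSet_singleton true)

lemma integrable_bitF (e : E) : Integrable (bitF (E := E) e) (PP ν) := by
  apply Integrable.of_bound (measurable_bitF e).aestronglyMeasurable 1
  refine ae_of_all _ fun ω => ?_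
  unfold bitF
  split_ifs <;> simp

/-- The filtration of the windows. -/
noncomputable def filt (hW : Exhausting W) (u : E → Lab) (e : E) (k : ℕ) :
    Filtration ℕ (inferInstance : MeasurableSpace ((E → Bool) × (E × ℕ → Lab))) where
  seq n := MeasurableSpace.comap (Zf (winPast u e k (W e n))) inferInstance
  mono' := by
    intro m n hmn
    simp only
    rw [← measurable_iff_comap_le]
    refine @measurable_pi_iff _ _ _ (MeasurableSpace.comap (Zf (winPast u e k (W e n))) inferInstance)
      _ _ |>.2 fun i => ?_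
    have hi : i.1 ∈ winPast u e k (W e n) := by
      have := mem_winPast.1 i.2
      exact mem_winPast.2 ⟨hW.mono e hmn this.1, this.2⟩
    exact (measurable_pi_apply (⟨i.1, hi⟩ : winPast u e k (W e n))).comp
      (comap_measurable (Zf (winPast u e k (W e n))))
  le' n := (measurable_Zf _).comap_le

lemma mApprox_Yobs (u : E → Lab) (e : E) (k n : ℕ) (ω : (E → Bool) × (E × ℕ → Lab)) :
    mApprox (coef ν) W u (Yobs ω.1 ω.2) e k n
      = mF (coef ν (W e n)) (W e n) (winPast u e k (W e n)) e (Zf (winPast u e k (W e n)) ω) :=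
  mApprox_eq _ _ _ _ _ _ _

/-- The approximants are conditional expectations. -/
lemma mApprox_ae_eq_condExp (hW : Exhausting W) (u : E → Lab) (e : E) (k n : ℕ) :
    (fun ω : (E → Bool) × (E × ℕ → Lab) => mApprox (coef ν) W u (Yobs ω.1 ω.2) e k n)
      =ᵐ[PP ν] (PP ν)[bitF e | filt hW u e k n] := by
  classical
  set R := winPast u e k (W e n) with hR
  have hmeas : Measurable[filt hW u e k n]
      (fun ω : (E → Bool) × (E × ℕ → Lab) => mApprox (coef ν) W u (Yobs ω.1 ω.2) e k n) := by
    simp_rw [mApprox_Yobs]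
    exact (measurable_mF _ _ _ _).comp (comap_measurable _)
  have hmeas' : Measurable
      (fun ω : (E → Bool) × (E × ℕ → Lab) => mApprox (coef ν) W u (Yobs ω.1 ω.2) e k n) :=
    hmeas.mono ((filt hW u e k).le n) le_rfl
  have hbd : ∀ ω : (E → Bool) × (E × ℕ → Lab),
      ‖mApprox (coef ν) W u (Yobs ω.1 ω.2) e k n‖ ≤ 1 := by
    intro ω
    rw [Real.norm_eq_abs, abs_of_nonneg (mApprox_nonneg ν u _ e k n)]
    exact mApprox_le_one ν u _ e k n
  have hint : Integrable
      (fun ω : (E → Bool) × (E × ℕ → Lab) => mApprox (coef ν) W u (Yobs ω.1 ω.2) e k n) (PP ν) :=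
    Integrable.of_bound hmeas'.aestronglyMeasurable 1 (ae_of_all _ hbd)
  refine ae_eq_condExp_of_forall_setIntegral_eq ((filt hW u e k).le n) (integrable_bitF ν e)
    (fun s _ _ => hint.integrableOn) ?_ hmeas.stronglyMeasurable.aestronglyMeasurable
  intro s hs _
  obtain ⟨B, hB, rfl⟩ := hs
  have hs' : MeasurableSet ((Zf R) ⁻¹' B) := (measurable_Zf R) hB
  have hind : ∀ f : (E → Bool) × (E × ℕ → Lab) → ℝ,
      ∫ ω in (Zf R) ⁻¹' B, f ω ∂PP ν = ∫ ω, B.indicator (fun _ => (1 : ℝ)) (Zf R ω) * f ω ∂PP ν := by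
    intro f
    rw [← integral_indicator hs']
    apply integral_congr_ae
    refine ae_of_all _ fun ω => ?_
    show _ = B.indicator (fun _ => (1 : ℝ)) (Zf R ω) * f ω
    by_cases hω : Zf R ω ∈ B
    · rw [indicator_of_mem (show ω ∈ (Zf R) ⁻¹' B from hω), indicator_of_mem hω, one_mul]
    · rw [indicator_of_notMem (show ω ∉ (Zf R) ⁻¹' B from hω), indicator_of_notMem hω, zero_mul]
  rw [hind, hind]
  have hb := bayes_window ν (W₀ := W e n) (R := R) winPast_fst (hW.mem e n)
    (B.indicator (fun _ => (1 : ℝ))) (measurable_const.indicator hB) 1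
    (by
      intro z
      by_cases hz : z ∈ B
      · simp [hz]
      · simp [hz])
  unfold bitF
  rw [hb]
  apply integral_congr_ae
  refine ae_of_all _ fun ω => ?_
  simp only
  rw [mApprox_Yobs]

/-- Almost sure convergence of the approximants to the conditional expectation given the whole past
(Levy's upward theorem). -/
theorem ae_tendsto_mApprox (hW : Exhausting W) (u : E → Lab) (e : E) (k : ℕ) :
    ∀ᵐ ω ∂(PP ν), Tendsto (fun n => mApprox (coef ν) W u (Yobs ω.1 ω.2) e k n) atTop
      (𝓝 (((PP ν)[bitF e | ⨆ n, filt hW u e k n]) ω)) := by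
  have h1 : ∀ᵐ ω ∂(PP ν), ∀ n, mApprox (coef ν) W u (Yobs ω.1 ω.2) e k n
      = ((PP ν)[bitF e | filt hW u e k n]) ω :=
    ae_all_iff.2 fun n => mApprox_ae_eq_condExp ν hW u e k n
  filter_upwards [h1, tendsto_ae_condExp (μ := PP ν) (ℱ := filt hW u e k) (bitF e)] with ω h2 h3
  simp_rw [h2]
  exact h3

/-- `mLim` is a version of the conditional expectation given the whole past. -/
theorem mLim_ae_eq (hW : Exhausting W) (u : E → Lab) (e : E) (k : ℕ) :
    ∀ᵐ ω ∂(PP ν), mLim (coef ν) W u (Yobs ω.1 ω.2) e k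
      = ((PP ν)[bitF e | ⨆ n, filt hW u e k n]) ω := by
  filter_upwards [ae_tendsto_mApprox ν hW u e k] with ω h
  exact h.limsup_eq

/-- Lévy upward + Bayes. -/
theorem ae_good [Countable E] (hW : Exhausting W) (u : E → Lab) :
    ∀ᵐ ω ∂(PP ν), (u, Yobs ω.1 ω.2) ∈ Good (coef ν) W := by
  have h : ∀ᵐ ω ∂(PP ν), ∀ e k, ∃ l, Tendsto (fun n => mApprox (coef ν) W u (Yobs ω.1 ω.2) e k n)
      atTop (𝓝 l) := by
    rw [ae_all_iff]
    intro e
    rw [ae_all_iff]
    intro k
    filter_upwards [ae_tendsto_mApprox ν hW u e k] with ω h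
    exact ⟨_, h⟩
  filter_upwards [h] with ω hω
  exact hω

lemma comap_pastSigma_le (hW : Exhausting W) (u : E → Lab) (e : E) (k : ℕ) :
    MeasurableSpace.comap (fun ω : (E → Bool) × (E × ℕ → Lab) => Yobs ω.1 ω.2) (pastSigma u e k)
      ≤ ⨆ n, filt hW u e k n := by
  unfold pastSigma
  rw [MeasurableSpace.comap_iSup]
  refine iSup_le fun i => ?_
  rw [MeasurableSpace.comap_iSup]
  refine iSup_le fun hi => ?_
  obtain ⟨n, hn⟩ := hW.exh e i.1
  refine le_iSup_of_le n ?_
  rw [MeasurableSpace.comap_comp]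
  show _ ≤ MeasurableSpace.comap (Zf (winPast u e k (W e n))) inferInstance
  have hi' : i ∈ winPast u e k (W e n) := mem_winPast.2 ⟨hn, hi⟩
  rw [← measurable_iff_comap_le]
  exact (measurable_pi_apply (⟨i, hi'⟩ : winPast u e k (W e n))).comp
      (comap_measurable (Zf (winPast u e k (W e n))))

/-- `mLim` is the posterior probability of `e` given the past. -/
theorem mLim_posterior (hW : Exhausting W) (u : E → Lab) (e : E) (k : ℕ)
    {A : Set (E × ℕ → Lab)} (hA : MeasurableSet[pastSigma u e k] A) :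
    ∫ ω in (fun ω : (E → Bool) × (E × ℕ → Lab) => Yobs ω.1 ω.2) ⁻¹' A,
        (if ω.1 e = true then (1 : ℝ) else 0) ∂PP ν
      = ∫ ω in (fun ω : (E → Bool) × (E × ℕ → Lab) => Yobs ω.1 ω.2) ⁻¹' A,
        mLim (coef ν) W u (Yobs ω.1 ω.2) e k ∂PP ν := by
  have hle : (⨆ n, filt hW u e k n) ≤
      (inferInstance : MeasurableSpace ((E → Bool) × (E × ℕ → Lab))) :=
    iSup_le fun n => (filt hW u e k).le n
  have hs : MeasurableSet[⨆ n, filt hW u e k n]
      ((fun ω : (E → Bool) × (E × ℕ → Lab) => Yobs ω.1 ω.2) ⁻¹' A) :=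
    comap_pastSigma_le hW u e k _ ⟨A, hA, rfl⟩
  have h1 := setIntegral_condExp hle (integrable_bitF ν e) hs
  have h2 : ∫ ω in (fun ω : (E → Bool) × (E × ℕ → Lab) => Yobs ω.1 ω.2) ⁻¹' A,
        mLim (coef ν) W u (Yobs ω.1 ω.2) e k ∂PP ν
      = ∫ ω in (fun ω : (E → Bool) × (E × ℕ → Lab) => Yobs ω.1 ω.2) ⁻¹' A,
        ((PP ν)[bitF e | ⨆ n, filt hW u e k n]) ω ∂PP ν :=
    setIntegral_congr_ae (hle _ hs)
      (by filter_upwards [mLim_ae_eq ν hW u e k] with ω h _; exact h)
  rw [h2, h1]
  rfl

end Levy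

end Crest.Agent.Lib.SRF
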