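/-
Row 168, task P1: the one-dimensional facts about the channel: the law of `Q1`, and the probability
integral transform for the mixture CDF.
-/
import Crest.Agent.Lib.SRF.Defs

set_option autoImplicit false

namespace Crest.Agent.Lib.SRF

open MeasureTheory Set

/-- The CDF of density `y + 1/2`. -/
noncomputable def cC (y : ℝ) : ℝ := (y ^ 2 + y) / 2

/-- Its inverse on `[0,1]`. -/
noncomputable def qQ (s : ℝ) : ℝ := (-1 + Real.sqrt (1 + 8 * s)) / 2

lemma sqrt_bounds {s : ℝ} (hs : s ∈ Icc (0 : ℝ) 1) :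
    1 ≤ Real.sqrt (1 + 8 * s) ∧ Real.sqrt (1 + 8 * s) ≤ 3 := by
  constructor
  · rw [Real.one_le_sqrt]
    linarith [hs.1]
  · rw [Real.sqrt_le_left (by norm_num)]
    linarith [hs.2]

lemma qQ_mem {s : ℝ} (hs : s ∈ Icc (0 : ℝ) 1) : qQ s ∈ Icc (0 : ℝ) 1 := by
  have := sqrt_bounds hs
  unfold qQ
  constructor <;> linarith [this.1, this.2]

lemma cC_qQ {s : ℝ} (hs : s ∈ Icc (0 : ℝ) 1) : cC (qQ s) = s := by
  have h : Real.sqrt (1 + 8 * s) ^ 2 = 1 + 8 * s := Real.sq_sqrt (by linarith [hs.1])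
  unfold cC qQ
  nlinarith [h]

lemma cC_mem {y : ℝ} (hy : y ∈ Icc (0 : ℝ) 1) : cC y ∈ Icc (0 : ℝ) 1 := by
  unfold cC
  constructor <;> nlinarith [hy.1, hy.2]

lemma qQ_cC {y : ℝ} (hy : y ∈ Icc (0 : ℝ) 1) : qQ (cC y) = y := by
  have h : (1 + 8 * cC y) = (2 * y + 1) ^ 2 := by
    unfold cC
    ring
  unfold qQ
  rw [h, Real.sqrt_sq (by linarith [hy.1])]
  ring

lemma Q1_coe (s : Lab) : (Q1 s : ℝ) = qQ s := by
  have h := Set.projIcc_of_mem (zero_le_one (α := ℝ)) (qQ_mem s.2)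
  exact congrArg Subtype.val h

lemma mix_mem {m y : ℝ} (hm : m ∈ Icc (0 : ℝ) 1) (hy : y ∈ Icc (0 : ℝ) 1) :
    mixCDF m y ∈ Icc (0 : ℝ) 1 := by
  unfold mixCDF
  have h1 := hm.1
  have h2 := hm.2
  have h3 := hy.1
  have h4 := hy.2
  have h5 : 0 ≤ y * (1 - y) := mul_nonneg h3 (by linarith)
  have h6 : y ^ 2 - y = -(y * (1 - y)) := by ring
  rw [h6]
  have h7 : m / 2 * (y * (1 - y)) ≤ 1 / 2 * (y * (1 - y)) :=
    mul_le_mul_of_nonneg_right (by linarith) h5
  have h8 : 0 ≤ m / 2 * (y * (1 - y)) := by positivity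
  constructor
  · nlinarith
  · nlinarith

lemma pit_mixV_coe {m : ℝ} (hm : m ∈ Icc (0 : ℝ) 1) (y : Lab) : (mixV m y : ℝ) = mixCDF m y := by
  have h := Set.projIcc_of_mem (zero_le_one (α := ℝ)) (mix_mem hm y.2)
  exact congrArg Subtype.val h

lemma mix_strict {m x y : ℝ} (hm : m ∈ Icc (0 : ℝ) 1) (hx : x ∈ Icc (0 : ℝ) 1)
    (hy : y ∈ Icc (0 : ℝ) 1) (hxy : x < y) : mixCDF m x < mixCDF m y := by
  have h : mixCDF m y - mixCDF m x = (y - x) * (1 + m / 2 * (x + y - 1)) := by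
    unfold mixCDF
    ring
  have h1 : 0 < y - x := by linarith
  have h2 : 0 < 1 + m / 2 * (x + y - 1) := by
    have h3 := hm.1
    have h4 := hm.2
    have h5 : -1 ≤ x + y - 1 := by linarith [hx.1, hy.1]
    have h6 : x + y - 1 ≤ 1 := by linarith [hx.2, hy.2]
    nlinarith
  nlinarith [mul_pos h1 h2]

lemma mix_injOn {m : ℝ} (hm : m ∈ Icc (0 : ℝ) 1) : InjOn (mixCDF m) (Icc (0 : ℝ) 1) := by
  intro x hx y hy h
  rcases lt_trichotomy x y with h1 | h1 | h1
  · exact absurd h (mix_strict hm hx hy h1).ne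
  · exact h1
  · exact absurd h (mix_strict hm hy hx h1).ne'

lemma mix_continuous (m : ℝ) : Continuous (mixCDF m) := by
  unfold mixCDF
  fun_prop

lemma mix_surj {m v : ℝ} (hv : v ∈ Icc (0 : ℝ) 1) : ∃ y ∈ Icc (0 : ℝ) 1, mixCDF m y = v := by
  have h := intermediate_value_Icc (zero_le_one (α := ℝ)) (mix_continuous m).continuousOn
  have h0 : mixCDF m 0 = 0 := by simp [mixCDF]
  have h1 : mixCDF m 1 = 1 := by simp [mixCDF]
  rw [h0, h1] at h
  exact h hv

lemma cC_injOn : InjOn cC (Icc (0 : ℝ) 1) := by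
  intro x hx y hy h
  rw [← qQ_cC hx, ← qQ_cC hy, h]

lemma hasDeriv_mix (m y : ℝ) : HasDerivAt (mixCDF m) (1 + m * (y - 1 / 2)) y := by
  have h1 : HasDerivAt (fun y : ℝ => y ^ 2) (2 * y) y := by simpa using hasDerivAt_pow 2 y
  have h2 := (h1.sub (hasDerivAt_id' y)).const_mul (m / 2)
  have h3 := (hasDerivAt_id' y).add h2
  have h4 : (1 + m / 2 * (2 * y - 1)) = 1 + m * (y - 1 / 2) := by ring
  rw [← h4]
  exact h3

lemma hasDeriv_cC (y : ℝ) : HasDerivAt cC (y + 1 / 2) y := by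
  have h1 : HasDerivAt (fun y : ℝ => y ^ 2) (2 * y) y := by simpa using hasDerivAt_pow 2 y
  have h2 := (h1.add (hasDerivAt_id' y)).div_const 2
  have h4 : (2 * y + 1) / 2 = y + 1 / 2 := by ring
  rw [← h4]
  exact h2

/-- Image measure under `cC`. -/
lemma vol_image_cC {B : Set ℝ} (hB : MeasurableSet B) (hB' : B ⊆ Icc (0 : ℝ) 1) :
    volume (cC '' B) = ∫⁻ y in B, ENNReal.ofReal (y + 1 / 2) := by
  have h := lintegral_image_eq_lintegral_abs_deriv_mul (f := cC) (f' := fun y => y + 1 / 2) hB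
    (fun x _ => (hasDeriv_cC x).hasDerivWithinAt) (cC_injOn.mono hB') (fun _ => 1)
  simp only [lintegral_one, Measure.restrict_apply, MeasurableSet.univ, univ_inter, mul_one] at h
  rw [h]
  apply setLIntegral_congr_fun hB
  intro x hx
  have : 0 ≤ x + 1 / 2 := by linarith [(hB' hx).1]
  simp only [abs_of_nonneg this]

/-- Image measure under the mixture CDF. -/
lemma vol_image_mix {m : ℝ} (hm : m ∈ Icc (0 : ℝ) 1) {B : Set ℝ} (hB : MeasurableSet B)
    (hB' : B ⊆ Icc (0 : ℝ) 1) :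
    volume (mixCDF m '' B) = ∫⁻ y in B, ENNReal.ofReal (1 + m * (y - 1 / 2)) := by
  have h := lintegral_image_eq_lintegral_abs_deriv_mul (f := mixCDF m)
    (f' := fun y => 1 + m * (y - 1 / 2)) hB
    (fun x _ => (hasDeriv_mix m x).hasDerivWithinAt) ((mix_injOn hm).mono hB') (fun _ => 1)
  simp only [lintegral_one, Measure.restrict_apply, MeasurableSet.univ, univ_inter, mul_one] at h
  rw [h]
  apply setLIntegral_congr_fun hB
  intro x hx
  have h1 := (hB' hx).1
  have h2 := (hB' hx).2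
  have : 0 ≤ 1 + m * (x - 1 / 2) := by nlinarith [hm.1, hm.2]
  simp only [abs_of_nonneg this]

/-- The law of `Q1` in terms of the real line. -/
lemma vol_Q1_preimage {B : Set Lab} (hB : MeasurableSet B) :
    volume {s : Lab | Q1 s ∈ B} = ∫⁻ y in Subtype.val '' B, ENNReal.ofReal (y + 1 / 2) := by
  have hB1 : MeasurableSet (Subtype.val '' B) :=
    unitInterval.measurableEmbedding_coe.measurableSet_image.2 hB
  have hB2 : Subtype.val '' B ⊆ Icc (0 : ℝ) 1 := by
    rintro _ ⟨y, _, rfl⟩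
    exact y.2
  rw [← vol_image_cC hB1 hB2, unitInterval.volume_apply]
  congr 1
  ext v
  constructor
  · rintro ⟨s, hs, rfl⟩
    refine ⟨Q1 s, ⟨Q1 s, hs, rfl⟩, ?_⟩
    rw [Q1_coe]
    exact cC_qQ s.2
  · rintro ⟨y, ⟨y', hy', rfl⟩, rfl⟩
    refine ⟨⟨cC y', cC_mem y'.2⟩, ?_, rfl⟩
    have : Q1 ⟨cC y', cC_mem y'.2⟩ = y' := by
      apply Subtype.ext
      rw [Q1_coe]
      exact qQ_cC y'.2
    show Q1 _ ∈ B
    rw [this]
    exact hy'

/-- The probability integral transform for the mixture. -/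
theorem pit {m : ℝ} (hm : m ∈ Icc (0 : ℝ) 1) {t : Set Lab} (ht : MeasurableSet t) :
    ENNReal.ofReal m * volume {s : Lab | mixV m (Q1 s) ∈ t}
      + ENNReal.ofReal (1 - m) * volume {s : Lab | mixV m s ∈ t} = volume t := by
  set T : Set ℝ := Subtype.val '' t with hT
  have hT1 : MeasurableSet T := unitInterval.measurableEmbedding_coe.measurableSet_image.2 ht
  have hT2 : T ⊆ Icc (0 : ℝ) 1 := by
    rintro _ ⟨y, _, rfl⟩
    exact y.2
  set B : Set ℝ := Icc (0 : ℝ) 1 ∩ mixCDF m ⁻¹' T with hB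
  have hB1 : MeasurableSet B := measurableSet_Icc.inter ((mix_continuous m).measurable hT1)
  have hB2 : B ⊆ Icc (0 : ℝ) 1 := inter_subset_left
  -- the image of `B` is `T`
  have himg : mixCDF m '' B = T := by
    ext v
    constructor
    · rintro ⟨y, hy, rfl⟩
      exact hy.2
    · intro hv
      obtain ⟨y, hy, rfl⟩ := mix_surj (m := m) (hT2 hv)
      exact ⟨y, ⟨hy, hv⟩, rfl⟩
  have hmem : ∀ y : Lab, mixV m y ∈ t ↔ (y : ℝ) ∈ B := by
    intro y
    constructor
    · intro h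
      refine ⟨y.2, ?_⟩
      show mixCDF m y ∈ T
      rw [← pit_mixV_coe hm]
      exact ⟨_, h, rfl⟩
    · rintro ⟨_, ⟨z, hz, hzy⟩⟩
      have : mixV m y = z := by
        apply Subtype.ext
        rw [pit_mixV_coe hm, hzy]
      rw [this]
      exact hz
  -- first volume
  have hv0 : volume {s : Lab | mixV m s ∈ t} = volume B := by
    rw [unitInterval.volume_apply]
    congr 1
    ext v
    constructor
    · rintro ⟨s, hs, rfl⟩
      exact (hmem s).1 hs
    · intro hv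
      exact ⟨⟨v, hB2 hv⟩, (hmem ⟨v, hB2 hv⟩).2 hv, rfl⟩
  -- the set of `Lab` points in `B`
  set B' : Set Lab := Subtype.val ⁻¹' B with hB'
  have hB'm : MeasurableSet B' := measurable_subtype_coe hB1
  have hB'img : Subtype.val '' B' = B := by
    ext v
    constructor
    · rintro ⟨s, hs, rfl⟩
      exact hs
    · intro hv
      exact ⟨⟨v, hB2 hv⟩, hv, rfl⟩
  have hv1 : volume {s : Lab | mixV m (Q1 s) ∈ t} = ∫⁻ y in B, ENNReal.ofReal (y + 1 / 2) := by
    have h := vol_Q1_preimage hB'm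
    rw [hB'img] at h
    rw [← h]
    congr 1
    ext s
    exact hmem (Q1 s)
  rw [hv0, hv1, unitInterval.volume_apply (s := t), ← hT, ← himg, vol_image_mix hm hB1 hB2]
  rw [← lintegral_const_mul' _ _ ENNReal.ofReal_ne_top]
  have hvolB : volume B = ∫⁻ _y in B, 1 := by simp
  rw [hvolB, ← lintegral_const_mul' _ _ ENNReal.ofReal_ne_top, ← lintegral_add_left (by fun_prop)]
  apply setLIntegral_congr_fun hB1
  intro y hy
  have h1 := (hB2 hy).1
  have h2 := (hB2 hy).2
  simp only [mul_one]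
  rw [← ENNReal.ofReal_mul hm.1, ← ENNReal.ofReal_add (mul_nonneg hm.1 (by linarith))
    (by linarith [hm.2])]
  congr 1
  ring

/-- The law of `Q1` is the density `y + 1/2`. -/
theorem map_Q1 : (volume : Measure Lab).map Q1
    = (volume : Measure Lab).withDensity (fun y => ENNReal.ofReal ((y : ℝ) + 1 / 2)) := by
  have hQ : Measurable Q1 :=
    (continuous_projIcc.comp (by fun_prop :
      Continuous fun s : Lab => (-1 + Real.sqrt (1 + 8 * (s : ℝ))) / 2)).measurable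
  ext B hB
  rw [Measure.map_apply hQ hB, withDensity_apply _ hB]
  have h1 := vol_Q1_preimage hB
  change volume {s : Lab | Q1 s ∈ B} = _
  rw [h1]
  have h2 := (unitInterval.measurePreserving_coe).setLIntegral_comp_emb
    unitInterval.measurableEmbedding_coe (fun y : ℝ => ENNReal.ofReal (y + 1 / 2)) B
  rw [h2, Measure.restrict_restrict (unitInterval.measurableEmbedding_coe.measurableSet_image.2 hB)]
  congr 2
  apply Eq.symm
  apply inter_eq_left.2
  rintro _ ⟨y, _, rfl⟩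
  exact y.2

end Crest.Agent.Lib.SRF
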