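/-
Row 168, task P3: the innovations are i.i.d. uniform.
-/
import Crest.Agent.Lib.SRF.PIT
import Crest.Agent.Lib.SRF.Bayes

set_option autoImplicit false

namespace Crest.Agent.Lib.SRF

open MeasureTheory Filter Topology Set
open scoped ENNReal

variable {E : Type*}

/-! ### Resampling one coordinate of the product measure -/

section Resample
variable {I : Type*}

lemma lam_pi (s : Finset I) {t : I → Set Lab} (ht : ∀ i, MeasurableSet (t i)) :
    lam I (Set.pi s t) = ∏ i ∈ s, volume (t i) :=
  Measure.infinitePi_pi _ (fun i _ => ht i)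

lemma measurable_update_pair [DecidableEq I] (i₀ : I) :
    Measurable (fun p : (I → Lab) × Lab => Function.update p.1 i₀ p.2) := by
  rw [measurable_pi_iff]
  intro i
  by_cases h : i = i₀
  · subst h
    simpa using measurable_snd
  · simp only [Function.update_of_ne h]
    exact (measurable_pi_apply i).comp measurable_fst

/-- Resampling a coordinate does not change the product law. -/
lemma map_update_lam [DecidableEq I] (i₀ : I) :
    ((lam I).prod (volume : Measure Lab)).map (fun p => Function.update p.1 i₀ p.2) = lam I := by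
  apply Measure.eq_infinitePi
  intro s t ht
  rw [Measure.map_apply (measurable_update_pair i₀) (MeasurableSet.pi s.countable_toSet (fun i _ => ht i))]
  by_cases hs : i₀ ∈ s
  · have hset : (fun p : (I → Lab) × Lab => Function.update p.1 i₀ p.2) ⁻¹' (Set.pi s t)
        = (Set.pi (s.erase i₀ : Finset I) t) ×ˢ (t i₀) := by
      ext ⟨w, z⟩
      simp only [mem_preimage, Set.mem_pi, mem_prod, Finset.mem_coe, Finset.mem_erase]
      constructor
      · intro h
        refine ⟨fun i hi => ?_, ?_⟩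
        · have := h i hi.2
          rwa [Function.update_of_ne hi.1] at this
        · have := h i₀ hs
          rwa [Function.update_self] at this
      · rintro ⟨h1, h2⟩ i hi
        by_cases hii : i = i₀
        · subst hii
          rwa [Function.update_self]
        · rw [Function.update_of_ne hii]
          exact h1 i ⟨hii, hi⟩
    rw [hset, Measure.prod_prod, lam_pi _ ht]
    rw [← Finset.mul_prod_erase s _ hs, mul_comm]
  · have hset : (fun p : (I → Lab) × Lab => Function.update p.1 i₀ p.2) ⁻¹' (Set.pi s t)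
        = (Set.pi (s : Set I) t) ×ˢ univ := by
      ext ⟨w, z⟩
      simp only [mem_preimage, Set.mem_pi, mem_prod, Finset.mem_coe, mem_univ, and_true]
      constructor
      · intro h i hi
        have hne : i ≠ i₀ := by
          rintro rfl
          exact hs hi
        have := h i hi
        rwa [Function.update_of_ne hne] at this
      · intro h i hi
        have hne : i ≠ i₀ := by
          rintro rfl
          exact hs hi
        rw [Function.update_of_ne hne]
        exact h i hi
    rw [hset, Measure.prod_prod, lam_pi _ ht]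
    simp

lemma lintegral_resample [DecidableEq I] (i₀ : I) {Φ : (I → Lab) → ℝ≥0∞} (hΦ : Measurable Φ) :
    ∫⁻ w, Φ w ∂(lam I) = ∫⁻ w, ∫⁻ s, Φ (Function.update w i₀ s) ∂(volume : Measure Lab) ∂(lam I) := by
  conv_lhs => rw [← map_update_lam i₀]
  rw [lintegral_map hΦ (measurable_update_pair i₀)]
  exact lintegral_prod (fun p : (I → Lab) × Lab => Φ (Function.update p.1 i₀ p.2))
    (hΦ.comp (measurable_update_pair i₀)).aemeasurable

end Resample

/-! ### The past sigma-algebra -/

section Past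

/-- Agreement on the past gives the same membership in a past-measurable set. -/
def agreeSigma (P : Set (E × ℕ)) : MeasurableSpace (E × ℕ → Lab) where
  MeasurableSet' A := ∀ y y', (∀ i ∈ P, y i = y' i) → (y ∈ A → y' ∈ A)
  measurableSet_empty := fun _ _ _ h => h
  measurableSet_compl := by
    intro A hA y y' h hy hy'
    exact hy (hA y' y (fun i hi => (h i hi).symm) hy')
  measurableSet_iUnion := by
    intro f hf y y' h hy
    obtain ⟨n, hn⟩ := Set.mem_iUnion.1 hy
    exact Set.mem_iUnion.2 ⟨n, hf n y y' h hn⟩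

lemma pastSigma_le_agree (u : E → Lab) (e : E) (k : ℕ) :
    pastSigma u e k ≤ agreeSigma (pastIdx u e k) := by
  unfold pastSigma
  apply iSup₂_le
  intro i hi A hA
  obtain ⟨B, _, rfl⟩ := hA
  intro y y' h hy
  show y' i ∈ B
  rw [← h i hi]
  exact hy

lemma mem_past_set {u : E → Lab} {e : E} {k : ℕ} {A : Set (E × ℕ → Lab)}
    (hA : MeasurableSet[pastSigma u e k] A) {y y' : E × ℕ → Lab}
    (h : ∀ i ∈ pastIdx u e k, y i = y' i) : y ∈ A ↔ y' ∈ A :=
  ⟨pastSigma_le_agree u e k _ hA y y' h,
    pastSigma_le_agree u e k _ hA y' y (fun i hi => (h i hi).symm)⟩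

lemma eq_of_past {β : Type*} [MeasurableSpace β] [MeasurableSingletonClass β] {u : E → Lab} {e : E}
    {k : ℕ} {f : (E × ℕ → Lab) → β} (hf : Measurable[pastSigma u e k] f) {y y' : E × ℕ → Lab}
    (h : ∀ i ∈ pastIdx u e k, y i = y' i) : f y = f y' := by
  have := mem_past_set (hf (measurableSet_singleton (f y'))) h
  exact this.2 rfl

lemma self_not_mem_past (u : E → Lab) (e : E) (k : ℕ) : (e, k) ∉ pastIdx u e k := by
  simp [pastIdx]

lemma past_trans {u : E → Lab} {e e' : E} {k k' : ℕ} (h : (e, k) ∈ pastIdx u e' k') :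
    pastIdx u e k ⊆ pastIdx u e' k' := by
  intro i hi
  simp only [pastIdx, mem_setOf_eq] at h hi ⊢
  rcases h with h | ⟨h1, h2⟩ <;> rcases hi with hi | ⟨hi1, hi2⟩
  · left; omega
  · left; omega
  · left; omega
  · right; exact ⟨by omega, hi2.trans h2⟩

lemma pastSigma_mono {u : E → Lab} {e e' : E} {k k' : ℕ} (h : (e, k) ∈ pastIdx u e' k') :
    pastSigma u e k ≤ pastSigma u e' k' := by
  unfold pastSigma
  apply iSup₂_le
  intro i hi
  exact le_iSup₂_of_le i (past_trans h hi) le_rfl

lemma measurable_eval_past {u : E → Lab} {e : E} {k : ℕ} {i : E × ℕ} (h : i ∈ pastIdx u e k) :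
    Measurable[pastSigma u e k] (fun y : E × ℕ → Lab => y i) := by
  apply Measurable.of_comap_le
  unfold pastSigma
  exact le_iSup₂_of_le i h le_rfl

end Past

/-! ### Continuity of the innovation -/

lemma mixV_jointly_continuous : Continuous (fun p : ℝ × Lab => mixV p.1 p.2) := by
  unfold mixV mixCDF
  exact continuous_projIcc.comp (by fun_prop)

section Main

variable [Countable E] (ν : Measure (E → Bool)) [IsProbabilityMeasure ν] {W : E → ℕ → Finset E}

lemma innov_measurable_Y : Measurable (fun ω : (E → Bool) × (E × ℕ → Lab) => Yobs ω.1 ω.2) := by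
  rw [measurable_pi_iff]
  intro i
  unfold Yobs Qt
  apply Measurable.ite
  · have : Measurable (fun ω : (E → Bool) × (E × ℕ → Lab) => ω.1 i.1) :=
      (measurable_pi_apply i.1).comp measurable_fst
    exact this (measurableSet_singleton true)
  · exact measurable_Q1b.comp ((measurable_pi_apply i).comp measurable_snd)
  · exact (measurable_pi_apply i).comp measurable_snd

/-- The innovation at a ring is measurable with respect to any later past. -/
lemma measurable_innov_past {u : E → Lab} {e e' : E} {k k' : ℕ} (h : (e, k) ∈ pastIdx u e' k') :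
    Measurable[pastSigma u e' k'] (fun y => innov (coef ν) W u y (e, k)) := by
  have h1 : Measurable[pastSigma u e' k'] (fun y => mLim (coef ν) W u y e k) :=
    (measurable_mLim_pastSigma (coef ν) W u e k).mono (pastSigma_mono h) le_rfl
  have h2 := measurable_eval_past h
  exact mixV_jointly_continuous.measurable.comp (h1.prodMk h2)

/-- The innovation at every ring is measurable. -/
lemma measurable_innov_full (u : E → Lab) (i : E × ℕ) :
    Measurable (fun y => innov (coef ν) W u y i) := by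
  have h1 : Measurable (fun y => mLim (coef ν) W u y i.1 i.2) :=
    (measurable_mLim_pastSigma (coef ν) W u i.1 i.2).mono (pastSigma_le u i.1 i.2) le_rfl
  exact mixV_jointly_continuous.measurable.comp (h1.prodMk (measurable_pi_apply i))

omit [Countable E] in
lemma innov_lam_prob (I : Type*) : IsProbabilityMeasure (lam I) := inferInstance

omit [Countable E] in
lemma innov_pp_prob : IsProbabilityMeasure (PP ν) := inferInstance

/-- Conversion between the integral and the Lebesgue integral for functions with values in `[0,1]`. -/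
lemma lint_eq_of_int {Ω : Type*} [MeasurableSpace Ω] {μ : Measure Ω} [IsFiniteMeasure μ]
    {f g : Ω → ℝ} (hf : Measurable f) (hg : Measurable g)
    (hf0 : ∀ ω, 0 ≤ f ω) (hf1 : ∀ ω, f ω ≤ 1) (hg0 : ∀ ω, 0 ≤ g ω) (hg1 : ∀ ω, g ω ≤ 1)
    (h : ∫ ω, f ω ∂μ = ∫ ω, g ω ∂μ) :
    ∫⁻ ω, ENNReal.ofReal (f ω) ∂μ = ∫⁻ ω, ENNReal.ofReal (g ω) ∂μ := by
  have hfi : Integrable f μ := Integrable.of_bound hf.aestronglyMeasurable 1
    (Filter.Eventually.of_forall (fun ω => by
      rw [Real.norm_eq_abs, abs_of_nonneg (hf0 ω)]; exact hf1 ω))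
  have hgi : Integrable g μ := Integrable.of_bound hg.aestronglyMeasurable 1
    (Filter.Eventually.of_forall (fun ω => by
      rw [Real.norm_eq_abs, abs_of_nonneg (hg0 ω)]; exact hg1 ω))
  rw [← ofReal_integral_eq_lintegral_ofReal hfi (Filter.Eventually.of_forall hf0),
    ← ofReal_integral_eq_lintegral_ofReal hgi (Filter.Eventually.of_forall hg0), h]

/-- A general tower argument from sets to functions. -/
lemma tower_general {Ω I : Type*} [MeasurableSpace Ω] {m0 : MeasurableSpace I} {μ : Measure Ω}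
    {Y : Ω → I} (hY : @Measurable Ω I _ m0 Y) {a b : Ω → ℝ≥0∞} (ha : Measurable a) (hb : Measurable b)
    {𝓕 : MeasurableSpace I} (h𝓕 : 𝓕 ≤ m0)
    (hab : ∀ A, MeasurableSet[𝓕] A → ∫⁻ ω in Y ⁻¹' A, a ω ∂μ = ∫⁻ ω in Y ⁻¹' A, b ω ∂μ)
    {G : I → ℝ≥0∞} (hG : Measurable[𝓕] G) :
    ∫⁻ ω, a ω * G (Y ω) ∂μ = ∫⁻ ω, b ω * G (Y ω) ∂μ := by
  have hcomp : ∀ {f : I → ℝ≥0∞}, Measurable[𝓕] f → Measurable (fun ω => f (Y ω)) :=
    fun {f} hf => (hf.mono h𝓕 le_rfl).comp hY
  refine @Measurable.ennreal_induction I 𝓕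
    (fun G => ∫⁻ ω, a ω * G (Y ω) ∂μ = ∫⁻ ω, b ω * G (Y ω) ∂μ) ?_ ?_ ?_ G hG
  · intro c A hA
    have hA' : MeasurableSet (Y ⁻¹' A) := hY (h𝓕 _ hA)
    have key : ∀ d : Ω → ℝ≥0∞, Measurable d →
        ∫⁻ ω, d ω * (A.indicator (fun _ => c)) (Y ω) ∂μ = c * ∫⁻ ω in Y ⁻¹' A, d ω ∂μ := by
      intro d hd
      rw [← lintegral_const_mul _ hd, ← lintegral_indicator hA']
      apply lintegral_congr
      intro ω
      by_cases h : Y ω ∈ A
      · have h' : ω ∈ Y ⁻¹' A := h
        rw [Set.indicator_of_mem h, Set.indicator_of_mem h', mul_comm]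
      · have h' : ω ∉ Y ⁻¹' A := h
        rw [Set.indicator_of_notMem h, Set.indicator_of_notMem h', mul_zero]
    rw [key a ha, key b hb, hab A hA]
  · intro f g _ hf hg ihf ihg
    have key : ∀ d : Ω → ℝ≥0∞, Measurable d →
        ∫⁻ ω, d ω * (f + g) (Y ω) ∂μ = ∫⁻ ω, d ω * f (Y ω) ∂μ + ∫⁻ ω, d ω * g (Y ω) ∂μ := by
      intro d hd
      have h1 : Measurable (fun ω => d ω * f (Y ω)) := hd.mul (hcomp hf)
      rw [← lintegral_add_left h1]
      apply lintegral_congr
      intro ω
      simp only [Pi.add_apply, mul_add]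
    rw [key a ha, key b hb, ihf, ihg]
  · intro f hf hmono ih
    have key : ∀ d : Ω → ℝ≥0∞, Measurable d →
        ∫⁻ ω, d ω * (⨆ n, f n (Y ω)) ∂μ = ⨆ n, ∫⁻ ω, d ω * f n (Y ω) ∂μ := by
      intro d hd
      simp_rw [ENNReal.mul_iSup]
      apply lintegral_iSup (fun n => hd.mul (hcomp (hf n)))
      intro n n' hnn' ω
      exact mul_le_mul_right (hmono hnn' (Y ω)) _
    simp only [key a ha, key b hb, ih]

omit [Countable E] in
lemma measurableSet_x (e : E) :
    MeasurableSet {ω : (E → Bool) × (E × ℕ → Lab) | ω.1 e = true} := by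
  have h : Measurable (fun ω : (E → Bool) × (E × ℕ → Lab) => ω.1 e) :=
    (measurable_pi_apply e).comp measurable_fst
  exact h (measurableSet_singleton true)

lemma measurable_mLim_full (u : E → Lab) (e : E) (k : ℕ) :
    Measurable (fun y => mLim (coef ν) W u y e k) :=
  (measurable_mLim_pastSigma (coef ν) W u e k).mono (pastSigma_le u e k) le_rfl

lemma post_true (hW : Exhausting W) {u : E → Lab} (hu : Function.Injective u) (e : E) (k : ℕ)
    {A : Set (E × ℕ → Lab)} (hA : MeasurableSet[pastSigma u e k] A) :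
    ∫⁻ ω in (fun ω : (E → Bool) × (E × ℕ → Lab) => Yobs ω.1 ω.2) ⁻¹' A, (if ω.1 e = true then (1 : ℝ≥0∞) else 0) ∂PP ν
      = ∫⁻ ω in (fun ω : (E → Bool) × (E × ℕ → Lab) => Yobs ω.1 ω.2) ⁻¹' A, ENNReal.ofReal (mLim (coef ν) W u (Yobs ω.1 ω.2) e k) ∂PP ν := by
  haveI := innov_pp_prob ν
  have hm : Measurable (fun ω : (E → Bool) × (E × ℕ → Lab) => mLim (coef ν) W u (Yobs ω.1 ω.2) e k) :=
    (measurable_mLim_full ν u e k).comp innov_measurable_Y
  have hx : Measurable (fun ω : (E → Bool) × (E × ℕ → Lab) => if ω.1 e = true then (1 : ℝ) else 0) := by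
    exact Measurable.ite (measurableSet_x e) measurable_const measurable_const
  have h := lint_eq_of_int (μ := (PP ν).restrict ((fun ω : (E → Bool) × (E × ℕ → Lab) => Yobs ω.1 ω.2) ⁻¹' A)) hx hm
    (fun ω => by split_ifs <;> norm_num) (fun ω => by split_ifs <;> norm_num)
    (fun ω => mLim_nonneg (W := W) ν u _ e k) (fun ω => mLim_le_one (W := W) ν u _ e k)
    (mLim_posterior ν hW u e k hA)
  rw [← h]
  apply lintegral_congr
  intro ω
  split_ifs <;> simp

lemma post_false (hW : Exhausting W) {u : E → Lab} (hu : Function.Injective u) (e : E) (k : ℕ)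
    {A : Set (E × ℕ → Lab)} (hA : MeasurableSet[pastSigma u e k] A) :
    ∫⁻ ω in (fun ω : (E → Bool) × (E × ℕ → Lab) => Yobs ω.1 ω.2) ⁻¹' A, (if ω.1 e = true then (0 : ℝ≥0∞) else 1) ∂PP ν
      = ∫⁻ ω in (fun ω : (E → Bool) × (E × ℕ → Lab) => Yobs ω.1 ω.2) ⁻¹' A, ENNReal.ofReal (1 - mLim (coef ν) W u (Yobs ω.1 ω.2) e k) ∂PP ν := by
  haveI := innov_pp_prob ν
  have hm : Measurable (fun ω : (E → Bool) × (E × ℕ → Lab) => mLim (coef ν) W u (Yobs ω.1 ω.2) e k) :=
    (measurable_mLim_full ν u e k).comp innov_measurable_Y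
  have hx : Measurable (fun ω : (E → Bool) × (E × ℕ → Lab) => if ω.1 e = true then (1 : ℝ) else 0) := by
    exact Measurable.ite (measurableSet_x e) measurable_const measurable_const
  have hx0 : ∀ ω : (E → Bool) × (E × ℕ → Lab), 0 ≤ (if ω.1 e = true then (1 : ℝ) else 0) :=
    fun ω => by split_ifs <;> norm_num
  have hx1 : ∀ ω : (E → Bool) × (E × ℕ → Lab), (if ω.1 e = true then (1 : ℝ) else 0) ≤ 1 :=
    fun ω => by split_ifs <;> norm_num
  have hm0 := fun ω : (E → Bool) × (E × ℕ → Lab) => mLim_nonneg (W := W) ν u (Yobs ω.1 ω.2) e k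
  have hm1 := fun ω : (E → Bool) × (E × ℕ → Lab) => mLim_le_one (W := W) ν u (Yobs ω.1 ω.2) e k
  have hxi : Integrable (fun ω : (E → Bool) × (E × ℕ → Lab) => if ω.1 e = true then (1 : ℝ) else 0)
      ((PP ν).restrict ((fun ω : (E → Bool) × (E × ℕ → Lab) => Yobs ω.1 ω.2) ⁻¹' A)) :=
    Integrable.of_bound hx.aestronglyMeasurable 1 (Filter.Eventually.of_forall (fun ω => by
      rw [Real.norm_eq_abs, abs_of_nonneg (hx0 ω)]; exact hx1 ω))
  have hmi : Integrable (fun ω : (E → Bool) × (E × ℕ → Lab) => mLim (coef ν) W u (Yobs ω.1 ω.2) e k)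
      ((PP ν).restrict ((fun ω : (E → Bool) × (E × ℕ → Lab) => Yobs ω.1 ω.2) ⁻¹' A)) :=
    Integrable.of_bound hm.aestronglyMeasurable 1 (Filter.Eventually.of_forall (fun ω => by
      rw [Real.norm_eq_abs, abs_of_nonneg (hm0 ω)]; exact hm1 ω))
  have h := lint_eq_of_int (μ := (PP ν).restrict ((fun ω : (E → Bool) × (E × ℕ → Lab) => Yobs ω.1 ω.2) ⁻¹' A))
    (f := fun ω => 1 - (if ω.1 e = true then (1 : ℝ) else 0))
    (g := fun ω => 1 - mLim (coef ν) W u (Yobs ω.1 ω.2) e k)
    (measurable_const.sub hx) (measurable_const.sub hm)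
    (fun ω => by linarith [hx1 ω]) (fun ω => by linarith [hx0 ω])
    (fun ω => by linarith [hm1 ω]) (fun ω => by linarith [hm0 ω])
    (by
      rw [integral_sub (integrable_const _) hxi, integral_sub (integrable_const _) hmi,
        mLim_posterior ν hW u e k hA])
  rw [← h]
  apply lintegral_congr
  intro ω
  split_ifs <;> simp

/-- The main step: given the past, the innovation is uniform. -/
lemma innov_step (hW : Exhausting W) {u : E → Lab} (hu : Function.Injective u) (e₀ : E) (k₀ : ℕ)
    {A : Set (E × ℕ → Lab)} (hA : MeasurableSet[pastSigma u e₀ k₀] A) {t : Set Lab}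
    (ht : MeasurableSet t) :
    PP ν ((fun ω : (E → Bool) × (E × ℕ → Lab) => Yobs ω.1 ω.2) ⁻¹' A ∩ {ω | innov (coef ν) W u (Yobs ω.1 ω.2) (e₀, k₀) ∈ t})
      = volume t * PP ν ((fun ω : (E → Bool) × (E × ℕ → Lab) => Yobs ω.1 ω.2) ⁻¹' A) := by
  classical
  haveI := innov_lam_prob (E × ℕ)
  haveI := innov_pp_prob ν
  set i₀ : E × ℕ := (e₀, k₀) with hi₀
  set m : (E × ℕ → Lab) → ℝ := fun y => mLim (coef ν) W u y e₀ k₀ with hm
  have hmP : Measurable[pastSigma u e₀ k₀] m := measurable_mLim_pastSigma (coef ν) W u e₀ k₀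
  have hmF : Measurable m := measurable_mLim_full ν u e₀ k₀
  have hA' : MeasurableSet A := pastSigma_le u e₀ k₀ _ hA
  -- the conditional law
  set g : Bool → ℝ → ℝ≥0∞ := fun b r => volume {s : Lab | mixV r (Qt b s) ∈ t} with hg
  have hgm : ∀ b, Measurable (g b) := by
    intro b
    have hset : MeasurableSet {p : ℝ × Lab | mixV p.1 (Qt b p.2) ∈ t} := by
      have : Measurable (fun p : ℝ × Lab => mixV p.1 (Qt b p.2)) :=
        mixV_jointly_continuous.measurable.comp
          (measurable_fst.prodMk ((measurable_Qt b).comp measurable_snd))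
      exact this ht
    exact measurable_measure_prodMk_left hset
  set G : Bool → (E × ℕ → Lab) → ℝ≥0∞ := fun b y => A.indicator (fun _ => 1) y * g b (m y) with hG
  have hGm : ∀ b, Measurable[pastSigma u e₀ k₀] (G b) := by
    intro b
    have h1 : Measurable[pastSigma u e₀ k₀] (A.indicator (fun _ => (1 : ℝ≥0∞))) :=
      measurable_const.indicator hA
    exact h1.mul ((hgm b).comp hmP)
  -- measurability of the set
  have hS : MeasurableSet ((fun ω : (E → Bool) × (E × ℕ → Lab) => Yobs ω.1 ω.2) ⁻¹' A ∩ {ω | innov (coef ν) W u (Yobs ω.1 ω.2) i₀ ∈ t}) := by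
    refine (innov_measurable_Y hA').inter ?_
    exact ((measurable_innov_full ν u i₀).comp innov_measurable_Y) ht
  -- integrate out the noise at `i₀`
  have hstep1 : PP ν ((fun ω : (E → Bool) × (E × ℕ → Lab) => Yobs ω.1 ω.2) ⁻¹' A ∩ {ω | innov (coef ν) W u (Yobs ω.1 ω.2) i₀ ∈ t})
      = ∫⁻ ω, G (ω.1 e₀) (Yobs ω.1 ω.2) ∂PP ν := by
    set S := (fun ω : (E → Bool) × (E × ℕ → Lab) => Yobs ω.1 ω.2) ⁻¹' A ∩ {ω | innov (coef ν) W u (Yobs ω.1 ω.2) i₀ ∈ t} with hSdef
    have hindm : Measurable (S.indicator (fun _ => (1 : ℝ≥0∞))) := measurable_const.indicator hS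
    have hRm : Measurable (fun ω : (E → Bool) × (E × ℕ → Lab) => G (ω.1 e₀) (Yobs ω.1 ω.2)) := by
      have hGF : ∀ b, Measurable (G b) := fun b => (hGm b).mono (pastSigma_le u e₀ k₀) le_rfl
      have : (fun ω : (E → Bool) × (E × ℕ → Lab) => G (ω.1 e₀) (Yobs ω.1 ω.2))
          = fun ω => if ω.1 e₀ = true then G true (Yobs ω.1 ω.2) else G false (Yobs ω.1 ω.2) := by
        funext ω
        cases ω.1 e₀ <;> simp
      rw [this]
      exact Measurable.ite (measurableSet_x e₀) ((hGF true).comp innov_measurable_Y)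
        ((hGF false).comp innov_measurable_Y)
    have h0 : PP ν S = ∫⁻ ω, S.indicator (fun _ => (1 : ℝ≥0∞)) ω ∂PP ν := by
      rw [lintegral_indicator_const hS, one_mul]
    rw [h0]
    unfold PP
    have e1 := lintegral_prod (μ := ν) (ν := lam (E × ℕ))
      (fun ω => S.indicator (fun _ => (1 : ℝ≥0∞)) ω) hindm.aemeasurable
    have e2 := lintegral_prod (μ := ν) (ν := lam (E × ℕ))
      (fun ω => G (ω.1 e₀) (Yobs ω.1 ω.2)) hRm.aemeasurable
    rw [e1, e2]
    apply lintegral_congr
    intro x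
    have hΦ : Measurable (fun w : E × ℕ → Lab => S.indicator (fun _ => (1 : ℝ≥0∞)) (x, w)) :=
      hindm.comp measurable_prodMk_left
    rw [lintegral_resample i₀ hΦ]
    apply lintegral_congr
    intro w
    -- the inner integral
    set y := Yobs x w with hy
    have hsect : MeasurableSet {s : Lab | mixV (m y) (Qt (x e₀) s) ∈ t} := by
      have : Measurable (fun s : Lab => mixV (m y) (Qt (x e₀) s)) :=
        mixV_jointly_continuous.measurable.comp
          (measurable_const.prodMk (measurable_Qt (x e₀)))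
      exact this ht
    have hiff : ∀ s : Lab, (x, Function.update w i₀ s) ∈ S ↔
        (y ∈ A ∧ mixV (m y) (Qt (x e₀) s) ∈ t) := by
      intro s
      set y' := Yobs x (Function.update w i₀ s) with hy'
      have hagree : ∀ i ∈ pastIdx u e₀ k₀, y' i = y i := by
        intro i hi
        have hne : i ≠ i₀ := by
          rintro rfl
          exact self_not_mem_past u e₀ k₀ hi
        simp only [hy', hy, Yobs, Function.update_of_ne hne]
      have hval : y' i₀ = Qt (x e₀) s := by
        simp only [hy', Yobs, Function.update_self, hi₀]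
      have h1 : y' ∈ A ↔ y ∈ A := mem_past_set hA hagree
      have h2 : m y' = m y := eq_of_past hmP hagree
      show (y' ∈ A ∧ mixV (m y') (y' i₀) ∈ t) ↔ _
      rw [h1, h2, hval]
    by_cases hyA : y ∈ A
    · have hG1 : G (x e₀) y = volume {s : Lab | mixV (m y) (Qt (x e₀) s) ∈ t} := by
        simp only [hG, hg, Set.indicator_of_mem hyA, one_mul]
      rw [hG1, ← lintegral_indicator_one hsect]
      apply lintegral_congr
      intro s
      by_cases hs : mixV (m y) (Qt (x e₀) s) ∈ t
      · rw [Set.indicator_of_mem ((hiff s).2 ⟨hyA, hs⟩), Set.indicator_of_mem (show s ∈ _ from hs)]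
        rfl
      · rw [Set.indicator_of_notMem (fun h => hs ((hiff s).1 h).2),
          Set.indicator_of_notMem (show s ∉ _ from hs)]
    · have hG1 : G (x e₀) y = 0 := by
        simp only [hG, Set.indicator_of_notMem hyA, zero_mul]
      rw [hG1]
      have : ∀ s : Lab, S.indicator (fun _ => (1 : ℝ≥0∞)) (x, Function.update w i₀ s) = 0 := by
        intro s
        exact Set.indicator_of_notMem (fun h => hyA ((hiff s).1 h).1) _
      simp only [this, lintegral_zero]
  -- the tower property
  have hGF : ∀ b, Measurable (G b) := fun b => (hGm b).mono (pastSigma_le u e₀ k₀) le_rfl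
  set a₁ : (E → Bool) × (E × ℕ → Lab) → ℝ≥0∞ := fun ω => if ω.1 e₀ = true then 1 else 0 with ha₁
  set a₀ : (E → Bool) × (E × ℕ → Lab) → ℝ≥0∞ := fun ω => if ω.1 e₀ = true then 0 else 1 with ha₀
  have ha₁m : Measurable a₁ := Measurable.ite (measurableSet_x e₀) measurable_const measurable_const
  have ha₀m : Measurable a₀ := Measurable.ite (measurableSet_x e₀) measurable_const measurable_const
  have hm' : Measurable (fun ω : (E → Bool) × (E × ℕ → Lab) => m (Yobs ω.1 ω.2)) :=
    hmF.comp innov_measurable_Y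
  have hb₁m : Measurable (fun ω : (E → Bool) × (E × ℕ → Lab) => ENNReal.ofReal (m (Yobs ω.1 ω.2))) :=
    ENNReal.measurable_ofReal.comp hm'
  have hb₀m : Measurable (fun ω : (E → Bool) × (E × ℕ → Lab) =>
      ENNReal.ofReal (1 - m (Yobs ω.1 ω.2))) :=
    ENNReal.measurable_ofReal.comp (measurable_const.sub hm')
  have htow₁ := tower_general (μ := PP ν) innov_measurable_Y ha₁m hb₁m (pastSigma_le u e₀ k₀)
    (fun B hB => post_true ν hW hu e₀ k₀ hB) (hGm true)
  have htow₀ := tower_general (μ := PP ν) innov_measurable_Y ha₀m hb₀m (pastSigma_le u e₀ k₀)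
    (fun B hB => post_false ν hW hu e₀ k₀ hB) (hGm false)
  rw [hstep1]
  have hsplit : ∫⁻ ω, G (ω.1 e₀) (Yobs ω.1 ω.2) ∂PP ν
      = ∫⁻ ω, a₁ ω * G true (Yobs ω.1 ω.2) ∂PP ν + ∫⁻ ω, a₀ ω * G false (Yobs ω.1 ω.2) ∂PP ν := by
    have hmul : Measurable (fun ω : (E → Bool) × (E × ℕ → Lab) => a₁ ω * G true (Yobs ω.1 ω.2)) :=
      ha₁m.mul ((hGF true).comp innov_measurable_Y)
    rw [← lintegral_add_left hmul]
    apply lintegral_congr
    intro ω
    simp only [ha₁, ha₀]
    cases ω.1 e₀ <;> simp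
  have hmul' : Measurable (fun ω : (E → Bool) × (E × ℕ → Lab) =>
      ENNReal.ofReal (m (Yobs ω.1 ω.2)) * G true (Yobs ω.1 ω.2)) :=
    hb₁m.mul ((hGF true).comp innov_measurable_Y)
  rw [hsplit, htow₁, htow₀, ← lintegral_add_left hmul']
  -- the probability integral transform
  have hA_ind : Measurable (A.indicator (fun _ => (1 : ℝ≥0∞))) := measurable_const.indicator hA'
  have hfinal : ∀ ω : (E → Bool) × (E × ℕ → Lab),
      ENNReal.ofReal (m (Yobs ω.1 ω.2)) * G true (Yobs ω.1 ω.2)
        + ENNReal.ofReal (1 - m (Yobs ω.1 ω.2)) * G false (Yobs ω.1 ω.2)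
      = volume t * ((fun ω : (E → Bool) × (E × ℕ → Lab) => Yobs ω.1 ω.2) ⁻¹' A).indicator
          (fun _ => (1 : ℝ≥0∞)) ω := by
    intro ω
    have hr : m (Yobs ω.1 ω.2) ∈ Icc (0 : ℝ) 1 :=
      ⟨mLim_nonneg (W := W) ν u _ e₀ k₀, mLim_le_one (W := W) ν u _ e₀ k₀⟩
    have hpit := pit hr ht
    by_cases hyA : Yobs ω.1 ω.2 ∈ A
    · have hω : ω ∈ (fun ω : (E → Bool) × (E × ℕ → Lab) => Yobs ω.1 ω.2) ⁻¹' A := hyA
      rw [Set.indicator_of_mem hω]
      simp only [hG, hg, Set.indicator_of_mem hyA, one_mul, mul_one]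
      have h1 : ∀ s : Lab, Qt true s = Q1 s := fun s => by simp [Qt]
      have h0 : ∀ s : Lab, Qt false s = s := fun s => by simp [Qt]
      simp only [h1, h0]
      exact hpit
    · have hω : ω ∉ (fun ω : (E → Bool) × (E × ℕ → Lab) => Yobs ω.1 ω.2) ⁻¹' A := hyA
      rw [Set.indicator_of_notMem hω]
      simp only [hG, Set.indicator_of_notMem hyA, zero_mul, mul_zero, add_zero]
  simp only [hfinal]
  rw [lintegral_const_mul _ (measurable_const.indicator (innov_measurable_Y hA')),
    lintegral_indicator_const (innov_measurable_Y hA'), one_mul]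

omit [Countable E] in
lemma mem_past_of_lex {u : E → Lab} (hu : Function.Injective u) {a x : E × ℕ} (hne : x ≠ a)
    (h : toLex (x.2, u x.1) ≤ toLex (a.2, u a.1)) : x ∈ pastIdx u a.1 a.2 := by
  rw [Prod.Lex.toLex_le_toLex] at h
  rcases h with h | ⟨h1, h2⟩
  · exact Or.inl h
  · refine Or.inr ⟨h1, lt_of_le_of_ne h2 ?_⟩
    intro h3
    exact hne (Prod.ext (hu h3) h1)

/-- Finite boxes. -/
theorem innov_box (hW : Exhausting W) {u : E → Lab} (hu : Function.Injective u)
    (s : Finset (E × ℕ)) (t : E × ℕ → Set Lab) (ht : ∀ i, MeasurableSet (t i)) :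
    PP ν {ω | ∀ i ∈ s, innov (coef ν) W u (Yobs ω.1 ω.2) i ∈ t i} = ∏ i ∈ s, volume (t i) := by
  classical
  haveI := innov_pp_prob ν
  induction s using Finset.induction_on_max_value (fun i : E × ℕ => toLex (i.2, u i.1)) with
  | empty => simp
  | insert a s ha hmax ih =>
    set A : Set (E × ℕ → Lab) := {y | ∀ i ∈ s, innov (coef ν) W u y i ∈ t i} with hAdef
    have hAm : MeasurableSet[pastSigma u a.1 a.2] A := by
      have hA_eq : A = ⋂ i ∈ s, (fun y => innov (coef ν) W u y i) ⁻¹' (t i) := by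
        ext y
        simp [hAdef]
      rw [hA_eq]
      refine Finset.measurableSet_biInter s (fun i hi => ?_)
      have hne : i ≠ a := by
        rintro rfl
        exact ha hi
      have hpast := mem_past_of_lex hu hne (hmax i hi)
      exact (measurable_innov_past ν (e := i.1) (k := i.2) (e' := a.1) (k' := a.2) hpast) (ht i)
    have hstep := innov_step ν hW hu a.1 a.2 hAm (ht a)
    have hset : {ω : (E → Bool) × (E × ℕ → Lab) |
        ∀ i ∈ insert a s, innov (coef ν) W u (Yobs ω.1 ω.2) i ∈ t i}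
        = (fun ω : (E → Bool) × (E × ℕ → Lab) => Yobs ω.1 ω.2) ⁻¹' A
          ∩ {ω | innov (coef ν) W u (Yobs ω.1 ω.2) (a.1, a.2) ∈ t a} := by
      ext ω
      simp only [Finset.mem_insert, forall_eq_or_imp, mem_setOf_eq, mem_inter_iff, mem_preimage,
        hAdef, Prod.mk.eta]
      tauto
    rw [hset, hstep, Finset.prod_insert ha]
    congr 1

/-- The innovations are i.i.d. uniform. -/
theorem map_innov (hW : Exhausting W) (u : E → Lab) (hu : Function.Injective u) :
    (PP ν).map (fun ω => innov (coef ν) W u (Yobs ω.1 ω.2)) = lam (E × ℕ) := by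
  have hV : Measurable (fun ω : (E → Bool) × (E × ℕ → Lab) => innov (coef ν) W u (Yobs ω.1 ω.2)) :=
    measurable_pi_iff.2 (fun i => (measurable_innov_full ν u i).comp innov_measurable_Y)
  apply Measure.eq_infinitePi
  intro s t ht
  rw [Measure.map_apply hV (MeasurableSet.pi s.countable_toSet (fun i _ => ht i))]
  exact innov_box ν hW hu s t ht

end Main

end Crest.Agent.Lib.SRF
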