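/-
Row 168, task D: deterministic uniqueness: the localization map is injective on good points.
-/
import Crest.Agent.Lib.SRF.Defs

set_option autoImplicit false

namespace Crest.Agent.Lib.SRF

open Filter Topology Set

variable {E : Type*}

lemma Lab_nonneg (y : Lab) : 0 ≤ (y : ℝ) := y.2.1
lemma Lab_le_one (y : Lab) : (y : ℝ) ≤ 1 := y.2.2

lemma mixCDF_mem {m : ℝ} (hm : 0 ≤ m ∧ m ≤ 1) (y : Lab) :
    mixCDF m y ∈ Icc (0 : ℝ) 1 := by
  have h0 := Lab_nonneg y
  have h1 := Lab_le_one y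
  have h2 : (y : ℝ) ^ 2 - y ≤ 0 := by nlinarith
  have h3 : -(y : ℝ) ≤ (y : ℝ) ^ 2 - y := by nlinarith
  have h4 : 1 - (y : ℝ) ≥ 0 := by linarith
  have h5 : (y : ℝ) ^ 2 - y ≥ -(1 - (y : ℝ)) * 1 := by nlinarith
  unfold mixCDF
  constructor
  · nlinarith [mul_nonneg hm.1 (by nlinarith : 0 ≤ (y:ℝ) - (y:ℝ)^2 + (y:ℝ)^2), mul_nonneg (sub_nonneg.mpr hm.2) h0]
  · nlinarith [mul_nonneg hm.1 (by nlinarith : 0 ≤ (y:ℝ) - (y:ℝ)^2)]

lemma mixV_coe {m : ℝ} (hm : 0 ≤ m ∧ m ≤ 1) (y : Lab) : (mixV m y : ℝ) = mixCDF m y := by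
  unfold mixV
  rw [Set.projIcc_of_mem _ (mixCDF_mem hm y)]

/-- `logL` is 2-Lipschitz. -/
lemma logL_sub_le (y y' : Lab) : logL y - logL y' ≤ 2 * |(y : ℝ) - y'| := by
  unfold logL
  have hy := Lab_nonneg y
  have hy' := Lab_nonneg y'
  have hb : 0 < (y' : ℝ) + 1 / 2 := by linarith
  have ha : 0 < (y : ℝ) + 1 / 2 := by linarith
  rw [← Real.log_div ha.ne' hb.ne']
  have h1 := Real.log_le_sub_one_of_pos (div_pos ha hb)
  have h2 : ((y : ℝ) + 1 / 2) / ((y' : ℝ) + 1 / 2) - 1 = ((y : ℝ) - y') / ((y' : ℝ) + 1 / 2) := by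
    field_simp
    ring
  rw [h2] at h1
  have h3 : ((y : ℝ) - y') / ((y' : ℝ) + 1 / 2) ≤ 2 * |(y : ℝ) - y'| := by
    rw [div_le_iff₀ hb]
    have h4 := le_abs_self ((y : ℝ) - y')
    have h5 := abs_nonneg ((y : ℝ) - y')
    nlinarith
  linarith

lemma abs_logL_sub_le (y y' : Lab) : |logL y - logL y'| ≤ 2 * |(y : ℝ) - y'| := by
  rw [abs_le]
  have h1 := logL_sub_le y y'
  have h2 := logL_sub_le y' y
  rw [abs_sub_comm] at h2
  constructor <;> linarith

lemma abs_logL_sub_le_two (y y' : Lab) : |logL y - logL y'| ≤ 2 := by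
  have h1 := abs_logL_sub_le y y'
  have h2 : |(y : ℝ) - y'| ≤ 1 := by
    rw [abs_le]
    constructor <;> linarith [Lab_nonneg y, Lab_le_one y, Lab_nonneg y', Lab_le_one y']
  linarith

lemma logL_injective {y y' : Lab} (h : logL y = logL y') : y = y' := by
  unfold logL at h
  have hy := Lab_nonneg y
  have hy' := Lab_nonneg y'
  have := Real.log_injOn_pos (Set.mem_Ioi.mpr (by linarith : 0 < (y : ℝ) + 1 / 2))
    (Set.mem_Ioi.mpr (by linarith : 0 < (y' : ℝ) + 1 / 2)) h
  exact Subtype.ext (by linarith)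

/-- Inverting the innovation. -/
lemma abs_logL_sub_of_mixV_eq {m m' : ℝ} (hm : 0 ≤ m ∧ m ≤ 1) (hm' : 0 ≤ m' ∧ m' ≤ 1)
    {y y' : Lab} (h : mixV m y = mixV m' y') :
    |logL y - logL y'| ≤ |m - m'| / 2 := by
  have hcoe := congrArg (Subtype.val) h
  rw [mixV_coe hm, mixV_coe hm'] at hcoe
  unfold mixCDF at hcoe
  have hy0 := Lab_nonneg y
  have hy1 := Lab_le_one y
  have hy0' := Lab_nonneg y'
  have hy1' := Lab_le_one y'
  set a : ℝ := (y : ℝ)
  set b : ℝ := (y' : ℝ)
  -- `(a - b) (1 + m/2 (a + b - 1)) = (m' - m)/2 (b^2 - b)`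
  have h1 : (a - b) * (1 + m / 2 * (a + b - 1)) = (m' - m) / 2 * (b ^ 2 - b) := by
    linear_combination hcoe
  have hfac : 1 / 2 ≤ 1 + m / 2 * (a + b - 1) := by
    have h2 : -1 ≤ a + b - 1 := by linarith
    have h3 : m * (a + b - 1) ≥ -1 := by nlinarith [hm.1, hm.2]
    nlinarith
  have hbb : |b ^ 2 - b| ≤ 1 / 4 := by
    rw [abs_le]
    constructor <;> nlinarith [sq_nonneg (b - 1 / 2)]
  have h4 : |a - b| * (1 + m / 2 * (a + b - 1)) = |m' - m| / 2 * |b ^ 2 - b| := by
    have := congrArg abs h1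
    rw [abs_mul, abs_mul, abs_of_pos (by linarith : 0 < 1 + m / 2 * (a + b - 1)), abs_div,
      abs_of_pos (by norm_num : (0 : ℝ) < 2)] at this
    exact this
  have h5 : |a - b| * (1 / 2) ≤ |m' - m| / 8 := by
    have h6 : |a - b| * (1 / 2) ≤ |a - b| * (1 + m / 2 * (a + b - 1)) :=
      mul_le_mul_of_nonneg_left hfac (abs_nonneg _)
    have h7 : |m' - m| / 2 * |b ^ 2 - b| ≤ |m' - m| / 2 * (1 / 4) :=
      mul_le_mul_of_nonneg_left hbb (by positivity)
    rw [h4] at h6
    linarith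
  have h8 := abs_logL_sub_le y y'
  rw [abs_sub_comm m' m] at h5
  linarith

variable {c : Finset E → Finset E → ℝ} {W : E → ℕ → Finset E}

lemma mLim_eq_of_tendsto {u : E → Lab} {y : E × ℕ → Lab} {e : E} {k : ℕ} {l : ℝ}
    (h : Tendsto (fun n => mApprox c W u y e k n) atTop (𝓝 l)) : mLim c W u y e k = l :=
  h.limsup_eq

lemma mLim_mem (hL : IsLip c W) {u : E → Lab} {y : E × ℕ → Lab} (hg : (u, y) ∈ Good c W)
    (e : E) (k : ℕ) : 0 ≤ mLim c W u y e k ∧ mLim c W u y e k ≤ 1 := by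
  obtain ⟨l, hl⟩ := hg e k
  rw [mLim_eq_of_tendsto hl]
  constructor
  · exact ge_of_tendsto' hl fun n => (hL.bdd e n _).1
  · exact le_of_tendsto' hl fun n => (hL.bdd e n _).2

lemma abs_mLim_sub_le (hL : IsLip c W) {u : E → Lab} {y y' : E × ℕ → Lab}
    (hg : (u, y) ∈ Good c W) (hg' : (u, y') ∈ Good c W) (e : E) (k : ℕ) {ε : ℝ}
    (hε : ∀ a, |pastTilt u y e k a - pastTilt u y' e k a| ≤ ε) :
    |mLim c W u y e k - mLim c W u y' e k| ≤ ε / 2 := by
  obtain ⟨l, hl⟩ := hg e k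
  obtain ⟨l', hl'⟩ := hg' e k
  rw [mLim_eq_of_tendsto hl, mLim_eq_of_tendsto hl']
  refine le_of_tendsto' ((hl.sub hl').abs) fun n => ?_
  exact hL.lip e n _ _ ε fun a _ => hε a

/-- **Task D.** -/
theorem TT_injOn (hL : IsLip c W) : InjOn (TT c W) (Good c W) := by
  rintro ⟨u, y⟩ hg ⟨u', y'⟩ hg' hT
  have hu : u = u' := congrArg Prod.fst hT
  subst hu
  have hin : innov c W u y = innov c W u y' := congrArg Prod.snd hT
  have hg₁ : (u, y) ∈ Good c W := hg
  have hg₂ : (u, y') ∈ Good c W := hg'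
  -- round by round
  have hround : ∀ k, ∀ e, y (e, k) = y' (e, k) := by
    intro k
    induction k using Nat.strong_induction_on with
    | _ k ih =>
      -- the tilt difference at round `k` is controlled by the round `k` differences
      have htilt : ∀ (B : ℝ), (∀ a, |logL (y (a, k)) - logL (y' (a, k))| ≤ B) → ∀ e a,
          |pastTilt u y e k a - pastTilt u y' e k a| ≤ B := by
        intro B hB e a
        unfold pastTilt
        have hsum : ∑ j ∈ Finset.range k, logL (y (a, j)) =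
            ∑ j ∈ Finset.range k, logL (y' (a, j)) := by
          refine Finset.sum_congr rfl fun j hj => ?_
          rw [ih j (Finset.mem_range.mp hj) a]
        rw [hsum, add_sub_add_left_eq_sub]
        have hB0 : 0 ≤ B := le_trans (abs_nonneg _) (hB a)
        split_ifs
        · exact hB a
        · simpa using hB0
      have hstep : ∀ (B : ℝ), (∀ a, |logL (y (a, k)) - logL (y' (a, k))| ≤ B) →
          ∀ e, |logL (y (e, k)) - logL (y' (e, k))| ≤ B / 4 := by
        intro B hB e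
        have hm := abs_mLim_sub_le hL hg₁ hg₂ e k (htilt B hB e)
        have hinn : mixV (mLim c W u y e k) (y (e, k)) = mixV (mLim c W u y' e k) (y' (e, k)) :=
          congrFun hin (e, k)
        have := abs_logL_sub_of_mixV_eq (mLim_mem hL hg₁ e k) (mLim_mem hL hg₂ e k) hinn
        linarith
      have hiter : ∀ n : ℕ, ∀ e, |logL (y (e, k)) - logL (y' (e, k))| ≤ 2 * (1 / 4) ^ n := by
        intro n
        induction n with
        | zero =>
          intro e
          simpa using abs_logL_sub_le_two (y (e, k)) (y' (e, k))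
        | succ n ihn =>
          intro e
          have := hstep _ ihn e
          calc _ ≤ 2 * (1 / 4 : ℝ) ^ n / 4 := this
            _ = 2 * (1 / 4) ^ (n + 1) := by ring
      intro e
      have hzero : |logL (y (e, k)) - logL (y' (e, k))| ≤ 0 := by
        have hlim : Tendsto (fun n : ℕ => 2 * (1 / 4 : ℝ) ^ n) atTop (𝓝 (2 * 0)) :=
          (tendsto_pow_atTop_nhds_zero_of_lt_one (by norm_num) (by norm_num)).const_mul 2
        simp only [mul_zero] at hlim
        exact ge_of_tendsto' hlim fun n => hiter n e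
      have h0 : logL (y (e, k)) - logL (y' (e, k)) = 0 := abs_nonpos_iff.mp hzero
      exact logL_injective (by linarith)
  congr 1
  funext i
  obtain ⟨e, k⟩ := i
  exact hround k e

end Crest.Agent.Lib.SRF
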