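/-
Row 168, task M: measurability of the localization map on the total space.
-/
import Crest.Agent.Lib.SRF.Defs

set_option autoImplicit false

namespace Crest.Agent.Lib.SRF

open MeasureTheory Filter Topology Set

variable {E : Type*}

lemma measurable_logL : Measurable logL := by
  unfold logL
  exact Real.measurable_log.comp (measurable_subtype_coe.add measurable_const)

section
variable {Ω : Type*} [MeasurableSpace Ω] [Countable E]

lemma measurable_pastTilt {u : Ω → (E → Lab)} {y : Ω → (E × ℕ → Lab)} (hu : Measurable u)
    (hy : Measurable y) (e : E) (k : ℕ) (a : E) :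
    Measurable fun ω => pastTilt (u ω) (y ω) e k a := by
  unfold pastTilt
  refine Measurable.add ?_ ?_
  · refine Finset.measurable_sum _ fun j _ => ?_
    exact measurable_logL.comp ((measurable_pi_apply _).comp hy)
  · refine Measurable.ite ?_ (measurable_logL.comp ((measurable_pi_apply _).comp hy))
      measurable_const
    exact measurableSet_lt ((measurable_pi_apply a).comp hu) ((measurable_pi_apply e).comp hu)

lemma measurable_expSum {h : Ω → (E → ℝ)} (hh : ∀ a, Measurable fun ω => h ω a) (S : Finset E) :
    Measurable fun ω => expSum (h ω) S := by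
  unfold expSum
  exact Real.measurable_exp.comp (Finset.measurable_sum _ fun a _ => hh a)

lemma measurable_gibbsMean {c : Ω → Finset E → ℝ} {h : Ω → (E → ℝ)} (W₀ : Finset E) (e : E)
    (hc : ∀ S, Measurable fun ω => c ω S) (hh : ∀ a, Measurable fun ω => h ω a) :
    Measurable fun ω => gibbsMean (c ω) W₀ e (h ω) := by
  classical
  unfold gibbsMean gibbsNum gibbsZ
  refine Measurable.div ?_ ?_
  · refine Finset.measurable_sum _ fun S _ => ?_
    split_ifs
    · exact (hc S).mul (measurable_expSum hh S)
    · exact measurable_const
  · refine Finset.measurable_sum _ fun S _ => ?_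
    exact (hc S).mul (measurable_expSum hh S)

end

section
variable {Θ : Type*} [MeasurableSpace Θ] [Countable E] (F : Family Θ E)

/-- Measurability of the approximants on the total space. -/
lemma measurable_mApprox_total
    (hc : ∀ W S, Measurable fun θ => F.c θ W S)
    (hW : ∀ e n W₀, MeasurableSet {θ | F.W θ e n = W₀}) (e : E) (k n : ℕ) :
    Measurable fun p : Total Θ E => mApprox (F.c p.1) (F.W p.1) p.2.1 p.2.2 e k n := by
  letI : MeasurableSpace (Finset E) := ⊤
  have hmW : Measurable fun θ => F.W θ e n :=
    measurable_to_countable' fun W₀ => hW e n W₀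
  let G : Finset E × Total Θ E → ℝ := fun q =>
    gibbsMean (F.c q.2.1 q.1) q.1 e (pastTilt q.2.2.1 q.2.2.2 e k)
  have hG : Measurable G := by
    apply measurable_from_prod_countable_right
    intro W₀
    refine measurable_gibbsMean W₀ e (c := fun p : Total Θ E => F.c p.1 W₀)
      (h := fun p : Total Θ E => pastTilt p.2.1 p.2.2 e k) ?_ ?_
    · intro S
      exact (hc W₀ S).comp measurable_fst
    · intro a
      exact measurable_pastTilt (measurable_fst.comp measurable_snd)
        (measurable_snd.comp measurable_snd) e k a
  exact hG.comp (Measurable.prodMk (hmW.comp measurable_fst) measurable_id)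

lemma measurable_mLim_total
    (hc : ∀ W S, Measurable fun θ => F.c θ W S)
    (hW : ∀ e n W₀, MeasurableSet {θ | F.W θ e n = W₀}) (e : E) (k : ℕ) :
    Measurable fun p : Total Θ E => mLim (F.c p.1) (F.W p.1) p.2.1 p.2.2 e k := by
  unfold mLim
  exact Measurable.limsup fun n => measurable_mApprox_total F hc hW e k n

lemma measurable_mixV : Measurable fun q : ℝ × Lab => mixV q.1 q.2 := by
  unfold mixV mixCDF
  apply Continuous.measurable
  fun_prop

theorem measurableSet_GoodHat
    (hc : ∀ W S, Measurable fun θ => F.c θ W S)
    (hW : ∀ e n W₀, MeasurableSet {θ | F.W θ e n = W₀})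
    (hg : MeasurableSet F.good₀) : MeasurableSet (GoodHat F) := by
  have h1 : GoodHat F = (Prod.fst ⁻¹' F.good₀) ∩
      ⋂ e : E, ⋂ k : ℕ, {p : Total Θ E | ∃ l,
        Tendsto (fun n => mApprox (F.c p.1) (F.W p.1) p.2.1 p.2.2 e k n) atTop (𝓝 l)} := by
    ext p
    simp [GoodHat, Good]
  rw [h1]
  refine (measurable_fst hg).inter (MeasurableSet.iInter fun e => MeasurableSet.iInter fun k => ?_)
  exact measurableSet_exists_tendsto fun n => measurable_mApprox_total F hc hW e k n

theorem measurable_THat
    (hc : ∀ W S, Measurable fun θ => F.c θ W S)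
    (hW : ∀ e n W₀, MeasurableSet {θ | F.W θ e n = W₀}) : Measurable (THat F) := by
  unfold THat TT
  refine measurable_fst.prodMk ((measurable_fst.comp measurable_snd).prodMk ?_)
  refine measurable_pi_iff.mpr fun i => ?_
  obtain ⟨e, k⟩ := i
  simp only [innov]
  exact measurable_mixV.comp ((measurable_mLim_total F hc hW e k).prodMk
    ((measurable_pi_apply (e, k)).comp (measurable_snd.comp measurable_snd)))

theorem measurable_recov : Measurable (recov : (E × ℕ → Lab) → E → Bool) := by
  refine measurable_pi_iff.mpr fun e => ?_
  apply measurable_to_bool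
  have : (fun y : E × ℕ → Lab => recov y e) ⁻¹' {true} =
      {y | (13 : ℝ) / 24 < limsup (fun K : ℕ => (∑ k ∈ Finset.range K, (y (e, k) : ℝ)) / K) atTop} := by
    ext y
    simp [recov]
  rw [this]
  refine measurableSet_lt measurable_const (Measurable.limsup fun K => ?_)
  refine Measurable.div_const (Finset.measurable_sum _ fun k _ => ?_) _
  exact measurable_subtype_coe.comp (measurable_pi_apply (e, k))

end

end Crest.Agent.Lib.SRF
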