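/-
Row 168, task P4: recovery of the configuration by the strong law of large numbers.
-/
import Crest.Agent.Lib.SRF.PIT
import Crest.Agent.Lib.SRF.Meas

set_option autoImplicit false

namespace Crest.Agent.Lib.SRF

open MeasureTheory Filter Topology Set ProbabilityTheory

variable {E : Type*}

lemma measurable_coe_lab : Measurable (fun y : Lab => (y : ℝ)) := measurable_subtype_coe

lemma integral_lab_comp {g : ℝ → ℝ} : ∫ y : Lab, g (y : ℝ) = ∫ x in (0 : ℝ)..1, g x := by
  have h := (unitInterval.measurePreserving_coe).integral_comp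
    unitInterval.measurableEmbedding_coe g
  rw [h]
  rw [intervalIntegral.integral_of_le zero_le_one]
  exact integral_Icc_eq_integral_Ioc

lemma integral_lab_id : ∫ y : Lab, (y : ℝ) = 1 / 2 := by
  have h := integral_lab_comp (g := fun x => x)
  rw [h, integral_id]
  norm_num

lemma measurable_Q1 : Measurable Q1 :=
  (continuous_projIcc.comp (by fun_prop :
    Continuous fun s : Lab => (-1 + Real.sqrt (1 + 8 * (s : ℝ))) / 2)).measurable

lemma integral_Q1 : ∫ w : Lab, ((Q1 w : Lab) : ℝ) = 7 / 12 := by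
  have h1 : ∫ w : Lab, ((Q1 w : Lab) : ℝ) =
      ∫ y : Lab, (y : ℝ) ∂((volume : Measure Lab).map Q1) :=
    (integral_map measurable_Q1.aemeasurable measurable_coe_lab.aestronglyMeasurable).symm
  rw [h1, map_Q1]
  have hf : Measurable (fun y : Lab => ENNReal.ofReal ((y : ℝ) + 1 / 2)) :=
    ENNReal.measurable_ofReal.comp (measurable_coe_lab.add measurable_const)
  rw [integral_withDensity_eq_integral_toReal_smul hf
    (Eventually.of_forall fun y => ENNReal.ofReal_lt_top)]
  have h2 : ∀ y : Lab, (ENNReal.ofReal ((y : ℝ) + 1 / 2)).toReal • (y : ℝ)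
      = (fun x : ℝ => (x + 1 / 2) * x) (y : ℝ) := by
    intro y
    have hy : (0 : ℝ) ≤ y := y.2.1
    rw [ENNReal.toReal_ofReal (by linarith), smul_eq_mul]
  rw [integral_congr_ae (Eventually.of_forall h2), integral_lab_comp (g := fun x => (x + 1 / 2) * x)]
  have h3 : ∀ x : ℝ, (x + 1 / 2) * x = x ^ 2 + (1 / 2) * x := fun x => by ring
  simp_rw [h3]
  have hc1 : Continuous (fun x : ℝ => x ^ 2) := by fun_prop
  have hc2 : Continuous (fun x : ℝ => (1 / 2 : ℝ) * x) := by fun_prop
  rw [intervalIntegral.integral_add (hc1.intervalIntegrable _ _) (hc2.intervalIntegrable _ _),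
    intervalIntegral.integral_const_mul, integral_pow, integral_id]
  norm_num

lemma isProb_lam (V : Type*) : IsProbabilityMeasure (lam V) := by
  unfold lam Crest.ProbabilityR.Labels.labelMeasure
  infer_instance

/-- The strong law along the coordinates `(e, k)`. -/
lemma slln_coord (e : E) {φ : Lab → ℝ} (hφ : Measurable φ) (hb : ∀ w, |φ w| ≤ 1) :
    ∀ᵐ w ∂(lam (E × ℕ)), Tendsto (fun K : ℕ => (∑ k ∈ Finset.range K, φ (w (e, k))) / K) atTop
      (𝓝 (∫ y, φ y)) := by
  have hP := isProb_lam (E × ℕ)
  let X : ℕ → (E × ℕ → Lab) → ℝ := fun k w => φ (w (e, k))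
  have hmeas : ∀ k, Measurable (X k) := fun k => hφ.comp (measurable_pi_apply (e, k))
  have hlaw : ∀ k, (lam (E × ℕ)).map (fun w => w (e, k)) = (volume : Measure Lab) := by
    intro k
    unfold lam Crest.ProbabilityR.Labels.labelMeasure
    exact Measure.infinitePi_map_eval _ (e, k)
  have hint : Integrable (X 0) (lam (E × ℕ)) := by
    refine Integrable.of_bound (hmeas 0).aestronglyMeasurable 1 (Eventually.of_forall fun w => ?_)
    exact hb _
  have hindep : Pairwise (Function.onFun (· ⟂ᵢ[lam (E × ℕ)] ·) X) := by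
    intro i j hij
    have h := iIndepFun_infinitePi (ι := E × ℕ) (P := fun _ => (volume : Measure Lab))
      (X := fun _ (y : Lab) => φ y) (fun _ => hφ)
    refine h.indepFun (i := (e, i)) (j := (e, j)) ?_
    intro h'
    exact hij (congrArg Prod.snd h')
  have hident : ∀ k, IdentDistrib (X k) (X 0) (lam (E × ℕ)) (lam (E × ℕ)) := by
    intro k
    refine ⟨(hmeas k).aemeasurable, (hmeas 0).aemeasurable, ?_⟩
    have h1 : ∀ j, (lam (E × ℕ)).map (X j) = (volume : Measure Lab).map φ := by
      intro j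
      rw [← hlaw j, Measure.map_map hφ (measurable_pi_apply (e, j))]
      rfl
    rw [h1 k, h1 0]
  have hmean : ∫ w, X 0 w ∂(lam (E × ℕ)) = ∫ y, φ y := by
    have h1 : ∫ y, φ y = ∫ y, φ y ∂((lam (E × ℕ)).map (fun w => w (e, 0))) := by rw [hlaw 0]
    rw [h1, integral_map (measurable_pi_apply (e, 0)).aemeasurable hφ.aestronglyMeasurable]
  have h := strong_law_ae_real X hint hindep hident
  rw [hmean] at h
  exact h

lemma recov_eq_of_tendsto {y : E × ℕ → Lab} {e : E} {l : ℝ}
    (h : Tendsto (fun K : ℕ => (∑ k ∈ Finset.range K, (y (e, k) : ℝ)) / K) atTop (𝓝 l)) :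
    recov y e = decide ((13 : ℝ) / 24 < l) := by
  unfold recov
  simp only [h.limsup_eq]

lemma abs_lab_le (y : Lab) : |(y : ℝ)| ≤ 1 := by
  rw [abs_le]
  have hy0 : (0 : ℝ) ≤ y := y.2.1
  have hy1 : (y : ℝ) ≤ 1 := y.2.2
  constructor <;> linarith

/-- Recovery for a fixed configuration. -/
lemma ae_recov_of [Countable E] (x : E → Bool) :
    ∀ᵐ w ∂(lam (E × ℕ)), recov (Yobs x w) = x := by
  have h : ∀ e, ∀ᵐ w ∂(lam (E × ℕ)), recov (Yobs x w) e = x e := by
    intro e
    by_cases hx : x e = true
    · have hs := slln_coord (E := E) e (φ := fun w => ((Q1 w : Lab) : ℝ))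
        (measurable_coe_lab.comp measurable_Q1) (fun w => abs_lab_le _)
      rw [integral_Q1] at hs
      filter_upwards [hs] with w hw
      have hy : (fun K : ℕ => (∑ k ∈ Finset.range K, (Yobs x w (e, k) : ℝ)) / K)
          = (fun K : ℕ => (∑ k ∈ Finset.range K, ((Q1 (w (e, k)) : Lab) : ℝ)) / K) := by
        funext K
        simp [Yobs, Qt, hx]
      have h2 := recov_eq_of_tendsto (y := Yobs x w) (e := e) (l := 7 / 12) (by rw [hy]; exact hw)
      rw [h2, hx]
      simp only [decide_eq_true_eq]
      norm_num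
    · have hx' : x e = false := by simpa using hx
      have hs := slln_coord (E := E) e (φ := fun w => (w : ℝ))
        measurable_coe_lab abs_lab_le
      rw [integral_lab_id] at hs
      filter_upwards [hs] with w hw
      have hy : (fun K : ℕ => (∑ k ∈ Finset.range K, (Yobs x w (e, k) : ℝ)) / K)
          = (fun K : ℕ => (∑ k ∈ Finset.range K, ((w (e, k) : Lab) : ℝ)) / K) := by
        funext K
        simp [Yobs, Qt, hx']
      have h2 := recov_eq_of_tendsto (y := Yobs x w) (e := e) (l := 1 / 2) (by rw [hy]; exact hw)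
      rw [h2, hx']
      simp only [decide_eq_false_iff_not]
      norm_num
  have h' := ae_all_iff.mpr h
  filter_upwards [h'] with w hw
  funext e
  exact hw e

lemma measurable_Yobs : Measurable (fun ω : (E → Bool) × (E × ℕ → Lab) => Yobs ω.1 ω.2) := by
  refine measurable_pi_iff.mpr (fun i => ?_)
  unfold Yobs Qt
  have h1 : Measurable (fun ω : (E → Bool) × (E × ℕ → Lab) => ω.2 i) :=
    (measurable_pi_apply i).comp measurable_snd
  refine Measurable.ite ?_ (measurable_Q1.comp h1) h1
  have h2 : Measurable (fun ω : (E → Bool) × (E × ℕ → Lab) => ω.1 i.1) :=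
    (measurable_pi_apply i.1).comp measurable_fst
  exact h2 (measurableSet_singleton true)

/-- SLLN recovery. -/
theorem ae_recov [Countable E] (ν : Measure (E → Bool)) [IsProbabilityMeasure ν] :
    ∀ᵐ ω ∂(PP ν), recov (Yobs ω.1 ω.2) = ω.1 := by
  have hP := isProb_lam (E × ℕ)
  have hS : MeasurableSet {ω : (E → Bool) × (E × ℕ → Lab) | recov (Yobs ω.1 ω.2) = ω.1} := by
    have : {ω : (E → Bool) × (E × ℕ → Lab) | recov (Yobs ω.1 ω.2) = ω.1}
        = ⋂ e : E, {ω | recov (Yobs ω.1 ω.2) e = ω.1 e} := by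
      ext ω
      simp only [Set.mem_ofPred_eq, mem_iInter]
      exact funext_iff
    rw [this]
    refine MeasurableSet.iInter (fun e => ?_)
    exact measurableSet_eq_fun ((measurable_pi_apply e).comp (measurable_recov.comp measurable_Yobs))
      ((measurable_pi_apply e).comp measurable_fst)
  unfold PP
  rw [Measure.ae_prod_iff_ae_ae hS]
  exact Eventually.of_forall (fun x => ae_recov_of x)

end Crest.Agent.Lib.SRF
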