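/-
Row 168, task A: the assembly of the factor map.
-/
import Crest.Agent.Lib.SRF.Determ
import Crest.Agent.Lib.SRF.Meas
import Crest.Agent.Lib.SRF.Recov
import Crest.Agent.Lib.SRF.Bayes
import Crest.Agent.Lib.SRF.Innov

set_option autoImplicit false

namespace Crest.Agent.Lib.SRF

open MeasureTheory Filter Topology Set

variable {E : Type*}

section Equiv

variable (σ : E ≃ E)

lemma expSum_map (h h' : E → ℝ) (hh : ∀ a, h' (σ a) = h a) (S : Finset E) :
    expSum h' (S.map σ.toEmbedding) = expSum h S := by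
  unfold expSum
  rw [Finset.sum_map]
  simp [hh]

lemma gibbsZ_map (c c' : Finset E → ℝ) (W : Finset E) (h h' : E → ℝ)
    (hc : ∀ S, c' (S.map σ.toEmbedding) = c S) (hh : ∀ a, h' (σ a) = h a) :
    gibbsZ c' (W.map σ.toEmbedding) h' = gibbsZ c W h := by
  unfold gibbsZ
  symm
  refine Finset.sum_nbij' (fun S => S.map σ.toEmbedding) (fun S => S.map σ.symm.toEmbedding)
    ?_ ?_ ?_ ?_ ?_
  · intro S hS
    simp only [Finset.mem_powerset] at hS ⊢
    exact Finset.map_subset_map.mpr hS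
  · intro S hS
    simp only [Finset.mem_powerset] at hS ⊢
    intro a ha
    obtain ⟨b, hb, rfl⟩ := Finset.mem_map.mp ha
    have := hS hb
    obtain ⟨d, hd, rfl⟩ := Finset.mem_map.mp this
    simpa using hd
  · intro S _
    ext a; simp
  · intro S _
    ext a; simp
  · intro S _
    rw [hc, expSum_map σ h h' hh]

open Classical in
lemma gibbsNum_map (c c' : Finset E → ℝ) (W : Finset E) (e : E) (h h' : E → ℝ)
    (hc : ∀ S, c' (S.map σ.toEmbedding) = c S) (hh : ∀ a, h' (σ a) = h a) :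
    gibbsNum c' (W.map σ.toEmbedding) (σ e) h' = gibbsNum c W e h := by
  unfold gibbsNum
  symm
  refine Finset.sum_nbij' (fun S => S.map σ.toEmbedding) (fun S => S.map σ.symm.toEmbedding)
    ?_ ?_ ?_ ?_ ?_
  · intro S hS
    simp only [Finset.mem_powerset] at hS ⊢
    exact Finset.map_subset_map.mpr hS
  · intro S hS
    simp only [Finset.mem_powerset] at hS ⊢
    intro a ha
    obtain ⟨b, hb, rfl⟩ := Finset.mem_map.mp ha
    have := hS hb
    obtain ⟨d, hd, rfl⟩ := Finset.mem_map.mp this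
    simpa using hd
  · intro S _
    ext a; simp
  · intro S _
    ext a; simp
  · intro S _
    have : σ e ∈ S.map σ.toEmbedding ↔ e ∈ S := by simp
    simp only [this]
    rw [hc, expSum_map σ h h' hh]

lemma gibbsMean_map (c c' : Finset E → ℝ) (W : Finset E) (e : E) (h h' : E → ℝ)
    (hc : ∀ S, c' (S.map σ.toEmbedding) = c S) (hh : ∀ a, h' (σ a) = h a) :
    gibbsMean c' (W.map σ.toEmbedding) (σ e) h' = gibbsMean c W e h := by
  unfold gibbsMean
  rw [gibbsNum_map σ c c' W e h h' hc hh, gibbsZ_map σ c c' W h h' hc hh]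

lemma pastTilt_map (u : E → Lab) (y : E × ℕ → Lab) (e : E) (k : ℕ) (a : E) :
    pastTilt (u ∘ σ.symm) (y ∘ Prod.map σ.symm id) (σ e) k (σ a) = pastTilt u y e k a := by
  simp [pastTilt]

lemma recov_map (y : E × ℕ → Lab) :
    recov (y ∘ Prod.map σ.symm id) = recov y ∘ σ.symm := by
  ext e
  simp [recov]

end Equiv

section Inj

open ProbabilityTheory in
/-- i.i.d. uniform labels are a.s. distinct. -/
lemma ae_ne_lam {a b : E} (hab : a ≠ b) : ∀ᵐ u ∂(lam E), u a ≠ u b := by
  have hind : iIndepFun (fun (i : E) (u : E → Lab) => u i) (lam E) :=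
    iIndepFun_infinitePi (X := fun _ y => y) (fun _ => measurable_id)
  have h1 := hind.indepFun hab
  rw [indepFun_iff_map_prod_eq_prod_map_map (measurable_pi_apply a).aemeasurable
    (measurable_pi_apply b).aemeasurable] at h1
  have hm : ∀ i : E, (lam E).map (fun u => u i) = volume := fun i =>
    Measure.infinitePi_map_eval _ i
  rw [hm, hm] at h1
  have hd : MeasurableSet {q : Lab × Lab | q.1 = q.2} :=
    measurableSet_eq_fun measurable_fst measurable_snd
  have h2 : (lam E) {u | u a = u b} = 0 := by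
    have h3 : {u : E → Lab | u a = u b} = (fun u : E → Lab => (u a, u b)) ⁻¹' {q | q.1 = q.2} := rfl
    rw [h3, ← Measure.map_apply (by fun_prop) hd]
    change ((lam E).map (fun u : E → Lab => (u a, u b))) _ = 0
    rw [h1, Measure.prod_apply hd]
    simp
  exact measure_eq_zero_iff_ae_notMem.mp h2

lemma ae_injective_lam [Countable E] : ∀ᵐ u ∂(lam E), Function.Injective u := by
  have h2 : ∀ᵐ u ∂(lam E), ∀ a b : E, a ≠ b → u a ≠ u b := by
    rw [ae_all_iff]
    intro a
    rw [ae_all_iff]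
    intro b
    by_cases hab : a = b
    · simp [hab]
    · filter_upwards [ae_ne_lam hab] with u hu _ using hu
  filter_upwards [h2] with u hu a b hab
  by_contra hne
  exact hu a b hne hab

end Inj

lemma countablySeparated_of_standardBorel (α : Type*) [MeasurableSpace α] [StandardBorelSpace α] :
    MeasurableSpace.CountablySeparated α := inferInstance

section Assembly
variable {Θ : Type*} [MeasurableSpace Θ] [StandardBorelSpace Θ] [Countable E] (F : Family Θ E)

omit [MeasurableSpace Θ] [StandardBorelSpace Θ] [Countable E] in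
theorem THat_injOn (hL : ∀ θ ∈ F.good₀, IsLip (F.c θ) (F.W θ)) :
    InjOn (THat F) (GoodHat F) := by
  rintro ⟨θ, p⟩ hp ⟨θ', p'⟩ hp' h
  have hθ : θ = θ' := congrArg Prod.fst h
  subst hθ
  have h2 : TT (F.c θ) (F.W θ) p = TT (F.c θ) (F.W θ) p' := congrArg Prod.snd h
  have h3 : p = p' := TT_injOn (hL θ hp.1) hp.2 hp'.2 h2
  rw [h3]

omit [MeasurableSpace Θ] [StandardBorelSpace Θ] [Countable E] in
theorem THat_sub_injective (hL : ∀ θ ∈ F.good₀, IsLip (F.c θ) (F.W θ)) :
    Function.Injective (fun q : GoodHat F => THat F q.1) := by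
  rintro ⟨q, hq⟩ ⟨q', hq'⟩ h
  exact Subtype.ext (THat_injOn F hL hq hq' h)

theorem measurable_Psi
    (hc : ∀ W S, Measurable fun θ => F.c θ W S)
    (hW : ∀ e n W₀, MeasurableSet {θ | F.W θ e n = W₀})
    (hg : MeasurableSet F.good₀)
    (hL : ∀ θ ∈ F.good₀, IsLip (F.c θ) (F.W θ)) : Measurable (Psi F) := by
  have hS := measurableSet_GoodHat F hc hW hg
  have : StandardBorelSpace (GoodHat F) := hS.standardBorel
  have hmeas : Measurable (fun q : GoodHat F => THat F q.1) :=
    (measurable_THat F hc hW).comp measurable_subtype_coe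
  have : MeasurableSpace.CountablySeparated (Total Θ E) := countablySeparated_of_standardBorel _
  have hemb : MeasurableEmbedding (fun q : GoodHat F => THat F q.1) :=
    hmeas.measurableEmbedding (THat_sub_injective F hL)
  refine hemb.measurable_extend ?_ measurable_const
  exact measurable_recov.comp (measurable_snd.comp (measurable_snd.comp measurable_subtype_coe))

omit [MeasurableSpace Θ] [StandardBorelSpace Θ] [Countable E] in
theorem Psi_THat (hL : ∀ θ ∈ F.good₀, IsLip (F.c θ) (F.W θ)) {p : Total Θ E}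
    (hp : p ∈ GoodHat F) : Psi F (THat F p) = recov p.2.2 :=
  (THat_sub_injective F hL).extend_apply (fun q : GoodHat F => recov q.1.2.2) _ ⟨p, hp⟩

omit [MeasurableSpace Θ] [StandardBorelSpace Θ] [Countable E] in
theorem Psi_of_not_mem {p : Total Θ E} (hp : ∀ q ∈ GoodHat F, THat F q ≠ p) :
    Psi F p = fun _ => false := by
  unfold Psi
  apply Function.extend_apply'
  rintro ⟨q, hq⟩
  exact hp q.1 q.2 hq

omit [MeasurableSpace Θ] [StandardBorelSpace Θ] in
/-- Splitting one label into any standard Borel randomness. -/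
theorem exists_split (X : Type*) [MeasurableSpace X] [StandardBorelSpace X] (μ : Measure X)
    [IsProbabilityMeasure μ] : ∃ s : Lab → X, Measurable s ∧ (volume : Measure Lab).map s = μ := by
  have : Nonempty X := nonempty_of_isProbabilityMeasure μ
  exact μ.exists_measurable_map_eq

theorem Psi_law_of
    (hc : ∀ W S, Measurable fun θ => F.c θ W S)
    (hW : ∀ e n W₀, MeasurableSet {θ | F.W θ e n = W₀})
    (hg : MeasurableSet F.good₀)
    (hL : ∀ θ ∈ F.good₀, IsLip (F.c θ) (F.W θ))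
    {θ : Θ} (hθ : θ ∈ F.good₀) (ν : Measure (E → Bool)) [IsProbabilityMeasure ν]
    (hcν : F.c θ = coef ν) (hWx : Exhausting (F.W θ))
    (hinnov : ∀ u : E → Lab, Function.Injective u →
      (PP ν).map (fun ω => innov (coef ν) (F.W θ) u (Yobs ω.1 ω.2)) = lam (E × ℕ)) :
    ((lam E).prod (lam (E × ℕ))).map (fun p => Psi F (θ, p)) = ν := by
  set P : Measure ((E → Lab) × ((E → Bool) × (E × ℕ → Lab))) := (lam E).prod (PP ν) with hP
  let g₀ : (E → Lab) × ((E → Bool) × (E × ℕ → Lab)) → Total Θ E :=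
    fun x => (θ, (x.1, Yobs x.2.1 x.2.2))
  have hg₀ : Measurable g₀ := by
    refine measurable_const.prodMk (measurable_fst.prodMk ?_)
    exact measurable_Yobs.comp measurable_snd
  let G : (E → Lab) × ((E → Bool) × (E × ℕ → Lab)) → (E → Lab) × (E × ℕ → Lab) :=
    fun x => (x.1, innov (coef ν) (F.W θ) x.1 (Yobs x.2.1 x.2.2))
  have hTG : ∀ x, THat F (g₀ x) = (θ, G x) := by
    intro x
    simp only [g₀, G, THat, TT, hcν]
  have hG : Measurable G := by
    have h1 : G = fun x => (THat F (g₀ x)).2 := by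
      funext x
      rw [hTG]
    rw [h1]
    exact measurable_snd.comp ((measurable_THat F hc hW).comp hg₀)
  have hmap : P.map G = (lam E).prod (lam (E × ℕ)) := by
    refine Measure.ext fun S hS => ?_
    rw [Measure.map_apply hG hS, hP, Measure.prod_apply (hG hS), Measure.prod_apply hS]
    apply lintegral_congr_ae
    filter_upwards [ae_injective_lam] with u hu
    have hmi : Measurable (fun ω : (E → Bool) × (E × ℕ → Lab) =>
        innov (coef ν) (F.W θ) u (Yobs ω.1 ω.2)) :=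
      measurable_snd.comp (hG.comp measurable_prodMk_left)
    rw [← hinnov u hu, Measure.map_apply hmi (measurable_prodMk_left hS)]
    rfl
  have hgood : ∀ᵐ x ∂P, g₀ x ∈ GoodHat F := by
    have hm : MeasurableSet (g₀ ⁻¹' GoodHat F) := hg₀ (measurableSet_GoodHat F hc hW hg)
    have : ∀ᵐ x ∂P, x ∈ g₀ ⁻¹' GoodHat F := by
      rw [hP, Measure.ae_prod_mem_iff_ae_ae_mem hm]
      refine Filter.Eventually.of_forall fun u => ?_
      filter_upwards [ae_good ν hWx u] with ω hω
      refine ⟨hθ, ?_⟩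
      simpa only [g₀, hcν] using hω
    exact this
  have hrec : ∀ᵐ x ∂P, recov (Yobs x.2.1 x.2.2) = x.2.1 :=
    Measure.quasiMeasurePreserving_snd.ae (ae_recov ν)
  have hae : (fun x => Psi F (θ, G x)) =ᵐ[P] fun x => x.2.1 := by
    filter_upwards [hgood, hrec] with x hx hxr
    rw [← hTG, Psi_THat F hL hx]
    exact hxr
  have hPsi : Measurable (fun p : (E → Lab) × (E × ℕ → Lab) => Psi F (θ, p)) :=
    (measurable_Psi F hc hW hg hL).comp measurable_prodMk_left
  rw [← hmap, Measure.map_map hPsi hG]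
  have h5 : ((fun p => Psi F (θ, p)) ∘ G) = fun x => Psi F (θ, G x) := rfl
  rw [h5, Measure.map_congr hae]
  have h6 : (fun x : (E → Lab) × ((E → Bool) × (E × ℕ → Lab)) => x.2.1) =
      Prod.fst ∘ Prod.snd := rfl
  rw [h6, ← Measure.map_map measurable_fst measurable_snd, hP, Measure.map_snd_prod]
  simp [PP]

theorem Psi_law
    (hc : ∀ W S, Measurable fun θ => F.c θ W S)
    (hW : ∀ e n W₀, MeasurableSet {θ | F.W θ e n = W₀})
    (hg : MeasurableSet F.good₀)
    (hL : ∀ θ ∈ F.good₀, IsLip (F.c θ) (F.W θ))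
    {θ : Θ} (hθ : θ ∈ F.good₀) (ν : Measure (E → Bool)) [IsProbabilityMeasure ν]
    (hcν : F.c θ = coef ν) (hWx : Exhausting (F.W θ)) :
    ((lam E).prod (lam (E × ℕ))).map (fun p => Psi F (θ, p)) = ν :=
  Psi_law_of F hc hW hg hL hθ ν hcν hWx fun u hu => map_innov ν hWx u hu

section Equivariance

variable (σ : E ≃ E) (A : Θ ≃ Θ)

omit [MeasurableSpace Θ] [StandardBorelSpace Θ] [Countable E] in
lemma mApprox_map (θ : Θ)
    (hAc : ∀ W S, F.c (A θ) (W.map σ.toEmbedding) (S.map σ.toEmbedding) = F.c θ W S)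
    (hAW : ∀ e n, F.W (A θ) (σ e) n = (F.W θ e n).map σ.toEmbedding)
    (u : E → Lab) (y : E × ℕ → Lab) (e : E) (k n : ℕ) :
    mApprox (F.c (A θ)) (F.W (A θ)) (u ∘ σ.symm) (y ∘ Prod.map σ.symm id) (σ e) k n =
      mApprox (F.c θ) (F.W θ) u y e k n := by
  unfold mApprox
  rw [hAW]
  exact gibbsMean_map σ _ _ _ _ _ _ (hAc _) (pastTilt_map σ u y e k)

omit [MeasurableSpace Θ] [StandardBorelSpace Θ] [Countable E] in
lemma mLim_map (θ : Θ)
    (hAc : ∀ W S, F.c (A θ) (W.map σ.toEmbedding) (S.map σ.toEmbedding) = F.c θ W S)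
    (hAW : ∀ e n, F.W (A θ) (σ e) n = (F.W θ e n).map σ.toEmbedding)
    (u : E → Lab) (y : E × ℕ → Lab) (e : E) (k : ℕ) :
    mLim (F.c (A θ)) (F.W (A θ)) (u ∘ σ.symm) (y ∘ Prod.map σ.symm id) (σ e) k =
      mLim (F.c θ) (F.W θ) u y e k := by
  unfold mLim
  simp only [mApprox_map F σ A θ hAc hAW]

omit [MeasurableSpace Θ] [StandardBorelSpace Θ] [Countable E] in
lemma innov_map (θ : Θ)
    (hAc : ∀ W S, F.c (A θ) (W.map σ.toEmbedding) (S.map σ.toEmbedding) = F.c θ W S)
    (hAW : ∀ e n, F.W (A θ) (σ e) n = (F.W θ e n).map σ.toEmbedding)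
    (u : E → Lab) (y : E × ℕ → Lab) :
    innov (F.c (A θ)) (F.W (A θ)) (u ∘ σ.symm) (y ∘ Prod.map σ.symm id) =
      innov (F.c θ) (F.W θ) u y ∘ Prod.map σ.symm id := by
  funext i
  obtain ⟨e', k⟩ := i
  obtain ⟨e, rfl⟩ := σ.surjective e'
  simp only [innov, Function.comp, Prod.map]
  rw [mLim_map F σ A θ hAc hAW]
  simp

omit [MeasurableSpace Θ] [StandardBorelSpace Θ] [Countable E] in
lemma good_map (θ : Θ)
    (hAc : ∀ W S, F.c (A θ) (W.map σ.toEmbedding) (S.map σ.toEmbedding) = F.c θ W S)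
    (hAW : ∀ e n, F.W (A θ) (σ e) n = (F.W θ e n).map σ.toEmbedding)
    (u : E → Lab) (y : E × ℕ → Lab) :
    (u ∘ σ.symm, y ∘ Prod.map σ.symm id) ∈ Good (F.c (A θ)) (F.W (A θ)) ↔
      (u, y) ∈ Good (F.c θ) (F.W θ) := by
  constructor
  · intro h e k
    obtain ⟨l, hl⟩ := h (σ e) k
    refine ⟨l, ?_⟩
    simpa only [mApprox_map F σ A θ hAc hAW] using hl
  · intro h e' k
    obtain ⟨e, rfl⟩ := σ.surjective e'
    obtain ⟨l, hl⟩ := h e k
    refine ⟨l, ?_⟩
    simpa only [mApprox_map F σ A θ hAc hAW] using hl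

omit [MeasurableSpace Θ] [StandardBorelSpace Θ] [Countable E] in
/-- Exact equivariance of `Psi` under a symmetry `(σ, A)`. -/
theorem Psi_equivariant (hgood : ∀ θ, A θ ∈ F.good₀ ↔ θ ∈ F.good₀)
    (hLip : ∀ θ ∈ F.good₀, IsLip (F.c θ) (F.W θ))
    (hAc : ∀ θ ∈ F.good₀, ∀ W S, F.c (A θ) (W.map σ.toEmbedding) (S.map σ.toEmbedding) = F.c θ W S)
    (hAW : ∀ θ ∈ F.good₀, ∀ e n, F.W (A θ) (σ e) n = (F.W θ e n).map σ.toEmbedding)
    (θ : Θ) (u : E → Lab) (v : E × ℕ → Lab) :
    Psi F (A θ, (u ∘ σ.symm, v ∘ Prod.map σ.symm id)) = Psi F (θ, (u, v)) ∘ σ.symm := by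
  by_cases hex : ∃ q ∈ GoodHat F, THat F q = (θ, (u, v))
  · obtain ⟨q, hq, hqe⟩ := hex
    obtain ⟨θ', u', y⟩ := q
    have h1 : θ' = θ := congrArg Prod.fst hqe
    subst h1
    have h2 : u' = u := congrArg (fun p : Total Θ E => p.2.1) hqe
    subst h2
    have h3 : innov (F.c θ') (F.W θ') u' y = v := congrArg (fun p : Total Θ E => p.2.2) hqe
    subst h3
    have hθ : θ' ∈ F.good₀ := hq.1
    have hq' : (A θ', (u' ∘ σ.symm, y ∘ Prod.map σ.symm id)) ∈ GoodHat F :=
      ⟨(hgood θ').mpr hθ, (good_map F σ A θ' (hAc θ' hθ) (hAW θ' hθ) u' y).mpr hq.2⟩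
    have h4 := Psi_THat F hLip hq'
    have h5 : THat F (A θ', (u' ∘ σ.symm, y ∘ Prod.map σ.symm id)) =
        (A θ', (u' ∘ σ.symm, innov (F.c θ') (F.W θ') u' y ∘ Prod.map σ.symm id)) := by
      simp only [THat, TT]
      rw [innov_map F σ A θ' (hAc θ' hθ) (hAW θ' hθ)]
    rw [h5] at h4
    rw [h4]
    have h6 := Psi_THat F hLip hq
    have h7 : THat F (θ', (u', y)) = (θ', (u', innov (F.c θ') (F.W θ') u' y)) := rfl
    rw [h7] at h6
    rw [h6]
    exact recov_map σ y
  · have hex' : ∀ q ∈ GoodHat F, THat F q ≠ (θ, (u, v)) := fun q hq h => hex ⟨q, hq, h⟩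
    rw [Psi_of_not_mem F hex']
    have : ∀ q ∈ GoodHat F, THat F q ≠ (A θ, (u ∘ σ.symm, v ∘ Prod.map σ.symm id)) := by
      rintro ⟨θ', u', y⟩ hq hqe
      have h1 : θ' = A θ := congrArg Prod.fst hqe
      subst h1
      have h2 : u' = u ∘ σ.symm := congrArg (fun p : Total Θ E => p.2.1) hqe
      subst h2
      have h3 : innov (F.c (A θ)) (F.W (A θ)) (u ∘ σ.symm) y = v ∘ Prod.map σ.symm id :=
        congrArg (fun p : Total Θ E => p.2.2) hqe
      have hθ : θ ∈ F.good₀ := (hgood θ).mp hq.1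
      -- pull `y` back
      set y' : E × ℕ → Lab := y ∘ Prod.map σ id with hy'
      have hyy : y' ∘ Prod.map σ.symm id = y := by
        funext i
        obtain ⟨e, k⟩ := i
        simp [hy']
      have hgd : (u, y') ∈ Good (F.c θ) (F.W θ) := by
        rw [← good_map F σ A θ (hAc θ hθ) (hAW θ hθ), hyy]
        exact hq.2
      have hi := innov_map F σ A θ (hAc θ hθ) (hAW θ hθ) u y'
      rw [hyy, h3] at hi
      apply hex'  (θ, (u, y')) ⟨hθ, hgd⟩
      have h9 : innov (F.c θ) (F.W θ) u y' = v := by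
        funext i
        obtain ⟨e, k⟩ := i
        have := congrFun hi (σ e, k)
        simpa using this.symm
      simp only [THat, TT, h9]
    rw [Psi_of_not_mem F this]
    rfl

end Equivariance

end Assembly

end Crest.Agent.Lib.SRF
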