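/-
Row 168 (S0254): graph balls on `ℕ`: finiteness, exhaustion, equivariance, measurability in the table.
-/
import Mathlib
import Crest.Prelude.Def_GraphTables

set_option autoImplicit false

namespace Crest.Agent.Lib.SRF

open MeasureTheory Set
open Crest.ProbabilityR.GraphTables

/-- Vertices at graph distance at most `n` from `v`. -/
def ballSet (G : SimpleGraph ℕ) (v : ℕ) : ℕ → Set ℕ
  | 0 => {v}
  | n + 1 => ballSet G v n ∪ {w | ∃ w' ∈ ballSet G v n, G.Adj w' w}

variable {G : SimpleGraph ℕ}

lemma self_mem_ballSet (v n : ℕ) : v ∈ ballSet G v n := by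
  induction n with
  | zero => simp [ballSet]
  | succ n ih => exact Or.inl ih

lemma ballSet_mono (v : ℕ) : Monotone (ballSet G v) :=
  monotone_nat_of_le_succ fun _ => subset_union_left

lemma ballSet_finite (hlf : ∀ v : ℕ, (G.neighborSet v).Finite) (v n : ℕ) :
    (ballSet G v n).Finite := by
  induction n with
  | zero => simp [ballSet]
  | succ n ih =>
    apply ih.union
    have : {w | ∃ w' ∈ ballSet G v n, G.Adj w' w} = ⋃ w' ∈ ballSet G v n, G.neighborSet w' := by
      ext w; simp
    rw [this]
    exact ih.biUnion fun w' _ => hlf w'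

lemma ballSet_step {v n w w' : ℕ} (h : w' ∈ ballSet G v n) (ha : G.Adj w' w) :
    w ∈ ballSet G v (n + 1) := Or.inr ⟨w', h, ha⟩

/-- Walks stay in balls. -/
lemma exists_mem_ballSet_of_reachable {v w : ℕ} (h : G.Reachable v w) :
    ∃ n, w ∈ ballSet G v n := by
  rw [SimpleGraph.reachable_iff_reflTransGen] at h
  induction h with
  | refl => exact ⟨0, by simp [ballSet]⟩
  | tail _ ha ih =>
    obtain ⟨n, hn⟩ := ih
    exact ⟨n + 1, ballSet_step hn ha⟩

lemma ballSet_exhaust (hc : G.Connected) (v w : ℕ) : ∃ n, w ∈ ballSet G v n :=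
  exists_mem_ballSet_of_reachable (hc.preconnected v w)

lemma reachable_of_mem_ballSet {v w n : ℕ} (h : w ∈ ballSet G v n) : G.Reachable v w := by
  induction n generalizing w with
  | zero =>
    have : w = v := h
    rw [this]
  | succ n ih =>
    rcases h with h | ⟨w', hw', ha⟩
    · exact ih h
    · exact (ih hw').trans ha.reachable

/-- Balls induce connected subgraphs. -/
lemma ballSet_induce_connected (v n : ℕ) : (G.induce (ballSet G v n)).Connected := by
  have hroot : ∀ n (w : ℕ) (hw : w ∈ ballSet G v n),
      (G.induce (ballSet G v n)).Reachable ⟨v, self_mem_ballSet v n⟩ ⟨w, hw⟩ := by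
    intro n
    induction n with
    | zero =>
      intro w hw
      have : w = v := hw
      subst this
      exact SimpleGraph.Reachable.refl _
    | succ n ih =>
      -- the embedding of the smaller ball
      have hsub : ballSet G v n ⊆ ballSet G v (n + 1) := ballSet_mono v (Nat.le_succ n)
      let f : (G.induce (ballSet G v n)) →g (G.induce (ballSet G v (n + 1))) :=
        { toFun := fun x => ⟨x.1, hsub x.2⟩
          map_rel' := fun h => h }
      intro w hw
      rcases hw with hw | ⟨w', hw', ha⟩
      · exact (ih w hw).map f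
      · have h1 := (ih w' hw').map f
        have h2 : (G.induce (ballSet G v (n + 1))).Adj ⟨w', hsub hw'⟩ ⟨w, Or.inr ⟨w', hw', ha⟩⟩ := ha
        exact h1.trans h2.reachable
  have : Nonempty (ballSet G v n) := ⟨⟨v, self_mem_ballSet v n⟩⟩
  refine ⟨fun a b => ?_⟩
  exact (hroot n a.1 a.2).symm.trans (hroot n b.1 b.2)

/-- Balls are equivariant. -/
lemma mem_ballSet_comap (σ : Equiv.Perm ℕ) (v w n : ℕ) :
    w ∈ ballSet (G.comap σ) v n ↔ σ w ∈ ballSet G (σ v) n := by
  induction n generalizing w with
  | zero =>
    simp [ballSet]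
  | succ n ih =>
    simp only [ballSet, mem_union, ih, mem_ofPred_eq]
    constructor
    · rintro (h | ⟨w', hw', ha⟩)
      · exact Or.inl h
      · exact Or.inr ⟨σ w', hw', by simpa using ha⟩
    · rintro (h | ⟨w', hw', ha⟩)
      · exact Or.inl h
      · refine Or.inr ⟨σ.symm w', ?_, ?_⟩
        · simpa using hw'
        · simpa using ha

/-- The sigma-algebra of tables. -/
lemma measurableSet_adj (i j : ℕ) :
    MeasurableSet {A : ℕ → ℕ → Bool | (graphOfTable A).Adj i j} := by
  by_cases hij : i = j
  · subst hij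
    simp
  · have : {A : ℕ → ℕ → Bool | (graphOfTable A).Adj i j}
        = {A | A i j = true} ∪ {A | A j i = true} := by
      ext A
      simp [graphOfTable, SimpleGraph.fromRel_adj, hij]
    rw [this]
    apply MeasurableSet.union
    · have : Measurable (fun A : ℕ → ℕ → Bool => A i j) :=
        (measurable_pi_apply j).comp (measurable_pi_apply i)
      exact this (measurableSet_singleton true)
    · have : Measurable (fun A : ℕ → ℕ → Bool => A j i) :=
        (measurable_pi_apply i).comp (measurable_pi_apply j)
      exact this (measurableSet_singleton true)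

/-- Balls are measurable in the table. -/
lemma measurableSet_mem_ballSet (v w n : ℕ) :
    MeasurableSet {A : ℕ → ℕ → Bool | w ∈ ballSet (graphOfTable A) v n} := by
  induction n generalizing w with
  | zero =>
    simp only [ballSet, mem_singleton_iff]
    exact MeasurableSet.const _
  | succ n ih =>
    have : {A : ℕ → ℕ → Bool | w ∈ ballSet (graphOfTable A) v (n + 1)}
        = {A | w ∈ ballSet (graphOfTable A) v n} ∪
          ⋃ w' : ℕ, ({A | w' ∈ ballSet (graphOfTable A) v n} ∩ {A | (graphOfTable A).Adj w' w}) := by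
      ext A
      simp [ballSet]
    rw [this]
    exact (ih w).union (MeasurableSet.iUnion fun w' => (ih w').inter (measurableSet_adj w' w))

/-- Level of `w` seen from `v`: the first radius whose ball contains `w` (`0` if there is none). -/
noncomputable def lev (G : SimpleGraph ℕ) (v w : ℕ) : ℕ := sInf {n | w ∈ ballSet G v n}

lemma lev_mem {v w : ℕ} (h : ∃ n, w ∈ ballSet G v n) : w ∈ ballSet G v (lev G v w) :=
  Nat.sInf_mem h

lemma lev_le {v w n : ℕ} (h : w ∈ ballSet G v n) : lev G v w ≤ n :=
  Nat.sInf_le h

lemma mem_ballSet_iff_lev_le {v w n : ℕ} (h : ∃ n, w ∈ ballSet G v n) :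
    w ∈ ballSet G v n ↔ lev G v w ≤ n :=
  ⟨lev_le, fun hle => ballSet_mono v hle (lev_mem h)⟩

lemma lev_comap (σ : Equiv.Perm ℕ) (v w : ℕ) : lev (G.comap σ) v w = lev G (σ v) (σ w) := by
  unfold lev
  congr 1
  ext n
  exact mem_ballSet_comap σ v w n

/-- A measurable family of subsets of `ℕ` has a measurable infimum. -/
lemma measurable_sInf_nat {Ω : Type*} [MeasurableSpace Ω] {S : Ω → Set ℕ}
    (hS : ∀ n, MeasurableSet {ω | n ∈ S ω}) : Measurable (fun ω => sInf (S ω)) := by
  apply measurable_to_countable'
  intro k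
  have h0 : MeasurableSet {ω | S ω = ∅} := by
    have : {ω | S ω = ∅} = ⋂ n, {ω | n ∈ S ω}ᶜ := by
      ext ω
      simp [Set.eq_empty_iff_forall_notMem]
    rw [this]
    exact MeasurableSet.iInter fun n => (hS n).compl
  have h1 : MeasurableSet ({ω | k ∈ S ω} ∩ ⋂ j : Fin k, {ω | (j : ℕ) ∈ S ω}ᶜ) :=
    (hS k).inter (MeasurableSet.iInter fun j => (hS j).compl)
  cases k with
  | zero =>
    have : (fun ω => sInf (S ω)) ⁻¹' {0} = {ω | S ω = ∅} ∪ {ω | 0 ∈ S ω} := by
      ext ω
      simp only [mem_preimage, mem_singleton_iff, mem_union, mem_ofPred_eq]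
      rw [Nat.sInf_eq_zero]
      tauto
    rw [this]
    exact h0.union (hS 0)
  | succ k =>
    have : (fun ω => sInf (S ω)) ⁻¹' {k + 1}
        = {ω | k + 1 ∈ S ω} ∩ ⋂ j : Fin (k + 1), {ω | (j : ℕ) ∈ S ω}ᶜ := by
      ext ω
      simp only [mem_preimage, mem_singleton_iff, mem_inter_iff, mem_ofPred_eq, mem_iInter,
        mem_compl_iff]
      constructor
      · intro h
        have hne : (S ω).Nonempty := by
          by_contra hcon
          rw [Set.not_nonempty_iff_eq_empty] at hcon
          rw [hcon] at h
          simp at h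
        refine ⟨h ▸ Nat.sInf_mem hne, fun j hj => ?_⟩
        have := Nat.sInf_le hj
        have := j.2
        omega
      · rintro ⟨h1, h2⟩
        apply le_antisymm (Nat.sInf_le h1)
        by_contra hcon
        push Not at hcon
        have hne : (S ω).Nonempty := ⟨_, h1⟩
        exact h2 ⟨_, hcon⟩ (Nat.sInf_mem hne)
    rw [this]
    exact h1

/-- Levels are measurable in the table. -/
lemma measurable_lev (v w : ℕ) :
    Measurable (fun A : ℕ → ℕ → Bool => lev (graphOfTable A) v w) :=
  measurable_sInf_nat fun n => measurableSet_mem_ballSet v w n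

end Crest.Agent.Lib.SRF
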