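/-
Row 168 (S0254 half): Cauchy-Binet in the weighted rank-one form used for the matrix-tree theorem.
-/
import Mathlib

set_option autoImplicit false

namespace Crest.Agent.Lib.SRF

open Finset Matrix

section CauchyBinet

set_option linter.unusedSectionVars false

variable {m ι R : Type*} [Fintype m] [DecidableEq m] [DecidableEq ι] [CommRing R]

/-- Determinant of the rows `b (f i)`. -/
noncomputable def detRows (b : ι → m → R) (f : m → ι) : R :=
  Matrix.det (Matrix.of fun i j => b (f i) j)

/-- An enumeration of a finset by `m`, if the cardinalities agree. -/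
noncomputable def enumF (I : Finset ι) (h : I.card = Fintype.card m) : m ≃ I :=
  Fintype.equivOfCardEq (by simpa using h.symm)

/-- The squared minor of the rows in `I`, for some (any) enumeration of `I`. -/
noncomputable def minorSq (m : Type*) [Fintype m] [DecidableEq m] {R : Type*} [CommRing R]
    (b : ι → m → R) (I : Finset ι) : R :=
  if h : I.card = Fintype.card m then (detRows b (fun i => (enumF I h i : ι))) ^ 2 else 0

lemma det_expand (E : Finset ι) (b : ι → m → R) (z : ι → R) :
    Matrix.det (Matrix.of fun i j => ∑ e ∈ E, z e * b e i * b e j) =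
      ∑ f ∈ Fintype.piFinset (fun _ : m => E),
        (∏ i, z (f i)) * (∏ i, b (f i) i) * detRows b f := by
  classical
  rw [Matrix.det_apply']
  simp only [Matrix.of_apply]
  have h1 : ∀ σ : Equiv.Perm m,
      (∏ i, ∑ e ∈ E, z e * b e (σ i) * b e i) =
        ∑ f ∈ Fintype.piFinset (fun _ : m => E), ∏ i, (z (f i) * b (f i) (σ i) * b (f i) i) := by
    intro σ
    rw [Finset.prod_univ_sum]
  simp only [h1, Finset.mul_sum]
  rw [Finset.sum_comm]
  refine Finset.sum_congr rfl fun f _ => ?_
  have h2 : detRows b f = ∑ σ : Equiv.Perm m, ((Equiv.Perm.sign σ : ℤ) : R) * ∏ i, b (f i) (σ i) := by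
    rw [detRows, ← Matrix.det_transpose, Matrix.det_apply']
    rfl
  rw [h2, Finset.mul_sum]
  refine Finset.sum_congr rfl fun σ _ => ?_
  simp only [Finset.prod_mul_distrib]
  ring

lemma detRows_eq_zero_of_not_injective (b : ι → m → R) {f : m → ι} (hf : ¬ Function.Injective f) :
    detRows b f = 0 := by
  rw [Function.Injective] at hf
  push Not at hf
  obtain ⟨i, j, hij, hne⟩ := hf
  exact Matrix.det_zero_of_row_eq hne (by ext k; simp [hij])

lemma detRows_comp_perm (b : ι → m → R) (g : m → ι) (π : Equiv.Perm m) :
    detRows b (g ∘ π) = ((Equiv.Perm.sign π : ℤ) : R) * detRows b g := by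
  have := Matrix.det_permute π (Matrix.of fun i j => b (g i) j)
  rw [detRows, detRows, ← this]
  rfl

lemma sum_perm_term (b : ι → m → R) (g : m → ι) :
    ∑ π : Equiv.Perm m, (∏ i, b (g (π i)) i) * detRows b (g ∘ π) = detRows b g ^ 2 := by
  have h : detRows b g = ∑ π : Equiv.Perm m, ((Equiv.Perm.sign π : ℤ) : R) * ∏ i, b (g (π i)) i := by
    rw [detRows, Matrix.det_apply']
    rfl
  calc ∑ π : Equiv.Perm m, (∏ i, b (g (π i)) i) * detRows b (g ∘ π)
      = ∑ π : Equiv.Perm m, (((Equiv.Perm.sign π : ℤ) : R) * ∏ i, b (g (π i)) i) * detRows b g := by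
        refine Finset.sum_congr rfl fun π _ => ?_
        rw [detRows_comp_perm]
        ring
    _ = detRows b g * detRows b g := by rw [← Finset.sum_mul, ← h]
    _ = detRows b g ^ 2 := by ring

/-- Sum over the injective maps with a given image. -/
lemma sum_image_eq (E : Finset ι) (b : ι → m → R) (z : ι → R) (I : Finset ι)
    (hI : I ∈ E.powersetCard (Fintype.card m)) :
    ∑ f ∈ ((Fintype.piFinset (fun _ : m => E)).filter Function.Injective).filter
        (fun f => Finset.univ.image f = I),
      (∏ i, z (f i)) * (∏ i, b (f i) i) * detRows b f =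
    (∏ e ∈ I, z e) * minorSq m b I := by
  classical
  rw [Finset.mem_powersetCard] at hI
  obtain ⟨hIE, hcard⟩ := hI
  rw [minorSq, dif_pos hcard]
  set g : m → ι := fun i => (enumF I hcard i : ι) with hg
  have hginj : Function.Injective g := fun i j h => (enumF I hcard).injective (Subtype.ext h)
  have hgmem : ∀ i, g i ∈ I := fun i => (enumF I hcard i).2
  have hgim : Finset.univ.image g = I := by
    ext x
    simp only [Finset.mem_image, Finset.mem_univ, true_and]
    constructor
    · rintro ⟨i, rfl⟩; exact hgmem i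
    · intro hx
      obtain ⟨i, hi⟩ := (enumF I hcard).surjective ⟨x, hx⟩
      exact ⟨i, by simp [hg, hi]⟩
  have hprod : ∀ π : Equiv.Perm m, ∏ i, z (g (π i)) = ∏ e ∈ I, z e := by
    intro π
    rw [Equiv.prod_comp π (fun i => z (g i))]
    rw [← hgim, Finset.prod_image (fun i _ j _ h => hginj h)]
  rw [← sum_perm_term b g, Finset.mul_sum]
  symm
  refine Finset.sum_bij (fun π _ => g ∘ π) ?_ ?_ ?_ ?_
  · intro π _
    simp only [Finset.mem_filter, Fintype.mem_piFinset, Function.comp]
    refine ⟨⟨fun i => hIE (hgmem _), hginj.comp π.injective⟩, ?_⟩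
    rw [← hgim]
    ext x
    simp only [Finset.mem_image, Finset.mem_univ, true_and]
    constructor
    · rintro ⟨i, rfl⟩; exact ⟨π i, rfl⟩
    · rintro ⟨i, rfl⟩; exact ⟨π.symm i, by simp⟩
  · intro π _ π' _ h
    ext i
    have := congrFun h i
    exact hginj this
  · intro f hf
    simp only [Finset.mem_filter, Fintype.mem_piFinset] at hf
    obtain ⟨⟨_, hfinj⟩, hfim⟩ := hf
    have hfmem : ∀ i, ∃ j, g j = f i := by
      intro i
      have : f i ∈ Finset.univ.image g := by
        rw [hgim, ← hfim]; exact Finset.mem_image_of_mem _ (Finset.mem_univ _)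
      simpa using this
    choose π hπ using hfmem
    have hπinj : Function.Injective π := by
      intro i j h
      apply hfinj
      rw [← hπ, ← hπ, h]
    have hπbij : Function.Bijective π := Finite.injective_iff_bijective.mp hπinj
    refine ⟨Equiv.ofBijective π hπbij, Finset.mem_univ _, ?_⟩
    ext i
    simp [hπ]
  · intro π _
    have h3 : ∏ i, z ((g ∘ π) i) = ∏ e ∈ I, z e := hprod π
    have h4 : ∏ i, b ((g ∘ π) i) i = ∏ i, b (g (π i)) i := rfl
    rw [h3, h4]
    ring

/-- Cauchy-Binet in rank one form. -/
theorem det_sum_rankOne (E : Finset ι) (b : ι → m → R) (z : ι → R) :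
    Matrix.det (Matrix.of fun i j => ∑ e ∈ E, z e * b e i * b e j) =
      ∑ I ∈ E.powersetCard (Fintype.card m), (∏ e ∈ I, z e) * minorSq m b I := by
  classical
  rw [det_expand]
  have h1 : ∑ f ∈ Fintype.piFinset (fun _ : m => E),
        (∏ i, z (f i)) * (∏ i, b (f i) i) * detRows b f =
      ∑ f ∈ (Fintype.piFinset (fun _ : m => E)).filter Function.Injective,
        (∏ i, z (f i)) * (∏ i, b (f i) i) * detRows b f := by
    symm
    apply Finset.sum_subset (Finset.filter_subset _ _)
    intro f hf hf'
    have : ¬ Function.Injective f := fun h => hf' (Finset.mem_filter.mpr ⟨hf, h⟩)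
    rw [detRows_eq_zero_of_not_injective b this, mul_zero]
  rw [h1]
  have hmaps : ∀ f ∈ (Fintype.piFinset (fun _ : m => E)).filter Function.Injective,
      (Finset.univ.image f) ∈ E.powersetCard (Fintype.card m) := by
    intro f hf
    simp only [Finset.mem_filter, Fintype.mem_piFinset] at hf
    rw [Finset.mem_powersetCard]
    refine ⟨?_, ?_⟩
    · intro x hx
      simp only [Finset.mem_image, Finset.mem_univ, true_and] at hx
      obtain ⟨i, rfl⟩ := hx
      exact hf.1 i
    · rw [Finset.card_image_of_injective _ hf.2, Finset.card_univ]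
  rw [← Finset.sum_fiberwise_of_maps_to hmaps]
  exact Finset.sum_congr rfl fun I hI => sum_image_eq E b z I hI

end CauchyBinet

end Crest.Agent.Lib.SRF
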