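/-
Row 168 (S0254): i.i.d. labels on all of `Sym2 ℕ` from i.i.d. labels on the vertices, exactly
equivariant, jointly measurable in (table, labels), with the right law on connected locally finite
graphs.

Each vertex label is split into `(ξ_v, (a_{v,r,j})_{r,j})`.  A pair `{v,w}` is owned by its endpoint
`m` with the smaller `ξ`, and gets the array slot `r = rk m o`, the rank of the other endpoint `o` in
the order `(level from m, ξ)` on `ℕ`: this order has finite initial segments on a connected locally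
finite graph, so `(m, rk m o)` is injective in the pair when `ξ` is injective.
-/
import Crest.Agent.Lib.SRF.Balls
import Crest.Agent.Lib.SRF.Assembly

set_option autoImplicit false

namespace Crest.Agent.Lib.SRF

open MeasureTheory Set ProbabilityTheory
open Crest.ProbabilityR.GraphTables

/-! ### Generic facts on label measures -/

/-- Splitting a sum of index sets. -/
lemma lam_sum_split (α β : Type*) :
    (lam (α ⊕ β)).map (fun c => (fun a => c (Sum.inl a), fun b => c (Sum.inr b)))
      = (lam α).prod (lam β) := by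
  classical
  have hmeas : Measurable (fun c : α ⊕ β → Lab =>
      ((fun a => c (Sum.inl a), fun b => c (Sum.inr b)) : (α → Lab) × (β → Lab))) :=
    (measurable_pi_iff.2 fun a => measurable_pi_apply _).prodMk
      (measurable_pi_iff.2 fun b => measurable_pi_apply _)
  -- glue map
  let glue : (α → Lab) × (β → Lab) → (α ⊕ β → Lab) := fun p => Sum.elim p.1 p.2
  have hglue : Measurable glue := by
    refine measurable_pi_iff.2 fun i => ?_
    cases i with
    | inl a => exact (measurable_pi_apply a).comp measurable_fst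
    | inr b => exact (measurable_pi_apply b).comp measurable_snd
  have hlaw : ((lam α).prod (lam β)).map glue = lam (α ⊕ β) := by
    refine Measure.eq_infinitePi _ fun s t ht => ?_
    rw [Measure.map_apply hglue (MeasurableSet.pi s.countable_toSet fun i _ => ht i)]
    have hpre : glue ⁻¹' (Set.pi (s : Set (α ⊕ β)) t)
        = (Set.pi (s.toLeft : Set α) (fun a => t (Sum.inl a)))
          ×ˢ (Set.pi (s.toRight : Set β) (fun b => t (Sum.inr b))) := by
      ext ⟨f, g⟩
      simp only [mem_preimage, Set.mem_pi, Finset.mem_coe, mem_prod, Finset.mem_toLeft,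
        Finset.mem_toRight, glue]
      constructor
      · intro h
        exact ⟨fun a ha => h _ ha, fun b hb => h _ hb⟩
      · rintro ⟨h1, h2⟩ i hi
        cases i with
        | inl a => exact h1 a hi
        | inr b => exact h2 b hi
    rw [hpre, Measure.prod_prod]
    have h1 : lam α (Set.pi (s.toLeft : Set α) (fun a => t (Sum.inl a)))
        = ∏ a ∈ s.toLeft, volume (t (Sum.inl a)) :=
      Measure.infinitePi_pi _ fun a _ => ht _
    have h2 : lam β (Set.pi (s.toRight : Set β) (fun b => t (Sum.inr b)))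
        = ∏ b ∈ s.toRight, volume (t (Sum.inr b)) :=
      Measure.infinitePi_pi _ fun b _ => ht _
    rw [h1, h2]
    conv_rhs => rw [← Finset.toLeft_disjSum_toRight (u := s)]
    rw [Finset.prod_disjSum]
  rw [← hlaw, Measure.map_map hmeas hglue]
  have : (fun c : α ⊕ β → Lab =>
      ((fun a => c (Sum.inl a), fun b => c (Sum.inr b)) : (α → Lab) × (β → Lab))) ∘ glue = id := by
    funext p
    rfl
  rw [this, Measure.map_id]

/-- Injective reindexing of i.i.d. labels. -/
lemma lam_map_inj {α β : Type*} {f : α → β} (hf : Function.Injective f) :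
    (lam β).map (fun c i => c (f i)) = lam α :=
  Measure.map_infinitePi_infinitePi_of_inj (P := fun _ : β => (volume : Measure Lab)) hf

/-! ### Ranks -/

variable {G : SimpleGraph ℕ}

/-- The key of `w` seen from `m`. -/
noncomputable def keyL (G : SimpleGraph ℕ) (ξ : ℕ → Lab) (m w : ℕ) : ℕ ×ₗ Lab :=
  toLex (lev G m w, ξ w)

/-- The rank of `w` in the order seen from `m`. -/
noncomputable def rk (G : SimpleGraph ℕ) (ξ : ℕ → Lab) (m w : ℕ) : ℕ :=
  {w' | keyL G ξ m w' < keyL G ξ m w}.ncard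

lemma keyL_comap (σ : Equiv.Perm ℕ) (ξ : ℕ → Lab) (m w : ℕ) :
    keyL (G.comap σ) (ξ ∘ σ) m w = keyL G ξ (σ m) (σ w) := by
  unfold keyL
  rw [lev_comap]
  rfl

lemma rk_comap (σ : Equiv.Perm ℕ) (ξ : ℕ → Lab) (m w : ℕ) :
    rk (G.comap σ) (ξ ∘ σ) m w = rk G ξ (σ m) (σ w) := by
  unfold rk
  simp_rw [keyL_comap]
  have : {w' | keyL G ξ (σ m) (σ w') < keyL G ξ (σ m) (σ w)}
      = σ ⁻¹' {w' | keyL G ξ (σ m) w' < keyL G ξ (σ m) (σ w)} := rfl
  rw [this, ← Equiv.image_symm_eq_preimage, Set.ncard_image_of_injective _ σ.symm.injective]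

lemma finite_before (hc : G.Connected) (hlf : ∀ v : ℕ, (G.neighborSet v).Finite) (ξ : ℕ → Lab)
    (m w : ℕ) : {w' | keyL G ξ m w' < keyL G ξ m w}.Finite := by
  apply (ballSet_finite hlf m (lev G m w)).subset
  intro w' hw'
  have h : keyL G ξ m w' < keyL G ξ m w := hw'
  rw [keyL, keyL, Prod.Lex.lt_iff] at h
  rw [mem_ballSet_iff_lev_le (ballSet_exhaust hc m w')]
  rcases h with h | ⟨h, _⟩
  · exact le_of_lt h
  · exact le_of_eq h

lemma rk_lt (hc : G.Connected) (hlf : ∀ v : ℕ, (G.neighborSet v).Finite) (ξ : ℕ → Lab)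
    {m w₁ w₂ : ℕ} (h : keyL G ξ m w₁ < keyL G ξ m w₂) : rk G ξ m w₁ < rk G ξ m w₂ := by
  apply Set.ncard_lt_ncard _ (finite_before hc hlf ξ m w₂)
  refine ⟨fun w' hw' => lt_trans hw' h, fun hsub => ?_⟩
  exact lt_irrefl (keyL G ξ m w₁) (hsub h)

lemma rk_injective (hc : G.Connected) (hlf : ∀ v : ℕ, (G.neighborSet v).Finite) {ξ : ℕ → Lab}
    (hξ : Function.Injective ξ) (m : ℕ) : Function.Injective (rk G ξ m) := by
  intro w₁ w₂ h
  by_contra hne
  have hkey : keyL G ξ m w₁ ≠ keyL G ξ m w₂ := by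
    intro hk
    have : ξ w₁ = ξ w₂ := by
      have := congrArg (fun p : ℕ ×ₗ Lab => (ofLex p).2) hk
      simpa [keyL] using this
    exact hne (hξ this)
  rcases lt_or_gt_of_ne hkey with hlt | hlt
  · exact absurd h (rk_lt hc hlf ξ hlt).ne
  · exact absurd h (rk_lt hc hlf ξ hlt).ne'

/-! ### Labels on pairs -/

open Classical in
/-- The label of the pair `{v,w}`, index `j`. -/
noncomputable def labP (G : SimpleGraph ℕ) (ξ : ℕ → Lab) (a : ℕ × ℕ × ℕ → Lab) (j v w : ℕ) : Lab :=
  if ξ v < ξ w ∨ v = w then a (v, rk G ξ v w, j)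
  else if ξ w < ξ v then a (w, rk G ξ w v, j)
  else 0

lemma labP_symm (G : SimpleGraph ℕ) (ξ : ℕ → Lab) (a : ℕ × ℕ × ℕ → Lab) (j v w : ℕ) :
    labP G ξ a j v w = labP G ξ a j w v := by
  unfold labP
  by_cases hvw : v = w
  · subst hvw; rfl
  · have hwv : ¬ w = v := fun h => hvw h.symm
    simp only [hvw, hwv, or_false]
    rcases lt_trichotomy (ξ v) (ξ w) with h | h | h
    · simp [h, not_lt.2 h.le]
    · simp [h]
    · simp [h, not_lt.2 h.le]

/-- The label of a pair, index `j`. -/
noncomputable def labE (G : SimpleGraph ℕ) (ξ : ℕ → Lab) (a : ℕ × ℕ × ℕ → Lab) (j : ℕ) :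
    Sym2 ℕ → Lab :=
  Sym2.lift ⟨labP G ξ a j, labP_symm G ξ a j⟩

lemma labE_mk (ξ : ℕ → Lab) (a : ℕ × ℕ × ℕ → Lab) (j v w : ℕ) :
    labE G ξ a j s(v, w) = labP G ξ a j v w := rfl

lemma labP_comap (σ : Equiv.Perm ℕ) (ξ : ℕ → Lab) (a : ℕ × ℕ × ℕ → Lab) (j v w : ℕ) :
    labP (G.comap σ) (ξ ∘ σ) (fun p => a (σ p.1, p.2)) j v w = labP G ξ a j (σ v) (σ w) := by
  unfold labP
  simp only [Function.comp, rk_comap, EmbeddingLike.apply_eq_iff_eq]

lemma labE_comap (σ : Equiv.Perm ℕ) (ξ : ℕ → Lab) (a : ℕ × ℕ × ℕ → Lab) (j : ℕ) (e : Sym2 ℕ) :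
    labE (G.comap σ) (ξ ∘ σ) (fun p => a (σ p.1, p.2)) j e = labE G ξ a j (Sym2.map σ e) := by
  induction e using Sym2.ind with
  | _ v w =>
    rw [Sym2.map_mk]
    exact labP_comap σ ξ a j v w

/-! ### Measurability -/

/-- `Set.ncard` on subsets of `ℕ` is measurable. -/
lemma measurable_ncard_family {Ω : Type*} [MeasurableSpace Ω] {S : Ω → Set ℕ}
    (hS : ∀ n, MeasurableSet {ω | n ∈ S ω}) : Measurable (fun ω => (S ω).ncard) := by
  classical
  have hT : ∀ T : Finset ℕ, MeasurableSet {ω | S ω = (T : Set ℕ)} := by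
    intro T
    have : {ω | S ω = (T : Set ℕ)} = ⋂ n, {ω | n ∈ S ω ↔ n ∈ T} := by
      ext ω
      simp [Set.ext_iff]
    rw [this]
    refine MeasurableSet.iInter fun n => ?_
    by_cases hn : n ∈ T
    · have h : {ω | n ∈ S ω ↔ n ∈ T} = {ω | n ∈ S ω} := by
        ext ω; simp [hn]
      rw [h]; exact hS n
    · have h : {ω | n ∈ S ω ↔ n ∈ T} = {ω | n ∈ S ω}ᶜ := by
        ext ω; simp [hn]
      rw [h]; exact (hS n).compl
  have hpos : ∀ r : ℕ, MeasurableSet {ω | (S ω).ncard = r + 1} := by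
    intro r
    have : {ω | (S ω).ncard = r + 1} = ⋃ T : {T : Finset ℕ // T.card = r + 1}, {ω | S ω = (T.1 : Set ℕ)} := by
      ext ω
      simp only [mem_ofPred_eq, mem_iUnion, Subtype.exists, exists_prop]
      constructor
      · intro h
        have hfin : (S ω).Finite := Set.finite_of_ncard_pos (by omega)
        refine ⟨hfin.toFinset, ?_, by simp⟩
        rw [← Set.ncard_eq_toFinset_card _ hfin, h]
      · rintro ⟨T, hT, h⟩
        rw [h, Set.ncard_coe_finset, hT]
    rw [this]
    exact MeasurableSet.iUnion fun T => hT T.1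
  apply measurable_to_countable'
  intro r
  cases r with
  | zero =>
    have : (fun ω => (S ω).ncard) ⁻¹' {0} = (⋃ r : ℕ, {ω | (S ω).ncard = r + 1})ᶜ := by
      ext ω
      simp only [mem_preimage, mem_singleton_iff, mem_compl_iff, mem_iUnion, mem_ofPred_eq, not_exists]
      constructor
      · intro h r
        omega
      · intro h
        by_contra hne
        obtain ⟨r, hr⟩ := Nat.exists_eq_succ_of_ne_zero hne
        exact h r hr
    rw [this]
    exact (MeasurableSet.iUnion hpos).compl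
  | succ r => exact hpos r

/-- The total space of the labels. -/
abbrev LabΩ := (ℕ → ℕ → Bool) × (ℕ → Lab) × (ℕ × ℕ × ℕ → Lab)

lemma measurableSet_key_lt {Ω : Type*} [MeasurableSpace Ω] {A : Ω → ℕ → ℕ → Bool}
    {ξ : Ω → ℕ → Lab} (hA : Measurable A) (hξ : Measurable ξ) (m w' w : ℕ) :
    MeasurableSet {ω | keyL (graphOfTable (A ω)) (ξ ω) m w' < keyL (graphOfTable (A ω)) (ξ ω) m w} := by
  have h1 : Measurable (fun ω => lev (graphOfTable (A ω)) m w') := (measurable_lev m w').comp hA
  have h2 : Measurable (fun ω => lev (graphOfTable (A ω)) m w) := (measurable_lev m w).comp hA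
  have h3 : Measurable (fun ω => ξ ω w') := (measurable_pi_apply w').comp hξ
  have h4 : Measurable (fun ω => ξ ω w) := (measurable_pi_apply w).comp hξ
  have : {ω | keyL (graphOfTable (A ω)) (ξ ω) m w' < keyL (graphOfTable (A ω)) (ξ ω) m w}
      = {ω | lev (graphOfTable (A ω)) m w' < lev (graphOfTable (A ω)) m w} ∪
        ({ω | lev (graphOfTable (A ω)) m w' = lev (graphOfTable (A ω)) m w} ∩
          {ω | ξ ω w' < ξ ω w}) := by
    ext ω
    simp [keyL, Prod.Lex.toLex_lt_toLex]
  rw [this]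
  exact (measurableSet_lt h1 h2).union ((measurableSet_eq_fun h1 h2).inter (measurableSet_lt h3 h4))

lemma measurable_rk {Ω : Type*} [MeasurableSpace Ω] {A : Ω → ℕ → ℕ → Bool}
    {ξ : Ω → ℕ → Lab} (hA : Measurable A) (hξ : Measurable ξ) (m w : ℕ) :
    Measurable (fun ω => rk (graphOfTable (A ω)) (ξ ω) m w) :=
  measurable_ncard_family fun n => measurableSet_key_lt hA hξ m n w

lemma measurable_arr_at {Ω : Type*} [MeasurableSpace Ω] {a : Ω → ℕ × ℕ × ℕ → Lab}
    (ha : Measurable a) {R : Ω → ℕ} (hR : Measurable R) (v j : ℕ) :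
    Measurable (fun ω => a ω (v, R ω, j)) := by
  have h1 : Measurable (fun q : Ω × ℕ => a q.1 (v, q.2, j)) := by
    apply measurable_from_prod_countable_left
    intro r
    exact (measurable_pi_apply (v, r, j)).comp ha
  exact h1.comp (measurable_id.prodMk hR)

lemma measurable_labP {Ω : Type*} [MeasurableSpace Ω] {A : Ω → ℕ → ℕ → Bool}
    {ξ : Ω → ℕ → Lab} {a : Ω → ℕ × ℕ × ℕ → Lab} (hA : Measurable A) (hξ : Measurable ξ)
    (ha : Measurable a) (j v w : ℕ) :
    Measurable (fun ω => labP (graphOfTable (A ω)) (ξ ω) (a ω) j v w) := by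
  classical
  unfold labP
  have h3 : Measurable (fun ω => ξ ω v) := (measurable_pi_apply v).comp hξ
  have h4 : Measurable (fun ω => ξ ω w) := (measurable_pi_apply w).comp hξ
  refine Measurable.ite ?_ (measurable_arr_at ha (measurable_rk hA hξ v w) v j) ?_
  · exact (measurableSet_lt h3 h4).union (MeasurableSet.const _)
  · refine Measurable.ite (measurableSet_lt h4 h3) (measurable_arr_at ha (measurable_rk hA hξ w v) w j)
      measurable_const

lemma measurable_labE {Ω : Type*} [MeasurableSpace Ω] {A : Ω → ℕ → ℕ → Bool}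
    {ξ : Ω → ℕ → Lab} {a : Ω → ℕ × ℕ × ℕ → Lab} (hA : Measurable A) (hξ : Measurable ξ)
    (ha : Measurable a) (j : ℕ) (e : Sym2 ℕ) :
    Measurable (fun ω => labE (graphOfTable (A ω)) (ξ ω) (a ω) j e) := by
  induction e using Sym2.ind with
  | _ v w => exact measurable_labP hA hξ ha j v w

/-! ### The law for a fixed graph -/

section Law

open Classical in
/-- The owner and slot of a pair. -/
noncomputable def slotP (G : SimpleGraph ℕ) (ξ : ℕ → Lab) (v w : ℕ) : ℕ × ℕ :=
  if ξ v < ξ w ∨ v = w then (v, rk G ξ v w) else (w, rk G ξ w v)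

lemma slotP_symm {ξ : ℕ → Lab} (hξ : Function.Injective ξ) (v w : ℕ) :
    slotP G ξ v w = slotP G ξ w v := by
  unfold slotP
  by_cases hvw : v = w
  · subst hvw; rfl
  · have hwv : ¬ w = v := fun h => hvw h.symm
    have hne : ξ v ≠ ξ w := fun h => hvw (hξ h)
    simp only [hvw, hwv, or_false]
    rcases lt_or_gt_of_ne hne with h | h
    · simp [h, not_lt.2 h.le]
    · simp [h, not_lt.2 h.le]

/-- The owner and slot of an unordered pair. -/
noncomputable def slotS {ξ : ℕ → Lab} (hξ : Function.Injective ξ) (G : SimpleGraph ℕ) :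
    Sym2 ℕ → ℕ × ℕ :=
  Sym2.lift ⟨slotP G ξ, slotP_symm hξ⟩

lemma labE_eq_slot {ξ : ℕ → Lab} (hξ : Function.Injective ξ) (a : ℕ × ℕ × ℕ → Lab) (j : ℕ)
    (e : Sym2 ℕ) : labE G ξ a j e = a ((slotS hξ G e).1, (slotS hξ G e).2, j) := by
  induction e using Sym2.ind with
  | _ v w =>
    show labP G ξ a j v w = a ((slotP G ξ v w).1, (slotP G ξ v w).2, j)
    unfold labP slotP
    by_cases h1 : ξ v < ξ w ∨ v = w
    · simp [h1]
    · by_cases h2 : ξ w < ξ v
      · simp [h1, h2]
      · exfalso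
        apply h1
        right
        apply hξ
        exact le_antisymm (not_lt.1 h2) (not_lt.1 (fun h => h1 (Or.inl h)))

lemma slotP_spec (ξ : ℕ → Lab) (v w : ℕ) :
    ∃ m o, s(v, w) = s(m, o) ∧ slotP G ξ v w = (m, rk G ξ m o) := by
  unfold slotP
  by_cases h1 : ξ v < ξ w ∨ v = w
  · exact ⟨v, w, rfl, by simp [h1]⟩
  · exact ⟨w, v, Sym2.eq_swap, by simp [h1]⟩

lemma slotS_injective (hc : G.Connected) (hlf : ∀ v : ℕ, (G.neighborSet v).Finite) {ξ : ℕ → Lab}
    (hξ : Function.Injective ξ) : Function.Injective (slotS hξ G) := by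
  intro e e' h
  induction e using Sym2.ind with
  | _ v w =>
    induction e' using Sym2.ind with
    | _ v' w' =>
      obtain ⟨m, o, h1, h2⟩ := slotP_spec (G := G) ξ v w
      obtain ⟨m', o', h1', h2'⟩ := slotP_spec (G := G) ξ v' w'
      have h3 : slotP G ξ v w = slotP G ξ v' w' := h
      rw [h2, h2'] at h3
      have hm : m = m' := congrArg Prod.fst h3
      subst hm
      have ho : o = o' := rk_injective hc hlf hξ m (congrArg Prod.snd h3)
      subst ho
      rw [h1, h1']

/-- The index map of all the labels. -/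
noncomputable def indexJ {ξ : ℕ → Lab} (hξ : Function.Injective ξ) (G : SimpleGraph ℕ) :
    Sym2 ℕ ⊕ (Sym2 ℕ × ℕ) → ℕ × ℕ × ℕ :=
  Sum.elim (fun e => ((slotS hξ G e).1, (slotS hξ G e).2, 0))
    (fun p => ((slotS hξ G p.1).1, (slotS hξ G p.1).2, p.2 + 1))

lemma indexJ_injective (hc : G.Connected) (hlf : ∀ v : ℕ, (G.neighborSet v).Finite) {ξ : ℕ → Lab}
    (hξ : Function.Injective ξ) : Function.Injective (indexJ hξ G) := by
  have hS := slotS_injective hc hlf hξ
  rintro (e | ⟨e, k⟩) (e' | ⟨e', k'⟩) h <;> simp only [indexJ, Sum.elim_inl, Sum.elim_inr, Prod.mk.injEq] at h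
  · have : slotS hξ G e = slotS hξ G e' := Prod.ext h.1 h.2.1
    rw [hS this]
  · omega
  · omega
  · have : slotS hξ G e = slotS hξ G e' := Prod.ext h.1 h.2.1
    rw [hS this]
    have : k = k' := by omega
    rw [this]

/-- All the labels of pairs, from the vertex randomness. -/
noncomputable def labAll (G : SimpleGraph ℕ) (q : (ℕ → Lab) × (ℕ × ℕ × ℕ → Lab)) :
    (Sym2 ℕ → Lab) × (Sym2 ℕ × ℕ → Lab) :=
  (fun e => labE G q.1 q.2 0 e, fun p => labE G q.1 q.2 (p.2 + 1) p.1)

lemma law_fixed (hc : G.Connected) (hlf : ∀ v : ℕ, (G.neighborSet v).Finite) {ξ : ℕ → Lab}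
    (hξ : Function.Injective ξ) :
    (lam (ℕ × ℕ × ℕ)).map (fun a => labAll G (ξ, a)) = (lam (Sym2 ℕ)).prod (lam (Sym2 ℕ × ℕ)) := by
  have h1 := lam_map_inj (indexJ_injective hc hlf hξ)
  have h2 := lam_sum_split (Sym2 ℕ) (Sym2 ℕ × ℕ)
  rw [← h2, ← h1]
  have hm1 : Measurable (fun (c : ℕ × ℕ × ℕ → Lab) i => c (indexJ hξ G i)) :=
    measurable_pi_iff.2 fun i => measurable_pi_apply _
  have hm2 : Measurable (fun c : Sym2 ℕ ⊕ (Sym2 ℕ × ℕ) → Lab =>
      ((fun a => c (Sum.inl a), fun b => c (Sum.inr b)) : (Sym2 ℕ → Lab) × (Sym2 ℕ × ℕ → Lab))) :=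
    (measurable_pi_iff.2 fun a => measurable_pi_apply _).prodMk
      (measurable_pi_iff.2 fun b => measurable_pi_apply _)
  rw [Measure.map_map hm2 hm1]
  congr 1
  funext a
  simp only [labAll, Function.comp, indexJ, Sum.elim_inl, Sum.elim_inr]
  refine Prod.ext ?_ ?_
  · funext e
    exact labE_eq_slot hξ a 0 e
  · funext p
    exact labE_eq_slot hξ a (p.2 + 1) p.1

lemma graphOfTable_tableOf (G : SimpleGraph ℕ) : graphOfTable (tableOf G) = G := by
  ext i j
  simp only [graphOfTable, tableOf, SimpleGraph.fromRel_adj, decide_eq_true_eq]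
  constructor
  · rintro ⟨_, h | h⟩
    · exact h
    · exact h.symm
  · intro h
    exact ⟨h.ne, Or.inl h⟩

lemma measurable_labAll_fixed (G : SimpleGraph ℕ) : Measurable (labAll G) := by
  have key : ∀ (j : ℕ) (e : Sym2 ℕ), Measurable
      (fun q : (ℕ → Lab) × (ℕ × ℕ × ℕ → Lab) => labE G q.1 q.2 j e) := by
    intro j e
    have := measurable_labE (Ω := (ℕ → Lab) × (ℕ × ℕ × ℕ → Lab))
      (A := fun _ => tableOf G) (ξ := Prod.fst) (a := Prod.snd) measurable_const measurable_fst
      measurable_snd j e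
    simpa only [graphOfTable_tableOf] using this
  exact (measurable_pi_iff.2 fun e => key 0 e).prodMk (measurable_pi_iff.2 fun p => key _ p.1)

/-- The law of the labels of pairs, given the vertex randomness. -/
theorem law_pair (hc : G.Connected) (hlf : ∀ v : ℕ, (G.neighborSet v).Finite) :
    ((lam ℕ).prod (lam (ℕ × ℕ × ℕ))).map (labAll G)
      = (lam (Sym2 ℕ)).prod (lam (Sym2 ℕ × ℕ)) := by
  ext B hB
  have hm := measurable_labAll_fixed G
  rw [Measure.map_apply hm hB, Measure.prod_apply (hm hB)]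
  have h1 : ∀ᵐ ξ ∂(lam ℕ), lam (ℕ × ℕ × ℕ) (Prod.mk ξ ⁻¹' (labAll G ⁻¹' B))
      = ((lam (Sym2 ℕ)).prod (lam (Sym2 ℕ × ℕ))) B := by
    filter_upwards [ae_injective_lam (E := ℕ)] with ξ hξ
    have hmm : Measurable (fun a => labAll G (ξ, a)) := hm.comp measurable_prodMk_left
    rw [← law_fixed hc hlf hξ, Measure.map_apply hmm hB]
    rfl
  rw [lintegral_congr_ae h1]
  simp

/-! ### Splitting the vertex labels -/

/-- The index set of one vertex label. -/
abbrev VI := Unit ⊕ (ℕ × ℕ)

lemma exists_spX : ∃ s : Lab → (VI → Lab), Measurable s ∧ (volume : Measure Lab).map s = lam VI :=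
  exists_split (VI → Lab) (lam VI)

/-- The splitting of a vertex label. -/
noncomputable def spX : Lab → (VI → Lab) := Classical.choose exists_spX

lemma measurable_spX : Measurable spX := (Classical.choose_spec exists_spX).1

lemma map_spX : (volume : Measure Lab).map spX = lam VI := (Classical.choose_spec exists_spX).2

/-- The rank labels. -/
noncomputable def xiOf (x : ℕ → Lab) : ℕ → Lab := fun v => spX (x v) (Sum.inl ())

/-- The array of all other labels. -/
noncomputable def arrOf (x : ℕ → Lab) : ℕ × ℕ × ℕ → Lab := fun p => spX (x p.1) (Sum.inr p.2)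

lemma measurable_xiOf : Measurable xiOf :=
  measurable_pi_iff.2 fun v => (measurable_pi_apply _).comp
    (measurable_spX.comp (measurable_pi_apply v))

lemma measurable_arrOf : Measurable arrOf :=
  measurable_pi_iff.2 fun p => (measurable_pi_apply _).comp
    (measurable_spX.comp (measurable_pi_apply p.1))

lemma xiOf_comp (σ : Equiv.Perm ℕ) (x : ℕ → Lab) : xiOf (x ∘ σ) = xiOf x ∘ σ := rfl

lemma arrOf_comp (σ : Equiv.Perm ℕ) (x : ℕ → Lab) :
    arrOf (x ∘ σ) = fun p => arrOf x (σ p.1, p.2) := rfl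

/-- The index of the split labels. -/
def indexI : ℕ ⊕ (ℕ × ℕ × ℕ) → ℕ × VI :=
  Sum.elim (fun v => (v, Sum.inl ())) (fun p => (p.1, Sum.inr p.2))

lemma indexI_injective : Function.Injective indexI := by
  rintro (v | ⟨v, p⟩) (v' | ⟨v', p'⟩) h <;> simp_all [indexI]

/-- The split vertex randomness has the product law. -/
theorem law_split :
    (lam ℕ).map (fun x => (xiOf x, arrOf x)) = (lam ℕ).prod (lam (ℕ × ℕ × ℕ)) := by
  -- step 1: coordinatewise splitting
  have h1 : (lam ℕ).map (fun x v => spX (x v)) = Measure.infinitePi (fun _ : ℕ => lam VI) := by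
    have := Measure.infinitePi_map_pi (fun _ : ℕ => (volume : Measure Lab))
      (f := fun _ : ℕ => spX) (fun _ => measurable_spX)
    simp only [map_spX] at this
    exact this
  -- step 2: uncurrying
  have h2 : (Measure.infinitePi (fun _ : ℕ => lam VI)).map (MeasurableEquiv.curry ℕ VI Lab).symm
      = lam (ℕ × VI) :=
    Measure.infinitePi_map_curry_symm (fun _ _ => (volume : Measure Lab))
  -- step 3: reindexing
  have h3 := lam_map_inj indexI_injective
  -- step 4: splitting the sum
  have h4 := lam_sum_split ℕ (ℕ × ℕ × ℕ)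
  rw [← h4, ← h3, ← h2, ← h1]
  have hm1 : Measurable (fun (x : ℕ → Lab) v => spX (x v)) :=
    measurable_pi_iff.2 fun v => measurable_spX.comp (measurable_pi_apply v)
  have hm2 : Measurable (MeasurableEquiv.curry ℕ VI Lab).symm :=
    (MeasurableEquiv.curry ℕ VI Lab).symm.measurable
  have hm3 : Measurable (fun (c : ℕ × VI → Lab) i => c (indexI i)) :=
    measurable_pi_iff.2 fun i => measurable_pi_apply _
  have hm4 : Measurable (fun c : ℕ ⊕ (ℕ × ℕ × ℕ) → Lab =>
      ((fun a => c (Sum.inl a), fun b => c (Sum.inr b)) : (ℕ → Lab) × (ℕ × ℕ × ℕ → Lab))) :=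
    (measurable_pi_iff.2 fun a => measurable_pi_apply _).prodMk
      (measurable_pi_iff.2 fun b => measurable_pi_apply _)
  rw [Measure.map_map hm2 hm1, Measure.map_map hm3 (hm2.comp hm1), Measure.map_map hm4 (hm3.comp (hm2.comp hm1))]
  rfl

/-! ### The final labels -/

/-- The phase labels of pairs. -/
noncomputable def edgeU (G : SimpleGraph ℕ) (x : ℕ → Lab) : Sym2 ℕ → Lab :=
  fun e => labE G (xiOf x) (arrOf x) 0 e

/-- The noise labels of pairs. -/
noncomputable def edgeV (G : SimpleGraph ℕ) (x : ℕ → Lab) : Sym2 ℕ × ℕ → Lab :=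
  fun p => labE G (xiOf x) (arrOf x) (p.2 + 1) p.1

/-- Exact equivariance of the phases. -/
theorem edgeU_comap (σ : Equiv.Perm ℕ) (G : SimpleGraph ℕ) (x : ℕ → Lab) :
    edgeU (G.comap σ) (x ∘ σ) = edgeU G x ∘ Sym2.map σ := by
  funext e
  exact labE_comap σ (xiOf x) (arrOf x) 0 e

/-- Exact equivariance of the noise. -/
theorem edgeV_comap (σ : Equiv.Perm ℕ) (G : SimpleGraph ℕ) (x : ℕ → Lab) :
    edgeV (G.comap σ) (x ∘ σ) = edgeV G x ∘ Prod.map (Sym2.map σ) id := by
  funext p
  exact labE_comap σ (xiOf x) (arrOf x) (p.2 + 1) p.1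

/-- Joint measurability of the phases in (table, labels). -/
theorem measurable_edgeU : Measurable
    (fun p : (ℕ → ℕ → Bool) × (ℕ → Lab) => edgeU (graphOfTable p.1) p.2) :=
  measurable_pi_iff.2 fun e => measurable_labE measurable_fst (measurable_xiOf.comp measurable_snd)
    (measurable_arrOf.comp measurable_snd) 0 e

/-- Joint measurability of the noise in (table, labels). -/
theorem measurable_edgeV : Measurable
    (fun p : (ℕ → ℕ → Bool) × (ℕ → Lab) => edgeV (graphOfTable p.1) p.2) :=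
  measurable_pi_iff.2 fun q => measurable_labE measurable_fst (measurable_xiOf.comp measurable_snd)
    (measurable_arrOf.comp measurable_snd) (q.2 + 1) q.1

/-- The law of the labels of pairs on a connected locally finite graph. -/
theorem law_edge (hc : G.Connected) (hlf : ∀ v : ℕ, (G.neighborSet v).Finite) :
    (lam ℕ).map (fun x => (edgeU G x, edgeV G x)) = (lam (Sym2 ℕ)).prod (lam (Sym2 ℕ × ℕ)) := by
  rw [← law_pair hc hlf, ← law_split, Measure.map_map (measurable_labAll_fixed G)
    (measurable_xiOf.prodMk measurable_arrOf)]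
  rfl

end Law

end Crest.Agent.Lib.SRF
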