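/-
Row 168, S0254 half: the free uniform spanning forest as a limit law `fsfLaw G`:
 * `ustLaw G S`: the uniform spanning tree of a finite piece as a law on `Sym2 ℕ → Bool`,
 * `ballF`: canonical exhaustion,
 * `exists_fsfLaw`: existence of the limit law, with the masses of increasing cylinders given by the
   limits of `ustContains` along every exhaustion, and the 1/2-Lipschitz bound for all windows,
 * `fsfLaw` : total function of `G`,
 * equivariance under relabelling.
-/
import Crest.Agent.Lib.SRF.USTStub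

set_option autoImplicit false

namespace Crest.Agent.Lib.SRF

open MeasureTheory Filter Topology Set Crest.ProbabilityR.SpanningTrees

variable {ι : Type*}

open Classical in
/-- The configuration of a finite set. -/
noncomputable def cfgOf (A : Finset ι) : ι → Bool := fun e => decide (e ∈ A)

@[simp] lemma cfgOf_eq_true (A : Finset ι) (e : ι) : cfgOf A e = true ↔ e ∈ A := by
  simp [cfgOf]

/-- The uniform law on a finite family of configurations. -/
noncomputable def unifCfg (T : Finset (Finset ι)) : Measure (ι → Bool) :=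
  ((T.card : ENNReal)⁻¹) • ∑ A ∈ T, Measure.dirac (cfgOf A)

section Unif
variable [Countable ι]

lemma unifCfg_apply (T : Finset (Finset ι)) (M : Set (ι → Bool)) :
    unifCfg T M = ((T.card : ENNReal)⁻¹) * (∑ A ∈ T, M.indicator 1 (cfgOf A)) := by
  classical
  simp [unifCfg, Measure.dirac_apply, Measure.coe_finset_sum, Finset.sum_apply]

open Classical in
lemma unifCfg_apply_real (T : Finset (Finset ι)) (M : Set (ι → Bool)) :
    (unifCfg T M).toReal = ((T.filter fun A => cfgOf A ∈ M).card : ℝ) / (T.card : ℝ) := by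
  rw [unifCfg_apply]
  have h : (∑ A ∈ T, M.indicator (1 : (ι → Bool) → ENNReal) (cfgOf A)) =
      ((T.filter fun A => cfgOf A ∈ M).card : ENNReal) := by
    rw [Finset.card_eq_sum_ones, Finset.sum_filter]
    push_cast
    refine Finset.sum_congr rfl fun A _ => ?_
    by_cases hA : cfgOf A ∈ M <;> simp [hA]
  rw [h, ENNReal.toReal_mul, ENNReal.toReal_inv, ENNReal.toReal_natCast, ENNReal.toReal_natCast]
  ring

lemma unifCfg_isProb {T : Finset (Finset ι)} (hT : T.Nonempty) :
    IsProbabilityMeasure (unifCfg T) := by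
  classical
  constructor
  rw [unifCfg_apply]
  have hcard : (T.card : ENNReal) ≠ 0 := by
    simpa using hT.ne_empty
  have : (∑ A ∈ T, (univ : Set (ι → Bool)).indicator (1 : (ι → Bool) → ENNReal) (cfgOf A)) =
      (T.card : ENNReal) := by
    simp
  rw [this, ENNReal.inv_mul_cancel hcard (ENNReal.natCast_ne_top _)]

end Unif

/-- The uniform spanning tree of the piece `S` as a law on configurations. -/
noncomputable def ustLaw (G : SimpleGraph ℕ) (S : Finset ℕ) : Measure (Sym2 ℕ → Bool) :=
  unifCfg (ustTrees G S)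

lemma ustLaw_isProb {G : SimpleGraph ℕ} {S : Finset ℕ} (hc : (G.induce (S : Set ℕ)).Connected) :
    IsProbabilityMeasure (ustLaw G S) :=
  unifCfg_isProb (ustTrees_nonempty hc)

lemma coef_ustLaw (G : SimpleGraph ℕ) (S : Finset ℕ) (W B : Finset (Sym2 ℕ)) :
    coef (ustLaw G S) W B = ustTable G S W B := by
  classical
  rw [coef, ustLaw, unifCfg_apply_real, ustTable]
  congr 2
  refine Finset.card_bij (fun A _ => A) ?_ (fun _ _ _ _ h => h) (fun A hA => ⟨A, ?_, rfl⟩)
  · intro A hA
    simpa using hA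
  · simpa using hA

lemma ustLaw_cyl (G : SimpleGraph ℕ) (S : Finset ℕ) (F : Finset (Sym2 ℕ)) :
    (ustLaw G S {ω | ∀ i ∈ F, ω i = true}).toReal = ustContains G S F := by
  classical
  rw [ustLaw, unifCfg_apply_real, ustContains]
  congr 2
  · refine Finset.card_bij (fun A _ => A) ?_ (fun _ _ _ _ h => h) (fun A hA => ⟨A, ?_, rfl⟩)
    · intro A hA
      simp only [ustTrees, Finset.mem_filter, Set.mem_setOf_eq, cfgOf_eq_true] at hA ⊢
      exact ⟨hA.1.1, hA.1.2, fun i hi => hA.2 i hi⟩
    · simp only [ustTrees, Finset.mem_filter, Set.mem_setOf_eq, cfgOf_eq_true] at hA ⊢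
      exact ⟨⟨hA.1, hA.2.1⟩, fun i hi => hA.2.2 hi⟩

/-! ### Canonical exhaustion by balls -/

open Classical in
/-- Neighbours as a finite set (empty when infinite). -/
noncomputable def nbrF (G : SimpleGraph ℕ) (v : ℕ) : Finset ℕ :=
  if h : (G.neighborSet v).Finite then h.toFinset else ∅

lemma mem_nbrF {G : SimpleGraph ℕ} (hlf : ∀ v, (G.neighborSet v).Finite) {v w : ℕ} :
    w ∈ nbrF G v ↔ G.Adj v w := by
  simp [nbrF, hlf v]

open Classical in
/-- Balls in the graph. -/
noncomputable def ballF (G : SimpleGraph ℕ) (v : ℕ) : ℕ → Finset ℕ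
  | 0 => {v}
  | n + 1 => ballF G v n ∪ (ballF G v n).biUnion (nbrF G)

lemma ballF_succ_subset (G : SimpleGraph ℕ) (v n : ℕ) : ballF G v n ⊆ ballF G v (n + 1) := by
  classical
  exact Finset.subset_union_left

lemma ballF_mono (G : SimpleGraph ℕ) (v : ℕ) : Monotone (ballF G v) :=
  monotone_nat_of_le_succ fun n => ballF_succ_subset G v n

lemma self_mem_ballF (G : SimpleGraph ℕ) (v n : ℕ) : v ∈ ballF G v n :=
  ballF_mono G v (Nat.zero_le n) (by simp [ballF])

lemma mem_ballF_succ {G : SimpleGraph ℕ} (hlf : ∀ v, (G.neighborSet v).Finite) {v w n : ℕ} :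
    w ∈ ballF G v (n + 1) ↔ w ∈ ballF G v n ∨ ∃ u ∈ ballF G v n, G.Adj u w := by
  classical
  simp only [ballF, Finset.mem_union, Finset.mem_biUnion, mem_nbrF hlf]

lemma ballF_exhausts {G : SimpleGraph ℕ} (hG : G.Connected) (hlf : ∀ v, (G.neighborSet v).Finite)
    (v w : ℕ) : ∃ n, w ∈ ballF G v n := by
  classical
  obtain ⟨p⟩ := hG.preconnected v w
  -- induct along the walk, tracking the last vertex
  have key : ∀ {a b : ℕ} (q : G.Walk a b), ∀ n, a ∈ ballF G v n → ∃ m, b ∈ ballF G v m := by
    intro a b q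
    induction q with
    | nil => exact fun n h => ⟨n, h⟩
    | @cons a c b hac _ ih =>
      intro n hn
      exact ih (n + 1) ((mem_ballF_succ hlf).2 (Or.inr ⟨a, hn, hac⟩))
  exact key p 0 (self_mem_ballF G v 0)

lemma ballF_connected {G : SimpleGraph ℕ} (hlf : ∀ v, (G.neighborSet v).Finite) (v n : ℕ) :
    (G.induce (ballF G v n : Set ℕ)).Connected := by
  classical
  have hroot : ∀ m, v ∈ (ballF G v m : Set ℕ) := fun m => self_mem_ballF G v m
  have key : ∀ m (w : ℕ) (hw : w ∈ (ballF G v m : Set ℕ)),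
      (G.induce (ballF G v m : Set ℕ)).Reachable ⟨v, hroot m⟩ ⟨w, hw⟩ := by
    intro m
    induction m with
    | zero =>
      intro w hw
      have : w = v := by simpa [ballF] using hw
      subst this
      exact SimpleGraph.Reachable.refl _
    | succ m ih =>
      intro w hw
      have hsub : (ballF G v m : Set ℕ) ≤ (ballF G v (m + 1) : Set ℕ) :=
        Finset.coe_subset.2 (ballF_succ_subset G v m)
      have hlift : ∀ (u : ℕ) (hu : u ∈ (ballF G v m : Set ℕ)),
          (G.induce (ballF G v (m + 1) : Set ℕ)).Reachable ⟨v, hroot (m + 1)⟩ ⟨u, hsub hu⟩ := by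
        intro u hu
        exact (ih u hu).map (G.induceHomOfLE hsub).toHom
      rcases (mem_ballF_succ hlf).1 (Finset.mem_coe.1 hw) with h | ⟨u, hu, hadj⟩
      · exact hlift w h
      · refine (hlift u hu).trans (SimpleGraph.Adj.reachable ?_)
        simpa using hadj
  haveI : Nonempty (ballF G v n : Set ℕ) := ⟨⟨v, hroot n⟩⟩
  exact SimpleGraph.Connected.mk fun a b =>
    (key n a.1 a.2).symm.trans (key n b.1 b.2)

/-! ### The limit law -/

/-- Increasing-cylinder set. -/
def incCyl (F : Finset ι) : Set (ι → Bool) := {ω | ∀ i ∈ F, ω i = true}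

lemma coef_self_eq (ν : Measure (ι → Bool)) (F : Finset ι) :
    coef ν F F = (ν (incCyl F)).toReal := by
  have : {ω : ι → Bool | ∀ i ∈ F, (ω i = true ↔ i ∈ F)} = incCyl F := by
    ext ω
    simp only [incCyl, Set.mem_setOf_eq]
    exact forall₂_congr fun i hi => by simp [hi]
  rw [coef, this]

/-- An exhaustion of `G` as in the statement of S0254. -/
structure IsExhaustion (G : SimpleGraph ℕ) (S : ℕ → Finset ℕ) : Prop where
  mono : Monotone S
  cover : ∀ v, ∃ n, v ∈ S n
  conn : ∀ n, (G.induce (S n : Set ℕ)).Connected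

lemma isExhaustion_ballF {G : SimpleGraph ℕ} (hG : G.Connected)
    (hlf : ∀ v, (G.neighborSet v).Finite) (v : ℕ) : IsExhaustion G (ballF G v) :=
  ⟨ballF_mono G v, ballF_exhausts hG hlf v, ballF_connected hlf v⟩

/-- What we know about the free uniform spanning forest law. -/
structure IsFSFLaw (G : SimpleGraph ℕ) (ν : Measure (Sym2 ℕ → Bool)) : Prop where
  prob : IsProbabilityMeasure ν
  tendsto : ∀ S, IsExhaustion G S → ∀ F : Finset (Sym2 ℕ),
    Tendsto (fun n => ustContains G (S n) F) atTop (𝓝 (ν (incCyl F)).toReal)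
  lip : ∀ (W : Finset (Sym2 ℕ)) {e : Sym2 ℕ}, e ∈ W → ∀ {h h' : Sym2 ℕ → ℝ} {ε : ℝ},
    (∀ a ∈ W, |h a - h' a| ≤ ε) → |gibbsMean (coef ν W) W e h - gibbsMean (coef ν W) W e h'| ≤ ε / 2

theorem exists_fsfLaw {G : SimpleGraph ℕ} (hG : G.Connected)
    (hlf : ∀ v, (G.neighborSet v).Finite) : ∃ ν, IsFSFLaw G ν := by
  classical
  obtain ⟨μ, hμ⟩ := ust_limit hG hlf
  set S₀ := ballF G 0 with hS₀
  have hex₀ : IsExhaustion G S₀ := isExhaustion_ballF hG hlf 0
  haveI hp : ∀ n, IsProbabilityMeasure (ustLaw G (S₀ n)) := fun n => ustLaw_isProb (hex₀.conn n)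
  obtain ⟨ν, hνp, hν⟩ := exists_limit_law (fun n => ustLaw G (S₀ n)) (fun F => ⟨μ F, by
    have := hμ S₀ hex₀.mono hex₀.cover hex₀.conn F
    refine this.congr fun n => ?_
    exact (ustLaw_cyl G (S₀ n) F).symm⟩)
  have hμν : ∀ F, μ F = (ν (incCyl F)).toReal := by
    intro F
    have h1 := hμ S₀ hex₀.mono hex₀.cover hex₀.conn F
    have h2 := hν F F
    rw [coef_self_eq] at h2
    refine tendsto_nhds_unique h1 (h2.congr fun n => ?_)
    rw [coef_self_eq]
    exact ustLaw_cyl G (S₀ n) F
  refine ⟨ν, hνp, fun S hS F => ?_, fun W e he h h' ε hε => ?_⟩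
  · rw [← hμν]
    exact hμ S hS.mono hS.cover hS.conn F
  · refine gibbsMean_lipschitz_of_tendsto (c := fun n => coef (ustLaw G (S₀ n)) W)
      (fun n => goodCoef_coefLaw _ W) (fun n => ?_) (fun B => hν W B) he hε
    have : (fun B => coef (ustLaw G (S₀ n)) W B) = ustTable G (S₀ n) W := by
      funext B
      exact coef_ustLaw _ _ _ _
    show StableOn (fun B => coef (ustLaw G (S₀ n)) W B) W
    rw [this]
    exact ustTable_stable (hex₀.conn n) W

open Classical in
/-- The free uniform spanning forest law (an arbitrary probability law on non-admissible graphs). -/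
noncomputable def fsfLaw (G : SimpleGraph ℕ) : Measure (Sym2 ℕ → Bool) :=
  if h : G.Connected ∧ ∀ v, (G.neighborSet v).Finite then
    Classical.choose (exists_fsfLaw h.1 h.2)
  else Measure.dirac fun _ => false

theorem isFSFLaw_fsfLaw {G : SimpleGraph ℕ} (hG : G.Connected)
    (hlf : ∀ v, (G.neighborSet v).Finite) : IsFSFLaw G (fsfLaw G) := by
  rw [fsfLaw, dif_pos ⟨hG, hlf⟩]
  exact Classical.choose_spec (exists_fsfLaw hG hlf)

instance (G : SimpleGraph ℕ) : IsProbabilityMeasure (fsfLaw G) := by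
  by_cases h : G.Connected ∧ ∀ v, (G.neighborSet v).Finite
  · exact (isFSFLaw_fsfLaw h.1 h.2).prob
  · rw [fsfLaw, dif_neg h]
    infer_instance

/-! ### Uniqueness and equivariance -/

/-- A probability law on configurations is determined by its increasing-cylinder masses. -/
theorem measure_eq_of_incCyl [Countable ι] {ν₁ ν₂ : Measure (ι → Bool)}
    [IsProbabilityMeasure ν₁] [IsProbabilityMeasure ν₂]
    (h : ∀ F : Finset ι, ν₁ (incCyl F) = ν₂ (incCyl F)) : ν₁ = ν₂ := by
  classical
  have hgen : MeasurableSpace.pi (X := fun _ : ι => Bool) =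
      MeasurableSpace.generateFrom (Set.range (incCyl (ι := ι))) := by
    apply le_antisymm
    · refine iSup_le fun i => ?_
      rw [← measurable_iff_comap_le]
      refine measurable_to_bool ?_
      have : (fun ω : ι → Bool => ω i) ⁻¹' {true} = incCyl {i} := by
        ext ω
        simp [incCyl]
      rw [this]
      exact MeasurableSpace.measurableSet_generateFrom ⟨{i}, rfl⟩
    · refine MeasurableSpace.generateFrom_le ?_
      rintro _ ⟨F, rfl⟩
      have : incCyl F = cylTD F ∅ := by
        ext ω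
        simp [incCyl, cylTD]
      rw [this]
      exact measurableSet_cylTD _ _
  refine MeasureTheory.ext_of_generate_finite _ hgen ?_ ?_ (by simp)
  · rintro _ ⟨F, rfl⟩ _ ⟨F', rfl⟩ _
    refine ⟨F ∪ F', ?_⟩
    ext ω
    simp only [incCyl, Set.mem_setOf_eq, Set.mem_inter_iff, Finset.mem_union]
    constructor
    · intro hω
      exact ⟨fun i hi => hω i (Or.inl hi), fun i hi => hω i (Or.inr hi)⟩
    · rintro ⟨h₁, h₂⟩ i (hi | hi)
      · exact h₁ i hi
      · exact h₂ i hi
  · rintro _ ⟨F, rfl⟩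
    exact h F

/-- `Sym2.map σ` as an embedding. -/
def sHat (σ : Equiv.Perm ℕ) : Sym2 ℕ ↪ Sym2 ℕ := ⟨Sym2.map σ, Sym2.map.injective σ.injective⟩

@[simp] lemma sHat_mk (σ : Equiv.Perm ℕ) (a b : ℕ) : sHat σ s(a, b) = s(σ a, σ b) := rfl

lemma mem_edgesIn {G : SimpleGraph ℕ} {S : Finset ℕ} {a b : ℕ} :
    s(a, b) ∈ edgesIn G S ↔ a ∈ S ∧ b ∈ S ∧ G.Adj a b := by
  classical
  simp [edgesIn, and_assoc]

lemma sHat_mem_edgesIn (σ : Equiv.Perm ℕ) (G : SimpleGraph ℕ) (S : Finset ℕ) (e : Sym2 ℕ) :
    sHat σ e ∈ edgesIn G (S.map σ.toEmbedding) ↔ e ∈ edgesIn (G.comap σ) S := by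
  induction e using Sym2.ind with
  | _ a b =>
    rw [sHat_mk, mem_edgesIn, mem_edgesIn]
    simp

/-- Relabelling spanning trees. -/
lemma isSpanningTreeOn_comap (σ : Equiv.Perm ℕ) (G : SimpleGraph ℕ) (S : Finset ℕ)
    (A : Finset (Sym2 ℕ)) :
    IsSpanningTreeOn G (S.map σ.toEmbedding) (A.map (sHat σ)) ↔ IsSpanningTreeOn (G.comap σ) S A := by
  classical
  unfold IsSpanningTreeOn
  apply and_congr
  · constructor
    · intro h e he
      exact (sHat_mem_edgesIn σ G S e).1 (h (Finset.mem_map_of_mem _ he))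
    · intro h e he
      obtain ⟨e', he', rfl⟩ := Finset.mem_map.1 he
      exact (sHat_mem_edgesIn σ G S e').2 (h he')
  · -- the isomorphism of the two induced graphs
    let φ : (↑S : Set ℕ) ≃ (↑(S.map σ.toEmbedding) : Set ℕ) :=
      { toFun := fun v => ⟨σ v.1, by simpa using v.2⟩
        invFun := fun w => ⟨σ.symm w.1, by
          obtain ⟨v, hv, hvw⟩ := Finset.mem_map.1 (Finset.mem_coe.1 w.2)
          have : σ.symm w.1 = v := by
            rw [← hvw]
            simp
          rw [this]
          exact hv⟩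
        left_inv := fun v => by simp
        right_inv := fun w => by simp }
    have hiso : ((SimpleGraph.fromEdgeSet (A : Set (Sym2 ℕ))).induce (S : Set ℕ)) ≃g
        ((SimpleGraph.fromEdgeSet ((A.map (sHat σ) : Finset _) : Set (Sym2 ℕ))).induce
          (↑(S.map σ.toEmbedding) : Set ℕ)) :=
      { toEquiv := φ
        map_rel_iff' := by
          intro a b
          simp only [SimpleGraph.comap_adj, SimpleGraph.fromEdgeSet_adj, Function.Embedding.subtype_apply,
            φ, Equiv.coe_fn_mk, Finset.coe_map, Set.mem_image, Finset.mem_coe]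
          constructor
          · rintro ⟨⟨e, he, hee⟩, hne⟩
            refine ⟨?_, fun h => hne (by rw [h])⟩
            have : e = s(a.1, b.1) := (sHat σ).injective (by rw [hee]; rfl)
            rwa [this] at he
          · rintro ⟨h, hne⟩
            exact ⟨⟨s(a.1, b.1), h, rfl⟩, fun h' => hne (σ.injective h')⟩ }
    exact hiso.isTree_iff.symm

lemma mem_ustTrees {G : SimpleGraph ℕ} {S : Finset ℕ} {A : Finset (Sym2 ℕ)} :
    A ∈ ustTrees G S ↔ IsSpanningTreeOn G S A := by
  classical
  simp only [ustTrees, Finset.mem_filter, Finset.mem_powerset]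
  exact ⟨fun h => h.2, fun h => ⟨h.1, h⟩⟩

/-- The spanning trees of a relabelled piece. -/
lemma ustTrees_map (σ : Equiv.Perm ℕ) (G : SimpleGraph ℕ) (S : Finset ℕ) :
    ustTrees G (S.map σ.toEmbedding) =
      (ustTrees (G.comap σ) S).map ⟨Finset.map (sHat σ), Finset.map_injective _⟩ := by
  classical
  ext B
  simp only [Finset.mem_map, Function.Embedding.coeFn_mk, mem_ustTrees]
  constructor
  · intro hB
    have hsub : ∀ e ∈ B, ∃ e', sHat σ e' = e := by
      intro e _
      refine ⟨Sym2.map σ.symm e, ?_⟩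
      show Sym2.map σ (Sym2.map σ.symm e) = e
      rw [Sym2.map_map]
      simp
    let A := B.image (Sym2.map σ.symm)
    have hA : A.map (sHat σ) = B := by
      ext e
      simp only [A, Finset.mem_map, Finset.mem_image]
      constructor
      · rintro ⟨_, ⟨e', he', rfl⟩, rfl⟩
        show Sym2.map σ (Sym2.map σ.symm e') ∈ B
        rw [Sym2.map_map]
        simpa using he'
      · intro he
        refine ⟨_, ⟨e, he, rfl⟩, ?_⟩
        show Sym2.map σ (Sym2.map σ.symm e) = e
        rw [Sym2.map_map]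
        simp
    refine ⟨A, ?_, hA⟩
    rw [← isSpanningTreeOn_comap, hA]
    exact hB
  · rintro ⟨A, hA, rfl⟩
    exact (isSpanningTreeOn_comap σ G S A).2 hA

lemma cfgOf_map_comp (σ : Equiv.Perm ℕ) (A : Finset (Sym2 ℕ)) :
    cfgOf (A.map (sHat σ)) ∘ sHat σ = cfgOf A := by
  classical
  funext e
  simp [cfgOf, Finset.mem_map]

/-- Relabelling `ustContains`. -/
theorem ustContains_comap (σ : Equiv.Perm ℕ) (G : SimpleGraph ℕ) (S : Finset ℕ)
    (F : Finset (Sym2 ℕ)) :
    ustContains (G.comap σ) S F = ustContains G (S.map σ.toEmbedding) (F.map (sHat σ)) := by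
  classical
  rw [← ustLaw_cyl, ← ustLaw_cyl, ustLaw, ustLaw, unifCfg_apply_real, unifCfg_apply_real,
    ustTrees_map, Finset.card_map]
  congr 2
  refine Finset.card_bij (fun A _ => A.map (sHat σ)) ?_ (fun _ _ _ _ h => Finset.map_injective _ h) ?_
  · intro A hA
    simp only [Finset.mem_filter] at hA ⊢
    refine ⟨Finset.mem_map.2 ⟨A, hA.1, rfl⟩, ?_⟩
    intro e he
    obtain ⟨e', he', rfl⟩ := Finset.mem_map.1 he
    rw [cfgOf_eq_true]
    have := hA.2 e' he'
    rw [cfgOf_eq_true] at this
    exact Finset.mem_map_of_mem _ this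
  · intro B hB
    simp only [Finset.mem_filter] at hB
    obtain ⟨A, hA, rfl⟩ := Finset.mem_map.1 hB.1
    refine ⟨A, ?_, rfl⟩
    simp only [Finset.mem_filter]
    refine ⟨hA, fun e he => ?_⟩
    rw [cfgOf_eq_true]
    have := hB.2 _ (Finset.mem_map_of_mem _ he)
    rw [cfgOf_eq_true] at this
    exact (Finset.mem_map' _).1 this

/-- Relabelling an exhaustion. -/
lemma IsExhaustion.map {G : SimpleGraph ℕ} {S : ℕ → Finset ℕ} (σ : Equiv.Perm ℕ)
    (hS : IsExhaustion (G.comap σ) S) : IsExhaustion G (fun n => (S n).map σ.toEmbedding) := by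
  refine ⟨fun a b hab => Finset.map_subset_map.2 (hS.mono hab), fun v => ?_, fun n => ?_⟩
  · obtain ⟨n, hn⟩ := hS.cover (σ.symm v)
    refine ⟨n, Finset.mem_map.2 ⟨_, hn, by simp⟩⟩
  · have hc := hS.conn n
    let φ : (↑(S n) : Set ℕ) ≃ (↑((S n).map σ.toEmbedding) : Set ℕ) :=
      { toFun := fun v => ⟨σ v.1, by simpa using v.2⟩
        invFun := fun w => ⟨σ.symm w.1, by
          obtain ⟨v, hv, hvw⟩ := Finset.mem_map.1 (Finset.mem_coe.1 w.2)
          have : σ.symm w.1 = v := by
            rw [← hvw]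
            simp
          rw [this]
          exact hv⟩
        left_inv := fun v => by simp
        right_inv := fun w => by simp }
    have hiso : ((G.comap σ).induce (↑(S n) : Set ℕ)) ≃g
        (G.induce (↑((S n).map σ.toEmbedding) : Set ℕ)) :=
      { toEquiv := φ
        map_rel_iff' := by
          intro a b
          simp [φ] }
    exact hiso.connected_iff.1 hc

lemma connected_comap {G : SimpleGraph ℕ} (σ : Equiv.Perm ℕ) (hG : G.Connected) :
    (G.comap σ).Connected :=
  (SimpleGraph.Iso.connected_iff (SimpleGraph.Iso.comap (σ : ℕ ≃ ℕ) G)).2 hG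

lemma locFin_comap {G : SimpleGraph ℕ} (σ : Equiv.Perm ℕ)
    (hlf : ∀ v, (G.neighborSet v).Finite) (v : ℕ) : ((G.comap σ).neighborSet v).Finite := by
  have : (G.comap σ).neighborSet v = σ ⁻¹' (G.neighborSet (σ v)) := by
    ext w
    simp
  rw [this]
  exact (hlf _).preimage σ.injective.injOn

/-- Equivariance of the free uniform spanning forest law. -/
theorem fsfLaw_comap {G : SimpleGraph ℕ} (σ : Equiv.Perm ℕ) (hG : G.Connected)
    (hlf : ∀ v, (G.neighborSet v).Finite) :
    fsfLaw (G.comap σ) = (fsfLaw G).map (fun ω => ω ∘ sHat σ) := by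
  classical
  have hm : Measurable (fun ω : Sym2 ℕ → Bool => ω ∘ sHat σ) :=
    measurable_pi_lambda _ fun e => measurable_pi_apply _
  haveI : IsProbabilityMeasure ((fsfLaw G).map (fun ω => ω ∘ sHat σ)) :=
    Measure.isProbabilityMeasure_map hm.aemeasurable
  refine measure_eq_of_incCyl fun F => ?_
  have hG' := connected_comap σ hG
  have hlf' := locFin_comap σ hlf
  have hmeas : MeasurableSet (incCyl F) := by
    have : incCyl F = cylTD F ∅ := by
      ext ω
      simp [incCyl, cylTD]
    rw [this]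
    exact measurableSet_cylTD _ _
  rw [Measure.map_apply hm hmeas]
  have hpre : (fun ω : Sym2 ℕ → Bool => ω ∘ sHat σ) ⁻¹' incCyl F = incCyl (F.map (sHat σ)) := by
    ext ω
    simp [incCyl]
  rw [hpre]
  -- both are the limit along a common exhaustion
  have hex := isExhaustion_ballF hG' hlf' 0
  have h1 := (isFSFLaw_fsfLaw hG' hlf').tendsto _ hex F
  have h2 := (isFSFLaw_fsfLaw hG hlf).tendsto _ (hex.map σ) (F.map (sHat σ))
  have h3 : (fsfLaw (G.comap σ) (incCyl F)).toReal = (fsfLaw G (incCyl (F.map (sHat σ)))).toReal := by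
    refine tendsto_nhds_unique h1 (h2.congr fun n => ?_)
    exact (ustContains_comap σ G _ F).symm
  exact (ENNReal.toReal_eq_toReal_iff' (measure_ne_top _ _) (measure_ne_top _ _)).1 h3

/-- Along any exhaustion the coefficient tables converge to that of the limit law. -/
theorem IsFSFLaw.tendsto_cylTD {G : SimpleGraph ℕ} {ν : Measure (Sym2 ℕ → Bool)} (hν : IsFSFLaw G ν)
    {S : ℕ → Finset ℕ} (hS : IsExhaustion G S) (D T : Finset (Sym2 ℕ)) :
    Tendsto (fun n => (ustLaw G (S n) (cylTD T D)).toReal) atTop (𝓝 (ν (cylTD T D)).toReal) := by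
  classical
  haveI := hν.prob
  haveI : ∀ n, IsProbabilityMeasure (ustLaw G (S n)) := fun n => ustLaw_isProb (hS.conn n)
  induction D using Finset.induction_on generalizing T with
  | empty =>
    have h := hν.tendsto S hS T
    have hT : cylTD T ∅ = incCyl T := by
      ext ω
      simp [incCyl, cylTD]
    rw [hT]
    exact h.congr fun n => (ustLaw_cyl G (S n) T).symm
  | insert d D _ ih =>
    have h₁ := ih T
    have h₂ := ih (insert d T)
    have hsplit : ∀ μ : Measure (Sym2 ℕ → Bool), IsProbabilityMeasure μ →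
        (μ (cylTD T (insert d D))).toReal =
          (μ (cylTD T D)).toReal - (μ (cylTD (insert d T) D)).toReal := by
      intro μ _
      have hu := cylTD_insert T D d
      have hm : μ (cylTD T D) = μ (cylTD T (insert d D)) + μ (cylTD (insert d T) D) := by
        conv_lhs => rw [hu]
        exact measure_union (disjoint_cylTD_insert T D d) (measurableSet_cylTD _ _)
      rw [hm, ENNReal.toReal_add (measure_ne_top _ _) (measure_ne_top _ _)]
      ring
    rw [hsplit ν hν.prob]
    exact (h₁.sub h₂).congr fun n => (hsplit _ inferInstance).symm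

/-- Along any exhaustion the coefficient tables converge to that of the limit law. -/
theorem IsFSFLaw.tendsto_coef {G : SimpleGraph ℕ} {ν : Measure (Sym2 ℕ → Bool)} (hν : IsFSFLaw G ν)
    {S : ℕ → Finset ℕ} (hS : IsExhaustion G S) (W B : Finset (Sym2 ℕ)) :
    Tendsto (fun n => ustTable G (S n) W B) atTop (𝓝 (coef ν W B)) := by
  classical
  rw [coef_eq_cylTD]
  refine (hν.tendsto_cylTD hS (W \ B) (W ∩ B)).congr fun n => ?_
  rw [← coef_eq_cylTD, coef_ustLaw]

/-- Coefficient table of the limit law under relabelling. -/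
theorem coef_fsfLaw_comap {G : SimpleGraph ℕ} (σ : Equiv.Perm ℕ) (hG : G.Connected)
    (hlf : ∀ v, (G.neighborSet v).Finite) (W B : Finset (Sym2 ℕ)) :
    coef (fsfLaw (G.comap σ)) W B = coef (fsfLaw G) (W.map (sHat σ)) (B.map (sHat σ)) := by
  classical
  rw [fsfLaw_comap σ hG hlf, coef, coef]
  have hm : Measurable (fun ω : Sym2 ℕ → Bool => ω ∘ sHat σ) :=
    measurable_pi_lambda _ fun e => measurable_pi_apply _
  have hmeas : MeasurableSet {ω : Sym2 ℕ → Bool | ∀ i ∈ W, (ω i = true ↔ i ∈ B)} := by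
    have : {ω : Sym2 ℕ → Bool | ∀ i ∈ W, (ω i = true ↔ i ∈ B)} = cylTD (W ∩ B) (W \ B) := by
      ext ω
      simp only [Set.mem_setOf_eq, cylTD, Finset.mem_inter, Finset.mem_sdiff]
      constructor
      · intro h
        refine ⟨fun i hi => (h i hi.1).2 hi.2, fun i hi => ?_⟩
        have := h i hi.1
        cases hω : ω i
        · rfl
        · rw [hω] at this
          exact absurd (this.1 rfl) hi.2
      · rintro ⟨h₁, h₂⟩ i hi
        by_cases hS : i ∈ B
        · simp [h₁ i ⟨hi, hS⟩, hS]
        · simp [h₂ i ⟨hi, hS⟩, hS]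
    rw [this]
    exact measurableSet_cylTD _ _
  rw [Measure.map_apply hm hmeas]
  congr 2
  ext ω
  simp only [Set.mem_preimage, Set.mem_setOf_eq, Function.comp, Finset.mem_map]
  constructor
  · rintro h _ ⟨e, he, rfl⟩
    have := h e he
    rw [this]
    exact ⟨fun hb => ⟨e, hb, rfl⟩, fun ⟨e', he', hh⟩ => (sHat σ).injective hh ▸ he'⟩
  · intro h e he
    have := h _ ⟨e, he, rfl⟩
    rw [this]
    exact ⟨fun ⟨e', he', hh⟩ => (sHat σ).injective hh ▸ he', fun hb => ⟨e, hb, rfl⟩⟩

end Crest.Agent.Lib.SRF
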