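/-
Row 168, S0254 half: the family of tables of the free uniform spanning forest over the space of
adjacency tables.  Definitions only.
-/
import Crest.Agent.Lib.SRF.FSF
import Crest.Agent.Lib.SRF.Balls
import Crest.Agent.Lib.SRF.Assembly
import Crest.Prelude.Def_GraphTables

set_option autoImplicit false

namespace Crest.Agent.Lib.SRF

open Crest.ProbabilityR.GraphTables

/-- Adjacency tables. -/
abbrev Tab := ℕ → ℕ → Bool

/-- Tables of connected locally finite graphs. -/
def goodTab : Set Tab :=
  {A | (graphOfTable A).Connected ∧ ∀ v, ((graphOfTable A).neighborSet v).Finite}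

/-- The window of the pair `e` of radius `n`: pairs inside the `n`-balls of its endpoints. -/
noncomputable def fsfWinOf (G : SimpleGraph ℕ) (e : Sym2 ℕ) (n : ℕ) : Finset (Sym2 ℕ) :=
  (e.toFinset.biUnion fun v => ballF G v n).sym2

open Classical in
/-- The family of tables of the free uniform spanning forests. -/
noncomputable def fsfFam : Family Tab (Sym2 ℕ) where
  c := fun A => coef (fsfLaw (graphOfTable A))
  W := fun A e n => if A ∈ goodTab then fsfWinOf (graphOfTable A) e n else {e}
  good₀ := goodTab

end Crest.Agent.Lib.SRF
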