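/-
Row 168, S0254 half: measurability of the family of tables of the free uniform spanning forest in
the adjacency table.
-/
import Crest.Agent.Lib.SRF.FSFFam0

set_option autoImplicit false

namespace Crest.Agent.Lib.SRF

open MeasureTheory Filter Topology Set
open Crest.ProbabilityR.GraphTables Crest.ProbabilityR.SpanningTrees

/-! ### The good set -/

lemma connected_iff_ball {G : SimpleGraph ℕ} :
    G.Connected ↔ ∀ v w, ∃ n, w ∈ ballSet G v n := by
  constructor
  · exact fun h v w => ballSet_exhaust h v w
  · intro h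
    have : Nonempty ℕ := ⟨0⟩
    refine ⟨fun v w => ?_⟩
    obtain ⟨n, hn⟩ := h v w
    exact reachable_of_mem_ballSet hn

lemma measurableSet_connected :
    MeasurableSet {A : Tab | (graphOfTable A).Connected} := by
  have : {A : Tab | (graphOfTable A).Connected} =
      ⋂ v, ⋂ w, ⋃ n, {A : Tab | w ∈ ballSet (graphOfTable A) v n} := by
    ext A
    simp only [Set.mem_setOf_eq, connected_iff_ball, Set.mem_iInter, Set.mem_iUnion]
  rw [this]
  exact MeasurableSet.iInter fun v => MeasurableSet.iInter fun w => MeasurableSet.iUnion fun n =>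
    measurableSet_mem_ballSet v w n

lemma measurableSet_finite_nbr (v : ℕ) :
    MeasurableSet {A : Tab | ((graphOfTable A).neighborSet v).Finite} := by
  have : {A : Tab | ((graphOfTable A).neighborSet v).Finite} =
      ⋃ N : ℕ, ⋂ w : ℕ, ⋂ _ : N ≤ w, {A : Tab | (graphOfTable A).Adj v w}ᶜ := by
    ext A
    simp only [Set.mem_setOf_eq, Set.mem_iUnion, Set.mem_iInter, Set.mem_compl_iff]
    constructor
    · intro h
      obtain ⟨N, hN⟩ := h.bddAbove
      refine ⟨N + 1, fun w hw ha => ?_⟩
      have := hN (show w ∈ (graphOfTable A).neighborSet v from ha)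
      omega
    · rintro ⟨N, hN⟩
      refine (Set.finite_lt_nat N).subset fun w hw => ?_
      by_contra hcon
      exact hN w (by simpa using hcon) hw
  rw [this]
  exact MeasurableSet.iUnion fun N => MeasurableSet.iInter fun w => MeasurableSet.iInter fun _ =>
    (measurableSet_adj v w).compl

theorem measurableSet_goodTab : MeasurableSet goodTab := by
  have : goodTab = {A : Tab | (graphOfTable A).Connected} ∩
      ⋂ v, {A : Tab | ((graphOfTable A).neighborSet v).Finite} := by
    ext A
    simp [goodTab]
  rw [this]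
  exact measurableSet_connected.inter (MeasurableSet.iInter measurableSet_finite_nbr)

/-! ### Balls -/

lemma mem_ballF_iff {G : SimpleGraph ℕ} (hlf : ∀ v, (G.neighborSet v).Finite) (v w n : ℕ) :
    w ∈ ballF G v n ↔ w ∈ ballSet G v n := by
  classical
  induction n generalizing w with
  | zero => simp [ballF, ballSet]
  | succ n ih =>
    rw [mem_ballF_succ hlf]
    simp only [ballSet, Set.mem_union, Set.mem_setOf_eq, ih]

lemma measurableSet_iff_prop {Ω : Type*} [MeasurableSpace Ω] {P : Ω → Prop}
    (h : MeasurableSet {ω | P ω}) (Q : Prop) : MeasurableSet {ω | P ω ↔ Q} := by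
  by_cases hQ : Q
  · have : {ω | P ω ↔ Q} = {ω | P ω} := by
      ext ω
      simp [hQ]
    rwa [this]
  · have : {ω | P ω ↔ Q} = {ω | P ω}ᶜ := by
      ext ω
      simp [hQ]
    rw [this]
    exact h.compl

/-- Countably-valued data with measurable fibres give measurable functions. -/
lemma measurable_of_fibres {Ω κ β : Type*} [MeasurableSpace Ω] [Countable κ] [MeasurableSpace β]
    (D : Ω → κ) (g : κ → β) (hD : ∀ k, MeasurableSet {ω | D ω = k}) : Measurable fun ω => g (D ω) := by
  intro s _
  have : (fun ω => g (D ω)) ⁻¹' s = ⋃ k ∈ g ⁻¹' s, {ω | D ω = k} := by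
    ext ω
    simp
  rw [this]
  exact MeasurableSet.biUnion (Set.to_countable _) fun k _ => hD k

/-- Fibres of the ball map on the good set. -/
lemma measurableSet_good_ball_eq (v n : ℕ) (S₀ : Finset ℕ) :
    MeasurableSet {A : Tab | A ∈ goodTab ∧ ballF (graphOfTable A) v n = S₀} := by
  have : {A : Tab | A ∈ goodTab ∧ ballF (graphOfTable A) v n = S₀} =
      goodTab ∩ ⋂ w, {A : Tab | w ∈ ballSet (graphOfTable A) v n ↔ w ∈ S₀} := by
    ext A
    simp only [Set.mem_setOf_eq, Set.mem_inter_iff, Set.mem_iInter]
    refine and_congr_right fun hA => ?_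
    simp only [← mem_ballF_iff hA.2, Finset.ext_iff]
  rw [this]
  exact measurableSet_goodTab.inter (MeasurableSet.iInter fun w =>
    measurableSet_iff_prop (measurableSet_mem_ballSet v w n) _)

open Classical in
/-- The window is determined by the balls around the endpoints. -/
lemma measurableSet_good_fsfWinOf_eq (e : Sym2 ℕ) (n : ℕ) (W₀ : Finset (Sym2 ℕ)) :
    MeasurableSet {A : Tab | A ∈ goodTab ∧ fsfWinOf (graphOfTable A) e n = W₀} := by
  -- the vertex ball of the pair
  have h₁ : ∀ U₀ : Finset ℕ, MeasurableSet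
      {A : Tab | A ∈ goodTab ∧ (e.toFinset.biUnion fun v => ballF (graphOfTable A) v n) = U₀} := by
    intro U₀
    have : {A : Tab | A ∈ goodTab ∧ (e.toFinset.biUnion fun v => ballF (graphOfTable A) v n) = U₀} =
        goodTab ∩ ⋂ w, {A : Tab | (∃ v ∈ e.toFinset, w ∈ ballSet (graphOfTable A) v n) ↔ w ∈ U₀} := by
      ext A
      simp only [Set.mem_setOf_eq, Set.mem_inter_iff, Set.mem_iInter]
      refine and_congr_right fun hA => ?_
      simp only [← mem_ballF_iff hA.2, Finset.ext_iff, Finset.mem_biUnion]
    rw [this]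
    refine measurableSet_goodTab.inter (MeasurableSet.iInter fun w => ?_)
    have hm : MeasurableSet {A : Tab | ∃ v ∈ e.toFinset, w ∈ ballSet (graphOfTable A) v n} := by
      have : {A : Tab | ∃ v ∈ e.toFinset, w ∈ ballSet (graphOfTable A) v n} =
          ⋃ v ∈ (e.toFinset : Set ℕ), {A : Tab | w ∈ ballSet (graphOfTable A) v n} := by
        ext A
        simp
      rw [this]
      exact MeasurableSet.biUnion (Finset.countable_toSet _) fun v _ => measurableSet_mem_ballSet v w n
    exact measurableSet_iff_prop hm _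
  have : {A : Tab | A ∈ goodTab ∧ fsfWinOf (graphOfTable A) e n = W₀} =
      ⋃ U₀ ∈ {U₀ : Finset ℕ | U₀.sym2 = W₀},
        {A : Tab | A ∈ goodTab ∧ (e.toFinset.biUnion fun v => ballF (graphOfTable A) v n) = U₀} := by
    ext A
    simp only [Set.mem_setOf_eq, Set.mem_iUnion, fsfWinOf, exists_prop]
    constructor
    · rintro ⟨hA, h⟩
      exact ⟨_, h, hA, rfl⟩
    · rintro ⟨U₀, hU, hA, rfl⟩
      exact ⟨hA, hU⟩
  rw [this]
  exact MeasurableSet.biUnion (Set.to_countable _) fun U₀ _ => h₁ U₀

open Classical in
theorem measurableSet_fsfFam_W (e : Sym2 ℕ) (n : ℕ) (W₀ : Finset (Sym2 ℕ)) :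
    MeasurableSet {A | fsfFam.W A e n = W₀} := by
  have : {A | fsfFam.W A e n = W₀} =
      {A : Tab | A ∈ goodTab ∧ fsfWinOf (graphOfTable A) e n = W₀} ∪
        (goodTabᶜ ∩ {_A | ({e} : Finset (Sym2 ℕ)) = W₀}) := by
    ext A
    by_cases hA : A ∈ goodTab <;> simp [fsfFam, hA]
  rw [this]
  exact (measurableSet_good_fsfWinOf_eq e n W₀).union
    (measurableSet_goodTab.compl.inter (MeasurableSet.const _))

/-! ### The coefficient table -/

/-- The table of the uniform spanning tree of a piece depends on the graph only through the piece. -/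
lemma ustTable_congr {G G' : SimpleGraph ℕ} {S : Finset ℕ} (h : edgesIn G S = edgesIn G' S)
    (W B : Finset (Sym2 ℕ)) : ustTable G S W B = ustTable G' S W B := by
  unfold ustTable
  rw [ustTrees_eq_treesOf, ustTrees_eq_treesOf, h]

lemma measurableSet_good_edgesIn_eq (v n : ℕ) (S₀ : Finset ℕ) (E₀ : Finset (Sym2 ℕ)) :
    MeasurableSet {A : Tab | A ∈ goodTab ∧ ballF (graphOfTable A) v n = S₀ ∧
      edgesIn (graphOfTable A) S₀ = E₀} := by
  have h₁ : MeasurableSet {A : Tab | edgesIn (graphOfTable A) S₀ = E₀} := by
    have : {A : Tab | edgesIn (graphOfTable A) S₀ = E₀} =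
        ⋂ p : Sym2 ℕ, {A : Tab | p ∈ edgesIn (graphOfTable A) S₀ ↔ p ∈ E₀} := by
      ext A
      simp only [Set.mem_setOf_eq, Set.mem_iInter, Finset.ext_iff]
    rw [this]
    refine MeasurableSet.iInter fun p => ?_
    have hm : MeasurableSet {A : Tab | p ∈ edgesIn (graphOfTable A) S₀} := by
      induction p using Sym2.ind with
      | _ a b =>
        by_cases hS : a ∈ S₀ ∧ b ∈ S₀
        · have : {A : Tab | s(a, b) ∈ edgesIn (graphOfTable A) S₀} =
              {A : Tab | (graphOfTable A).Adj a b} := by
            ext A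
            simp only [Set.mem_setOf_eq, mk_mem_edgesIn]
            simp [hS]
          rw [this]
          exact measurableSet_adj a b
        · have : {A : Tab | s(a, b) ∈ edgesIn (graphOfTable A) S₀} = ∅ := by
            ext A
            simp only [Set.mem_setOf_eq, mk_mem_edgesIn, Set.mem_empty_iff_false, iff_false]
            tauto
          rw [this]
          exact MeasurableSet.empty
    exact measurableSet_iff_prop hm _
  have : {A : Tab | A ∈ goodTab ∧ ballF (graphOfTable A) v n = S₀ ∧
      edgesIn (graphOfTable A) S₀ = E₀} =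
      {A : Tab | A ∈ goodTab ∧ ballF (graphOfTable A) v n = S₀} ∩
        {A : Tab | edgesIn (graphOfTable A) S₀ = E₀} := by
    ext A
    simp only [Set.mem_setOf_eq, Set.mem_inter_iff, and_assoc]
  rw [this]
  exact (measurableSet_good_ball_eq v n S₀).inter h₁

open Classical in
/-- Approximants of the coefficient table. -/
noncomputable def approxTab (W B : Finset (Sym2 ℕ)) (n : ℕ) (A : Tab) : ℝ :=
  if A ∈ goodTab then ustTable (graphOfTable A) (ballF (graphOfTable A) 0 n) W B
  else coef (Measure.dirac fun _ => false) W B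

open Classical in
lemma measurable_approxTab (W B : Finset (Sym2 ℕ)) (n : ℕ) : Measurable (approxTab W B n) := by
  -- data: (good?, ball, edges)
  let D : Tab → Option (Finset ℕ × Finset (Sym2 ℕ)) := fun A =>
    if A ∈ goodTab then
      some (ballF (graphOfTable A) 0 n, edgesIn (graphOfTable A) (ballF (graphOfTable A) 0 n))
    else none
  let tab : Finset ℕ × Finset (Sym2 ℕ) → ℝ := fun d =>
    (((treesOf d.1 d.2).filter (fun T => ∀ i ∈ W, (i ∈ T ↔ i ∈ B))).card : ℝ) / ((treesOf d.1 d.2).card : ℝ)
  let g : Option (Finset ℕ × Finset (Sym2 ℕ)) → ℝ := fun o =>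
    match o with
    | some d => tab d
    | none => coef (Measure.dirac fun _ => false) W B
  have hg : approxTab W B n = fun A => g (D A) := by
    funext A
    by_cases hA : A ∈ goodTab
    · simp only [approxTab, hA, if_true, D, g, tab, ustTable, ustTrees_eq_treesOf]
    · simp only [approxTab, hA, if_false, D, g]
  rw [hg]
  refine measurable_of_fibres D g fun k => ?_
  cases k with
  | none =>
    have : {A | D A = none} = goodTabᶜ := by
      ext A
      by_cases hA : A ∈ goodTab <;> simp [D, hA]
    rw [this]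
    exact measurableSet_goodTab.compl
  | some d =>
    obtain ⟨S₀, E₀⟩ := d
    have : {A | D A = some (S₀, E₀)} = {A : Tab | A ∈ goodTab ∧ ballF (graphOfTable A) 0 n = S₀ ∧
        edgesIn (graphOfTable A) S₀ = E₀} := by
      ext A
      by_cases hA : A ∈ goodTab
      · simp only [D, hA, if_true, Set.mem_setOf_eq, Option.some.injEq, Prod.mk.injEq, true_and]
        constructor
        · rintro ⟨rfl, rfl⟩
          exact ⟨rfl, rfl⟩
        · rintro ⟨rfl, rfl⟩
          exact ⟨rfl, rfl⟩
      · simp [D, hA]
    rw [this]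
    exact measurableSet_good_edgesIn_eq 0 n S₀ E₀

open Classical in
theorem measurable_fsfFam_c (W S : Finset (Sym2 ℕ)) : Measurable fun A => fsfFam.c A W S := by
  refine measurable_of_tendsto_metrizable (measurable_approxTab W S) ?_
  rw [tendsto_pi_nhds]
  intro A
  by_cases hA : A ∈ goodTab
  · have h := (isFSFLaw_fsfLaw hA.1 hA.2).tendsto_coef (isExhaustion_ballF hA.1 hA.2 0) W S
    refine h.congr fun n => ?_
    simp [approxTab, hA]
  · have hne : ¬ ((graphOfTable A).Connected ∧ ∀ v, ((graphOfTable A).neighborSet v).Finite) := hA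
    have hc : fsfFam.c A W S = coef (Measure.dirac fun _ => false) W S := by
      show coef (fsfLaw (graphOfTable A)) W S = _
      rw [fsfLaw, dif_neg hne]
    rw [hc]
    refine tendsto_const_nhds.congr fun n => ?_
    simp [approxTab, hA]

end Crest.Agent.Lib.SRF
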