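/-
Row 168, S0254 half: the free uniform spanning forest factor.
-/
import Crest.Agent.Lib.SRF.FSFMeas
import Crest.Agent.Lib.SRF.EdgeLabels
import Crest.Prelude.Def_SpanningTrees
import Crest.Prelude.Def_Labels

set_option autoImplicit false

namespace Crest.Agent.Lib.SRF

open MeasureTheory Filter Topology Set
open Crest.ProbabilityR.GraphTables Crest.ProbabilityR.SpanningTrees

/-! ### Windows -/

lemma mem_fsfWinOf {G : SimpleGraph ℕ} {e p : Sym2 ℕ} {n : ℕ} :
    p ∈ fsfWinOf G e n ↔ ∀ a ∈ p, ∃ v ∈ e, a ∈ ballF G v n := by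
  simp only [fsfWinOf, Finset.mem_sym2_iff, Finset.mem_biUnion, Sym2.mem_toFinset]

lemma fsfWinOf_mono (G : SimpleGraph ℕ) (e : Sym2 ℕ) : Monotone (fsfWinOf G e) := by
  intro n m hnm p hp
  rw [mem_fsfWinOf] at hp ⊢
  intro a ha
  obtain ⟨v, hv, hav⟩ := hp a ha
  exact ⟨v, hv, ballF_mono G v hnm hav⟩

lemma self_mem_fsfWinOf (G : SimpleGraph ℕ) (e : Sym2 ℕ) (n : ℕ) : e ∈ fsfWinOf G e n := by
  rw [mem_fsfWinOf]
  intro a ha
  exact ⟨a, ha, self_mem_ballF G a n⟩

lemma fsfWinOf_exhausting {G : SimpleGraph ℕ} (hG : G.Connected)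
    (hlf : ∀ v, (G.neighborSet v).Finite) : Exhausting (fsfWinOf G) := by
  refine ⟨fsfWinOf_mono G, self_mem_fsfWinOf G, fun e p => ?_⟩
  obtain ⟨v, hv⟩ : ∃ v, v ∈ e := ⟨_, Sym2.out_fst_mem e⟩
  induction p using Sym2.ind with
  | _ x y =>
    obtain ⟨n₁, h₁⟩ := ballF_exhausts hG hlf v x
    obtain ⟨n₂, h₂⟩ := ballF_exhausts hG hlf v y
    refine ⟨max n₁ n₂, ?_⟩
    rw [mem_fsfWinOf]
    intro a ha
    rw [Sym2.mem_iff] at ha
    rcases ha with rfl | rfl
    · exact ⟨v, hv, ballF_mono G v (le_max_left _ _) h₁⟩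
    · exact ⟨v, hv, ballF_mono G v (le_max_right _ _) h₂⟩

lemma mem_ballF_comap {G : SimpleGraph ℕ} (π : Equiv.Perm ℕ) (hlf : ∀ v, (G.neighborSet v).Finite)
    (v w n : ℕ) : w ∈ ballF (G.comap π) v n ↔ π w ∈ ballF G (π v) n := by
  classical
  have hlf' := locFin_comap π hlf
  induction n generalizing w with
  | zero => simp [ballF]
  | succ n ih =>
    rw [mem_ballF_succ hlf', mem_ballF_succ hlf]
    refine or_congr (ih w) ?_
    constructor
    · rintro ⟨u, hu, ha⟩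
      exact ⟨π u, (ih u).1 hu, by simpa using ha⟩
    · rintro ⟨u, hu, ha⟩
      refine ⟨π.symm u, (ih _).2 (by simpa using hu), ?_⟩
      simpa using ha

/-! ### Relabelling -/

/-- Relabelling of tables. -/
def tabAct (π : Equiv.Perm ℕ) : Tab ≃ Tab where
  toFun θ := fun i j => θ (π i) (π j)
  invFun θ := fun i j => θ (π.symm i) (π.symm j)
  left_inv θ := by
    funext i j
    simp
  right_inv θ := by
    funext i j
    simp

lemma graphOfTable_tabAct (π : Equiv.Perm ℕ) (θ : Tab) :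
    graphOfTable (tabAct π θ) = (graphOfTable θ).comap π := by
  ext i j
  simp only [graphOfTable, SimpleGraph.fromRel_adj, tabAct, Equiv.coe_fn_mk, SimpleGraph.comap_adj,
    ne_eq, π.injective.eq_iff]

lemma tableOf_comap (π : Equiv.Perm ℕ) (G : SimpleGraph ℕ) :
    tableOf (G.comap π) = tabAct π (tableOf G) := by
  funext i j
  simp [tableOf, tabAct]

/-- Relabelling of pairs, with `(symAct π).symm = Sym2.map π`. -/
def symAct (π : Equiv.Perm ℕ) : Sym2 ℕ ≃ Sym2 ℕ where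
  toFun := Sym2.map π.symm
  invFun := Sym2.map π
  left_inv e := by
    rw [Sym2.map_map]
    simp
  right_inv e := by
    rw [Sym2.map_map]
    simp

lemma goodTab_tabAct (π : Equiv.Perm ℕ) (θ : Tab) : tabAct π θ ∈ goodTab ↔ θ ∈ goodTab := by
  constructor
  · rintro ⟨h₁, h₂⟩
    rw [graphOfTable_tabAct] at h₁ h₂
    have h₃ := connected_comap π⁻¹ h₁
    have h₄ := locFin_comap π⁻¹ h₂
    have h₅ : ((graphOfTable θ).comap π).comap (π⁻¹ : Equiv.Perm ℕ) = graphOfTable θ := by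
      ext i j
      simp
    rw [h₅] at h₃ h₄
    exact ⟨h₃, h₄⟩
  · rintro ⟨h₁, h₂⟩
    refine ⟨?_, ?_⟩
    · rw [graphOfTable_tabAct]
      exact connected_comap π h₁
    · rw [graphOfTable_tabAct]
      exact locFin_comap π h₂

lemma fsfWinOf_comap {G : SimpleGraph ℕ} (π : Equiv.Perm ℕ) (hlf : ∀ v, (G.neighborSet v).Finite)
    (e : Sym2 ℕ) (n : ℕ) :
    fsfWinOf (G.comap π) (symAct π e) n = (fsfWinOf G e n).map (symAct π).toEmbedding := by
  ext p
  rw [Finset.mem_map_equiv, mem_fsfWinOf, mem_fsfWinOf]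
  have hs : (symAct π).symm p = Sym2.map π p := rfl
  rw [hs]
  simp only [Sym2.mem_map]
  constructor
  · rintro h a ⟨a', ha', rfl⟩
    obtain ⟨v, hv, hav⟩ := h a' ha'
    rw [mem_ballF_comap π hlf] at hav
    obtain ⟨v', hv', rfl⟩ : ∃ v' ∈ e, π.symm v' = v := by
      have : v ∈ Sym2.map π.symm e := hv
      rw [Sym2.mem_map] at this
      exact this
    exact ⟨v', hv', by simpa using hav⟩
  · intro h a ha
    obtain ⟨v, hv, hav⟩ := h (π a) ⟨a, ha, rfl⟩
    refine ⟨π.symm v, ?_, ?_⟩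
    · show π.symm v ∈ Sym2.map π.symm e
      rw [Sym2.mem_map]
      exact ⟨v, hv, rfl⟩
    · rw [mem_ballF_comap π hlf]
      simpa using hav

lemma sHat_symAct (π : Equiv.Perm ℕ) (W : Finset (Sym2 ℕ)) :
    (W.map (symAct π).toEmbedding).map (sHat π) = W := by
  ext p
  simp only [Finset.mem_map, Equiv.coe_toEmbedding]
  constructor
  · rintro ⟨_, ⟨q, hq, rfl⟩, rfl⟩
    have : sHat π (symAct π q) = q := (symAct π).left_inv q
    rwa [this]
  · intro hp
    exact ⟨symAct π p, ⟨p, hp, rfl⟩, (symAct π).left_inv p⟩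

/-! ### The family -/

lemma fsfFam_W_of_good {θ : Tab} (hθ : θ ∈ goodTab) : fsfFam.W θ = fsfWinOf (graphOfTable θ) := by
  funext e n
  simp [fsfFam, hθ]

lemma fsfFam_c (θ : Tab) : fsfFam.c θ = coef (fsfLaw (graphOfTable θ)) := rfl

theorem isLip_fsfFam {θ : Tab} (hθ : θ ∈ goodTab) : IsLip (fsfFam.c θ) (fsfFam.W θ) := by
  rw [fsfFam_c, fsfFam_W_of_good hθ]
  refine ⟨self_mem_fsfWinOf _, fun e n h => ?_, fun e n h h' ε hε => ?_⟩
  · exact gibbsMean_mem_Icc (goodCoef_coefLaw _ _) e h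
  · exact (isFSFLaw_fsfLaw hθ.1 hθ.2).lip _ (self_mem_fsfWinOf _ e n) hε

/-- The factor. -/
noncomputable def fsfPhi (G : SimpleGraph ℕ) (x : ℕ → Lab) : Sym2 ℕ → Bool :=
  Psi fsfFam (tableOf G, (edgeU G x, edgeV G x))

lemma measurable_tableOf_graphOfTable :
    Measurable (fun A : Tab => tableOf (graphOfTable A)) := by
  refine measurable_pi_iff.2 fun i => measurable_pi_iff.2 fun j => ?_
  refine measurable_to_bool ?_
  have : (fun A : Tab => tableOf (graphOfTable A) i j) ⁻¹' {true} =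
      {A : Tab | (graphOfTable A).Adj i j} := by
    ext A
    simp [tableOf]
  rw [this]
  exact measurableSet_adj i j

theorem measurable_Psi_fsfFam : Measurable (Psi fsfFam) :=
  measurable_Psi fsfFam measurable_fsfFam_c measurableSet_fsfFam_W measurableSet_goodTab
    fun _ hθ => isLip_fsfFam hθ

theorem measurable_fsfPhi :
    Measurable (fun p : Tab × (ℕ → Lab) => fsfPhi (graphOfTable p.1) p.2) := by
  refine measurable_Psi_fsfFam.comp ?_
  exact (measurable_tableOf_graphOfTable.comp measurable_fst).prodMk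
    (measurable_edgeU.prodMk measurable_edgeV)

theorem fsfPhi_comap (π : Equiv.Perm ℕ) (G : SimpleGraph ℕ) (x : ℕ → Lab) :
    fsfPhi (G.comap π) (x ∘ π) = fsfPhi G x ∘ Sym2.map π := by
  have hAc : ∀ θ ∈ fsfFam.good₀, ∀ W S,
      fsfFam.c (tabAct π θ) (W.map (symAct π).toEmbedding) (S.map (symAct π).toEmbedding)
        = fsfFam.c θ W S := by
    rintro θ ⟨h₁, h₂⟩ W S
    rw [fsfFam_c, fsfFam_c, graphOfTable_tabAct, coef_fsfLaw_comap π h₁ h₂, sHat_symAct, sHat_symAct]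
  have hAW : ∀ θ ∈ fsfFam.good₀, ∀ e n,
      fsfFam.W (tabAct π θ) (symAct π e) n = (fsfFam.W θ e n).map (symAct π).toEmbedding := by
    intro θ hθ e n
    rw [fsfFam_W_of_good hθ, fsfFam_W_of_good ((goodTab_tabAct π θ).2 hθ), graphOfTable_tabAct,
      fsfWinOf_comap π hθ.2]
  have h := Psi_equivariant fsfFam (symAct π) (tabAct π) (goodTab_tabAct π)
    (fun _ hθ => isLip_fsfFam hθ) hAc hAW (tableOf G) (edgeU G x) (edgeV G x)
  have hu : edgeU G x ∘ (symAct π).symm = edgeU (G.comap π) (x ∘ π) := (edgeU_comap π G x).symm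
  have hv : edgeV G x ∘ Prod.map (symAct π).symm id = edgeV (G.comap π) (x ∘ π) :=
    (edgeV_comap π G x).symm
  rw [hu, hv] at h
  unfold fsfPhi
  rw [tableOf_comap]
  exact h

theorem map_fsfPhi {G : SimpleGraph ℕ} (hG : G.Connected) (hlf : ∀ v, (G.neighborSet v).Finite) :
    (lam ℕ).map (fsfPhi G) = fsfLaw G := by
  have hθ : tableOf G ∈ goodTab := by
    rw [goodTab, Set.mem_setOf_eq, graphOfTable_tableOf]
    exact ⟨hG, hlf⟩
  have hlaw := Psi_law fsfFam measurable_fsfFam_c measurableSet_fsfFam_W measurableSet_goodTab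
    (fun _ hθ => isLip_fsfFam hθ) hθ (fsfLaw G) (by rw [fsfFam_c, graphOfTable_tableOf])
    (by rw [fsfFam_W_of_good hθ, graphOfTable_tableOf]; exact fsfWinOf_exhausting hG hlf)
  have hPsi : Measurable (fun p : (Sym2 ℕ → Lab) × (Sym2 ℕ × ℕ → Lab) => Psi fsfFam (tableOf G, p)) :=
    measurable_Psi_fsfFam.comp measurable_prodMk_left
  have hL : Measurable (fun x : ℕ → Lab => (edgeU G x, edgeV G x)) := by
    have h₁ := measurable_edgeU.comp (measurable_prodMk_left (x := tableOf G))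
    have h₂ := measurable_edgeV.comp (measurable_prodMk_left (x := tableOf G))
    simp only [Function.comp_def, graphOfTable_tableOf] at h₁ h₂
    exact h₁.prodMk h₂
  rw [← hlaw, ← law_edge hG hlf, Measure.map_map hPsi hL]
  rfl

/-- The result. -/
theorem exists_fsf_factor :
    ∃ Φ : SimpleGraph ℕ → (ℕ → unitInterval) → (Sym2 ℕ → Bool),
      Measurable (fun p : (ℕ → ℕ → Bool) × (ℕ → unitInterval) =>
          Φ (graphOfTable p.1) p.2) ∧
      (∀ (σ : Equiv.Perm ℕ) (G : SimpleGraph ℕ) (x : ℕ → unitInterval),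
          Φ (G.comap ⇑σ) (x ∘ ⇑σ) = Φ G x ∘ Sym2.map ⇑σ) ∧
      ∀ G : SimpleGraph ℕ, G.Connected → (∀ v : ℕ, (G.neighborSet v).Finite) →
        ∀ S : ℕ → Finset ℕ, Monotone S → (∀ v : ℕ, ∃ n, v ∈ S n) →
          (∀ n, (G.induce (S n : Set ℕ)).Connected) →
          ∀ F : Finset (Sym2 ℕ), (↑F : Set (Sym2 ℕ)) ⊆ G.edgeSet →
            Filter.Tendsto (fun n => ustContains G (S n) F) Filter.atTop
              (nhds (((Crest.ProbabilityR.Labels.labelMeasure ℕ).map (Φ G) {ω | ∀ e ∈ F, ω e = true}).toReal)) := by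
  refine ⟨fsfPhi, measurable_fsfPhi, fsfPhi_comap, ?_⟩
  intro G hG hlf S hmono hcov hconn F _
  have h := map_fsfPhi hG hlf
  rw [show Crest.ProbabilityR.Labels.labelMeasure ℕ = lam ℕ from rfl, h]
  exact (isFSFLaw_fsfLaw hG hlf).tendsto S ⟨hmono, hcov, hconn⟩ F

end Crest.Agent.Lib.SRF
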