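/-
Row 168: ray monotonicity of stable polynomials from the Schwarz lemma.
-/
import Mathlib

set_option autoImplicit false

namespace Crest.Agent.Lib.SRF

open Complex Set Metric

/-- Right half plane: principal square root. -/
lemma re_sqrt_pos_of_mem_slitPlane {z : ℂ} (hz : z ∈ slitPlane) : 0 < (Complex.sqrt z).re := by
  have h : 0 < ‖z‖ + z.re := by
    rcases mem_slitPlane_iff.mp hz with h | h
    · have := norm_nonneg z; linarith
    · have h1 : |z.re| < ‖z‖ := Complex.abs_re_lt_norm.mpr h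
      linarith [neg_abs_le z.re]
  rw [Complex.sqrt, cpow_inv_two_re]
  exact Real.sqrt_pos.mpr (by linarith)

lemma sqrt_sq' (z : ℂ) : (Complex.sqrt z) ^ 2 = z := by
  have := Complex.cpow_ofNat_inv_pow z 2
  simp [Complex.sqrt]

lemma sqrt_ofReal_of_pos {r : ℝ} (hr : 0 < r) : Complex.sqrt (r : ℂ) = (Real.sqrt r : ℝ) := by
  open scoped ComplexOrder in
  have h0 : (0 : ℂ) ≤ (r : ℂ) := Complex.zero_le_real.mpr hr.le
  rw [Complex.sqrt_of_nonneg h0]; simp

/-- The Cayley map of the right half plane based at the real point `y`. -/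
lemma norm_cayley_lt {s : ℂ} {y : ℝ} (hs : 0 < s.re) (hy : 0 < y) :
    ‖(s - y) / (s + y)‖ < 1 := by
  have hne : s + y ≠ 0 := by
    intro h
    have := congrArg Complex.re h
    simp at this
    linarith
  rw [norm_div, div_lt_one (norm_pos_iff.mpr hne)]
  have h1 : ‖s - y‖ ^ 2 < ‖s + y‖ ^ 2 := by
    rw [← Complex.normSq_eq_norm_sq, ← Complex.normSq_eq_norm_sq, Complex.normSq_apply,
      Complex.normSq_apply]
    simp
    nlinarith [mul_pos hs hy]
  exact lt_of_pow_lt_pow_left₀ 2 (norm_nonneg _) h1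

/-- The inverse Cayley map lands in the right half plane. -/
lemma re_invCayley_pos {ζ : ℂ} {x : ℝ} (hζ : ‖ζ‖ < 1) (hx : 0 < x) :
    0 < ((x : ℂ) * ((1 + ζ) / (1 - ζ))).re := by
  have hne : (1 - ζ) ≠ 0 := by
    intro h
    have : ζ = 1 := by linear_combination -h
    simp [this] at hζ
  have hpos : 0 < Complex.normSq (1 - ζ) := Complex.normSq_pos.mpr hne
  have h1 : ((1 + ζ) / (1 - ζ)).re = (1 - ‖ζ‖ ^ 2) / Complex.normSq (1 - ζ) := by
    have hN : ‖ζ‖ ^ 2 = ζ.re * ζ.re + ζ.im * ζ.im := by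
      rw [← Complex.normSq_eq_norm_sq, Complex.normSq_apply]
    rw [Complex.div_re, hN]
    simp only [Complex.add_re, Complex.one_re, Complex.sub_re, Complex.add_im, Complex.one_im,
      Complex.sub_im]
    rw [← add_div]
    congr 1
    ring
  have h2 : 0 < 1 - ‖ζ‖ ^ 2 := by nlinarith [norm_nonneg ζ]
  simp only [Complex.mul_re, Complex.ofReal_re, Complex.ofReal_im, zero_mul, sub_zero]
  rw [h1]
  exact mul_pos hx (div_pos h2 hpos)

lemma sq_mem_slitPlane {s : ℂ} (hs : 0 < s.re) : s ^ 2 ∈ slitPlane := by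
  rw [mem_slitPlane_iff, pow_two]
  by_cases him : s.im = 0
  · left
    simp [Complex.mul_re, him]
    positivity
  · right
    simp only [Complex.mul_im]
    intro h
    apply mul_ne_zero hs.ne' him
    linarith

/-- **Schwarz lemma for self-maps of the slit plane**, at two positive reals. -/
theorem slit_schwarz {g : ℂ → ℂ} (hd : DifferentiableOn ℂ g slitPlane)
    (hm : MapsTo g slitPlane slitPlane) {t₁ t₂ r₁ r₂ : ℝ} (h₁ : 0 < t₁) (h12 : t₁ ≤ t₂)
    (hr₁ : 0 < r₁) (hr₂ : 0 < r₂) (hg₁ : g t₁ = r₁) (hg₂ : g t₂ = r₂) :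
    r₂ * t₁ ≤ r₁ * t₂ := by
  have h₂ : 0 < t₂ := lt_of_lt_of_le h₁ h12
  set x₁ := Real.sqrt t₁ with hx₁
  set x₂ := Real.sqrt t₂ with hx₂
  set y₁ := Real.sqrt r₁ with hy₁
  set y₂ := Real.sqrt r₂ with hy₂
  have hx₁p : 0 < x₁ := Real.sqrt_pos.mpr h₁
  have hx₂p : 0 < x₂ := Real.sqrt_pos.mpr h₂
  have hy₁p : 0 < y₁ := Real.sqrt_pos.mpr hr₁
  have hy₂p : 0 < y₂ := Real.sqrt_pos.mpr hr₂
  have hx12 : x₁ ≤ x₂ := Real.sqrt_le_sqrt h12
  -- the composite self-map of the unit disc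
  let P : ℂ → ℂ := fun ζ => (x₁ : ℂ) * ((1 + ζ) / (1 - ζ))
  let φ : ℂ → ℂ := fun ζ => (Complex.sqrt (g ((P ζ) ^ 2)) - y₁) / (Complex.sqrt (g ((P ζ) ^ 2)) + y₁)
  have hPre : ∀ ζ ∈ ball (0:ℂ) 1, 0 < (P ζ).re := fun ζ hζ =>
    re_invCayley_pos (by simpa using hζ) hx₁p
  have hne1 : ∀ ζ ∈ ball (0:ℂ) 1, (1 - ζ) ≠ 0 := by
    intro ζ hζ h
    have : ζ = 1 := by linear_combination -h
    subst this
    simp at hζ
  have hPd : DifferentiableOn ℂ P (ball 0 1) := by
    intro ζ hζ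
    have := hne1 ζ hζ
    apply DifferentiableAt.differentiableWithinAt
    simp only [P]
    fun_prop (disch := assumption)
  have hsl : ∀ ζ ∈ ball (0:ℂ) 1, g ((P ζ) ^ 2) ∈ slitPlane := fun ζ hζ =>
    hm (sq_mem_slitPlane (hPre ζ hζ))
  have hsre : ∀ ζ ∈ ball (0:ℂ) 1, 0 < (Complex.sqrt (g ((P ζ) ^ 2))).re := fun ζ hζ =>
    re_sqrt_pos_of_mem_slitPlane (hsl ζ hζ)
  have hsd : DifferentiableOn ℂ (fun ζ => Complex.sqrt (g ((P ζ) ^ 2))) (ball 0 1) := by
    apply Complex.differentiableOn_sqrt.comp (s := ball 0 1)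
    · apply hd.comp (hPd.pow 2)
      intro ζ hζ
      exact sq_mem_slitPlane (hPre ζ hζ)
    · intro ζ hζ
      exact hsl ζ hζ
  have hden : ∀ ζ ∈ ball (0:ℂ) 1, Complex.sqrt (g ((P ζ) ^ 2)) + y₁ ≠ 0 := by
    intro ζ hζ h
    have := congrArg Complex.re h
    simp at this
    linarith [hsre ζ hζ]
  have hφd : DifferentiableOn ℂ φ (ball 0 1) :=
    (hsd.sub_const _).div (hsd.add_const _) hden
  have hφm : MapsTo φ (ball 0 1) (closedBall 0 1) := by
    intro ζ hζ
    have := norm_cayley_lt (hsre ζ hζ) hy₁p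
    simpa [φ] using this.le
  have hP0 : P 0 = x₁ := by simp [P]
  have hx₁sq : ((x₁ : ℂ)) ^ 2 = t₁ := by
    rw [← Complex.ofReal_pow, hx₁, Real.sq_sqrt h₁.le]
  have hx₂sq : ((x₂ : ℂ)) ^ 2 = t₂ := by
    rw [← Complex.ofReal_pow, hx₂, Real.sq_sqrt h₂.le]
  have hφ0 : φ 0 = 0 := by
    simp only [φ]
    rw [hP0, hx₁sq, hg₁, sqrt_ofReal_of_pos hr₁]
    simp [hy₁]
  set ζ₂ : ℝ := (x₂ - x₁) / (x₂ + x₁) with hζ₂
  have hsum : 0 < x₂ + x₁ := by linarith
  have hζ₂0 : 0 ≤ ζ₂ := div_nonneg (by linarith) hsum.le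
  have hζ₂1 : ζ₂ < 1 := by
    rw [hζ₂, div_lt_one hsum]; linarith
  have hPζ : P (ζ₂ : ℂ) = x₂ := by
    simp only [P]
    have h1 : (1 - (ζ₂ : ℂ)) = ((2 * x₁ / (x₂ + x₁) : ℝ) : ℂ) := by
      push_cast
      rw [hζ₂]
      have : ((x₂ : ℂ) + x₁) ≠ 0 := by exact_mod_cast hsum.ne'
      push_cast
      field_simp
      ring
    have h2 : (1 + (ζ₂ : ℂ)) = ((2 * x₂ / (x₂ + x₁) : ℝ) : ℂ) := by
      push_cast
      rw [hζ₂]
      have : ((x₂ : ℂ) + x₁) ≠ 0 := by exact_mod_cast hsum.ne'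
      push_cast
      field_simp
      ring
    rw [h1, h2]
    have h3 : ((x₂ : ℂ) + x₁) ≠ 0 := by exact_mod_cast hsum.ne'
    have h4 : (x₁ : ℂ) ≠ 0 := by exact_mod_cast hx₁p.ne'
    push_cast
    field_simp
  have hnorm : ‖(ζ₂ : ℂ)‖ < 1 := by
    rw [Complex.norm_real, Real.norm_eq_abs, abs_of_nonneg hζ₂0]; exact hζ₂1
  have hS := Complex.norm_le_norm_of_mapsTo_ball hφd hφm hφ0 hnorm
  have hφζ : φ (ζ₂ : ℂ) = (((y₂ - y₁) / (y₂ + y₁) : ℝ) : ℂ) := by
    simp only [φ]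
    rw [hPζ, hx₂sq, hg₂, sqrt_ofReal_of_pos hr₂]
    push_cast
    rfl
  rw [hφζ, Complex.norm_real, Complex.norm_real, Real.norm_eq_abs, Real.norm_eq_abs,
    abs_of_nonneg hζ₂0] at hS
  have hS' := (le_abs_self _).trans hS
  have hysum : 0 < y₂ + y₁ := by linarith
  rw [hζ₂, div_le_div_iff₀ hysum hsum] at hS'
  have key : y₂ * x₁ ≤ y₁ * x₂ := by nlinarith
  have hsq := mul_self_le_mul_self (mul_nonneg hy₂p.le hx₁p.le) key
  have e1 : y₂ * x₁ * (y₂ * x₁) = r₂ * t₁ := by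
    have a1 : y₂ * y₂ = r₂ := Real.mul_self_sqrt hr₂.le
    have a2 : x₁ * x₁ = t₁ := Real.mul_self_sqrt h₁.le
    calc _ = (y₂ * y₂) * (x₁ * x₁) := by ring
      _ = _ := by rw [a1, a2]
  have e2 : y₁ * x₂ * (y₁ * x₂) = r₁ * t₂ := by
    have a1 : y₁ * y₁ = r₁ := Real.mul_self_sqrt hr₁.le
    have a2 : x₂ * x₂ = t₂ := Real.mul_self_sqrt h₂.le
    calc _ = (y₁ * y₁) * (x₂ * x₂) := by ring
      _ = _ := by rw [a1, a2]
  linarith


open Polynomial

lemma eval_pos_of_nonneg_coeff {a : ℝ[X]} (ha : ∀ n, 0 ≤ a.coeff n) (ha0 : a ≠ 0) {t : ℝ}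
    (ht : 0 < t) : 0 < a.eval t := by
  rw [Polynomial.eval_eq_sum_range]
  apply Finset.sum_pos'
  · intro i _
    exact mul_nonneg (ha i) (pow_nonneg ht.le i)
  · refine ⟨a.natDegree, by simp, mul_pos ?_ (pow_pos ht _)⟩
    have h1 : a.leadingCoeff ≠ 0 := leadingCoeff_ne_zero.mpr ha0
    exact lt_of_le_of_ne (ha _) (Ne.symm h1)

lemma eval_nonneg_of_nonneg_coeff {a : ℝ[X]} (ha : ∀ n, 0 ≤ a.coeff n) {t : ℝ}
    (ht : 0 ≤ t) : 0 ≤ a.eval t := by
  rw [Polynomial.eval_eq_sum_range]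
  exact Finset.sum_nonneg fun i _ => mul_nonneg (ha i) (pow_nonneg ht i)

lemma aeval_ofReal (a : ℝ[X]) (t : ℝ) : aeval (t : ℂ) a = ((a.eval t : ℝ) : ℂ) := by
  have := Polynomial.aeval_algebraMap_apply_eq_algebraMap_eval (A := ℂ) t a
  simpa using this

lemma aeval_analytic (a : ℝ[X]) (τ : ℂ) : AnalyticAt ℂ (fun z : ℂ => aeval z a) τ :=
  (Polynomial.differentiable_aeval a).analyticAt τ

/-- A stable pair has denominator without zeros in the upper half plane. -/
lemma aeval_ne_zero_of_stable {a b : ℝ[X]} (ha0 : a ≠ 0)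
    (hst : ∀ τ w : ℂ, 0 < τ.im → 0 < w.im → w * aeval τ a + aeval τ b ≠ 0)
    {τ₀ : ℂ} (hτ : 0 < τ₀.im) : aeval τ₀ a ≠ 0 := by
  intro h0
  have hb0 : aeval τ₀ b ≠ 0 := by
    intro hb
    apply hst τ₀ Complex.I hτ (by simp)
    rw [h0, hb]; simp
  let ψ : ℂ → ℂ := fun z => aeval z a / aeval z b
  have hψ : AnalyticAt ℂ ψ τ₀ := (aeval_analytic a τ₀).div (aeval_analytic b τ₀) hb0
  have hψ0 : ψ τ₀ = 0 := by simp [ψ, h0]
  have hbev : ∀ᶠ z in nhds τ₀, aeval z b ≠ 0 :=
    (aeval_analytic b τ₀).continuousAt.eventually_ne hb0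
  have huhp : ∀ᶠ z in nhds τ₀, 0 < z.im :=
    (Complex.continuous_im.continuousAt).eventually (lt_mem_nhds hτ)
  rcases hψ.eventually_constant_or_nhds_le_map_nhds with h | h
  · -- locally constant: `a` vanishes near `τ₀`, so `a = 0`
    have hazero : ∀ᶠ z in nhds τ₀, aeval z a = 0 := by
      filter_upwards [h, hbev] with z hz hbz
      rw [hψ0] at hz
      simp only [ψ, div_eq_zero_iff] at hz
      exact hz.resolve_right hbz
    have hinf : (a.map (algebraMap ℝ ℂ)) = 0 := by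
      apply Polynomial.eq_zero_of_infinite_isRoot
      have hset : {z : ℂ | aeval z a = 0} ∈ nhds τ₀ := hazero
      have : ({z : ℂ | aeval z a = 0}).Infinite := infinite_of_mem_nhds τ₀ hset
      refine this.mono ?_
      intro z hz
      simp only [Set.mem_ofPred_eq, aeval_def, eval₂_eq_eval_map] at hz
      exact hz
    apply ha0
    exact (Polynomial.map_eq_zero_iff (algebraMap ℝ ℂ).injective).mp hinf
  · -- open mapping: `ψ` takes the value `i δ`
    have hset : ψ '' {z | aeval z b ≠ 0 ∧ 0 < z.im} ∈ nhds (ψ τ₀) := by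
      apply h
      exact Filter.image_mem_map (hbev.and huhp)
    rw [hψ0, Metric.mem_nhds_iff] at hset
    obtain ⟨r, hr, hball⟩ := hset
    have hmem : (Complex.I * ((r / 2 : ℝ) : ℂ)) ∈ Metric.ball (0 : ℂ) r := by
      simp [abs_of_pos hr]
      linarith
    obtain ⟨z, ⟨hbz, hz⟩, hzv⟩ := hball hmem
    apply hst z (Complex.I / ((r / 2 : ℝ) : ℂ)) hz
    · have hr2 : (0 : ℝ) < r / 2 := by linarith
      rw [Complex.div_ofReal_im]
      simpa using hr2
    · have hr2 : ((r / 2 : ℝ) : ℂ) ≠ 0 := by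
        exact_mod_cast (by linarith : (r / 2 : ℝ) ≠ 0)
      simp only [ψ] at hzv
      have ha' : aeval z a = Complex.I * ((r / 2 : ℝ) : ℂ) * aeval z b := by
        rw [← hzv]; field_simp
      rw [ha']
      field_simp
      rw [Complex.I_sq]
      ring

/-- **Ray monotonicity** for a stable pair with nonnegative coefficients: `b(t)/(t a(t))` is
nonincreasing on `t > 0`. -/
theorem stable_pair_ray {a b : ℝ[X]} (ha : ∀ n, 0 ≤ a.coeff n) (hb : ∀ n, 0 ≤ b.coeff n)
    (hst : ∀ τ w : ℂ, 0 < τ.im → 0 < w.im → w * aeval τ a + aeval τ b ≠ 0)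
    {t₁ t₂ : ℝ} (h₁ : 0 < t₁) (h12 : t₁ ≤ t₂) :
    t₁ * b.eval t₂ * a.eval t₁ ≤ t₂ * b.eval t₁ * a.eval t₂ := by
  by_cases ha0 : a = 0
  · simp [ha0]
  have h₂ : 0 < t₂ := lt_of_lt_of_le h₁ h12
  have hapos : ∀ {t : ℝ}, 0 < t → 0 < a.eval t := fun ht => eval_pos_of_nonneg_coeff ha ha0 ht
  have hbnn : ∀ {t : ℝ}, 0 < t → 0 ≤ b.eval t := fun ht => eval_nonneg_of_nonneg_coeff hb ht.le
  have hne : ∀ τ ∈ Complex.slitPlane, aeval τ a ≠ 0 := by
    intro τ hτ
    rcases lt_trichotomy τ.im 0 with h | h | h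
    · have hc : 0 < ((starRingEnd ℂ) τ).im := by simpa using h
      have := aeval_ne_zero_of_stable ha0 hst hc
      rw [Polynomial.aeval_conj] at this
      intro h0
      apply this
      rw [h0]; simp
    · have hre : 0 < τ.re := by
        rcases Complex.mem_slitPlane_iff.mp hτ with h' | h'
        · exact h'
        · exact absurd h h'
      have hτr : τ = (τ.re : ℂ) := by
        apply Complex.ext <;> simp [h]
      rw [hτr, aeval_ofReal]
      exact_mod_cast (hapos hre).ne'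
    · exact aeval_ne_zero_of_stable ha0 hst h
  let g : ℂ → ℂ := fun τ => aeval τ b / aeval τ a + τ
  have hgd : DifferentiableOn ℂ g Complex.slitPlane := by
    intro τ hτ
    apply DifferentiableAt.differentiableWithinAt
    have h1 := (Polynomial.differentiable_aeval b) τ
    have h2 := (Polynomial.differentiable_aeval a) τ
    exact (h1.div h2 (hne τ hτ)).add differentiableAt_id
  have him : ∀ τ : ℂ, 0 < τ.im → 0 < (g τ).im := by
    intro τ hτ
    have hnn : 0 ≤ (aeval τ b / aeval τ a).im := by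
      by_contra hlt
      push Not at hlt
      apply hst τ (-(aeval τ b / aeval τ a)) hτ (by simpa using hlt)
      have := aeval_ne_zero_of_stable ha0 hst hτ
      field_simp
      ring
    simp only [g, Complex.add_im]
    linarith
  have hgm : Set.MapsTo g Complex.slitPlane Complex.slitPlane := by
    intro τ hτ
    rcases lt_trichotomy τ.im 0 with h | h | h
    · have hc : 0 < ((starRingEnd ℂ) τ).im := by simpa using h
      have h1 := him _ hc
      have h2 : g ((starRingEnd ℂ) τ) = (starRingEnd ℂ) (g τ) := by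
        simp only [g, Polynomial.aeval_conj, map_add, map_div₀]
      rw [h2] at h1
      rw [Complex.mem_slitPlane_iff]
      right
      simp at h1
      exact h1.ne
    · have hre : 0 < τ.re := by
        rcases Complex.mem_slitPlane_iff.mp hτ with h' | h'
        · exact h'
        · exact absurd h h'
      have hτr : τ = (τ.re : ℂ) := by
        apply Complex.ext <;> simp [h]
      have hval : g τ = ((b.eval τ.re / a.eval τ.re + τ.re : ℝ) : ℂ) := by
        simp only [g]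
        rw [hτr]
        simp only [Complex.ofReal_re, aeval_ofReal]
        push_cast
        rfl
      rw [hval]
      apply Complex.ofReal_mem_slitPlane.mpr
      have := div_nonneg (hbnn hre) (hapos hre).le
      linarith
    · rw [Complex.mem_slitPlane_iff]
      right
      exact (him τ h).ne'
  have hval : ∀ {t : ℝ}, g t = ((b.eval t / a.eval t + t : ℝ) : ℂ) := by
    intro t
    simp only [g, aeval_ofReal]
    push_cast
    rfl
  have hr : ∀ {t : ℝ}, 0 < t → 0 < b.eval t / a.eval t + t := by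
    intro t ht
    have := div_nonneg (hbnn ht) (hapos ht).le
    linarith
  have key := slit_schwarz hgd hgm h₁ h12 (hr h₁) (hr h₂) hval hval
  have ha1 := hapos h₁
  have ha2 := hapos h₂
  have e1 : b.eval t₂ / a.eval t₂ * t₁ ≤ b.eval t₁ / a.eval t₁ * t₂ := by nlinarith
  rw [div_mul_eq_mul_div, div_mul_eq_mul_div, div_le_div_iff₀ ha2 ha1] at e1
  nlinarith

end Crest.Agent.Lib.SRF
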