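/-
Row 168, task L: the tilted occupation probability of a stable law is 1/2-Lipschitz in the sup norm.
-/
import Crest.Agent.Lib.SRF.Defs
import Crest.Agent.Lib.SRF.Schwarz

set_option autoImplicit false

namespace Crest.Agent.Lib.SRF

open Polynomial Finset

variable {E : Type*} {c : Finset E → ℝ} {W : Finset E}

lemma expSum_pos (h : E → ℝ) (S : Finset E) : 0 < expSum h S := Real.exp_pos _

open Classical in
/-- The part of the partition function without `e`. -/
noncomputable def gibbsRest (c : Finset E → ℝ) (W : Finset E) (e : E) (h : E → ℝ) : ℝ :=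
  ∑ S ∈ W.powerset, if e ∈ S then 0 else c S * expSum h S

lemma gibbsZ_eq (e : E) (h : E → ℝ) : gibbsZ c W h = gibbsNum c W e h + gibbsRest c W e h := by
  classical
  simp only [gibbsZ, gibbsNum, gibbsRest, ← Finset.sum_add_distrib]
  refine Finset.sum_congr rfl fun S _ => ?_
  by_cases he : e ∈ S <;> simp [he]

lemma gibbsZ_pos (hc : GoodCoef c W) (h : E → ℝ) : 0 < gibbsZ c W h := by
  have hex : ∃ S ∈ W.powerset, 0 < c S := by
    by_contra hne
    push Not at hne
    have : ∑ S ∈ W.powerset, c S ≤ 0 := Finset.sum_nonpos hne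
    linarith [hc.sum_eq_one]
  obtain ⟨S, hS, hSp⟩ := hex
  apply Finset.sum_pos'
  · intro T hT
    exact mul_nonneg (hc.nonneg T hT) (expSum_pos h T).le
  · exact ⟨S, hS, mul_pos hSp (expSum_pos h S)⟩

lemma gibbsNum_nonneg (hc : GoodCoef c W) (e : E) (h : E → ℝ) : 0 ≤ gibbsNum c W e h := by
  classical
  apply Finset.sum_nonneg
  intro S hS
  split_ifs
  · exact mul_nonneg (hc.nonneg S hS) (expSum_pos h S).le
  · exact le_rfl

lemma gibbsRest_nonneg (hc : GoodCoef c W) (e : E) (h : E → ℝ) : 0 ≤ gibbsRest c W e h := by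
  classical
  apply Finset.sum_nonneg
  intro S hS
  split_ifs
  · exact le_rfl
  · exact mul_nonneg (hc.nonneg S hS) (expSum_pos h S).le

lemma gibbsMean_eq (e : E) (h : E → ℝ) :
    gibbsMean c W e h = gibbsNum c W e h / (gibbsNum c W e h + gibbsRest c W e h) := by
  rw [gibbsMean, gibbsZ_eq e]

lemma expSum_congr {h h' : E → ℝ} {S : Finset E} (hh : ∀ a ∈ S, h a = h' a) :
    expSum h S = expSum h' S := by
  simp only [expSum]
  rw [Finset.sum_congr rfl hh]

lemma gibbsMean_congr {e : E} {h h' : E → ℝ} (hh : ∀ a ∈ W, h a = h' a) :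
    gibbsMean c W e h = gibbsMean c W e h' := by
  classical
  have key : ∀ S ∈ W.powerset, expSum h S = expSum h' S := fun S hS =>
    expSum_congr fun a ha => hh a (Finset.mem_powerset.mp hS ha)
  simp only [gibbsMean, gibbsNum, gibbsZ]
  congr 1
  · refine Finset.sum_congr rfl fun S hS => ?_
    rw [key S hS]
  · refine Finset.sum_congr rfl fun S hS => ?_
    rw [key S hS]

lemma frac_le_frac {N₁ N₂ R₁ R₂ : ℝ} (h₁ : 0 < N₁ + R₁) (h₂ : 0 < N₂ + R₂)
    (h : N₁ * R₂ ≤ N₂ * R₁) : N₁ / (N₁ + R₁) ≤ N₂ / (N₂ + R₂) := by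
  rw [div_le_div_iff₀ h₁ h₂]
  nlinarith

/-! ### Ray monotonicity -/

open Classical in
/-- The polynomial `a(t) = ∑_{S ∋ e} c_S x^{S∖e} t^{|S|-1}`. -/
noncomputable def polyA (c : Finset E → ℝ) (W : Finset E) (e : E) (h : E → ℝ) : ℝ[X] :=
  ∑ S ∈ W.powerset, if e ∈ S then monomial (S.card - 1) (c S * expSum h (S.erase e)) else 0

open Classical in
/-- The polynomial `b(t) = ∑_{S ∌ e} c_S x^S t^{|S|}`. -/
noncomputable def polyB (c : Finset E → ℝ) (W : Finset E) (e : E) (h : E → ℝ) : ℝ[X] :=
  ∑ S ∈ W.powerset, if e ∈ S then 0 else monomial S.card (c S * expSum h S)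

lemma polyA_coeff_nonneg (hc : GoodCoef c W) (e : E) (h : E → ℝ) (n : ℕ) :
    0 ≤ (polyA c W e h).coeff n := by
  classical
  rw [polyA, Polynomial.finsetSum_coeff]
  apply Finset.sum_nonneg
  intro S hS
  split_ifs
  · rw [coeff_monomial]
    split_ifs
    · exact mul_nonneg (hc.nonneg S hS) (expSum_pos h _).le
    · exact le_rfl
  · simp

lemma polyB_coeff_nonneg (hc : GoodCoef c W) (e : E) (h : E → ℝ) (n : ℕ) :
    0 ≤ (polyB c W e h).coeff n := by
  classical
  rw [polyB, Polynomial.finsetSum_coeff]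
  apply Finset.sum_nonneg
  intro S hS
  split_ifs
  · simp
  · rw [coeff_monomial]
    split_ifs
    · exact mul_nonneg (hc.nonneg S hS) (expSum_pos h _).le
    · exact le_rfl

lemma prod_ray (h : E → ℝ) (τ : ℂ) (T : Finset E) :
    ∏ i ∈ T, (τ * ((Real.exp (h i) : ℝ) : ℂ)) = τ ^ T.card * ((expSum h T : ℝ) : ℂ) := by
  rw [Finset.prod_mul_distrib, Finset.prod_const, expSum, Real.exp_sum, Complex.ofReal_prod]

lemma polyPair_stable (hs : StableOn c W) (e : E) (h : E → ℝ) (τ w : ℂ) (hτ : 0 < τ.im)
    (hw : 0 < w.im) :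
    w * aeval τ (polyA c W e h) + aeval τ (polyB c W e h) ≠ 0 := by
  classical
  let z : E → ℂ := fun i => if i = e then w else τ * ((Real.exp (h i) : ℝ) : ℂ)
  have hz : ∀ i ∈ W, 0 < (z i).im := by
    intro i _
    by_cases hi : i = e
    · simpa [z, hi] using hw
    · simp only [z, hi, if_false, Complex.mul_im, Complex.ofReal_im, Complex.ofReal_re, mul_zero,
        zero_add]
      exact mul_pos hτ (Real.exp_pos _)
  have key : ∑ S ∈ W.powerset, ((c S : ℝ) : ℂ) * ∏ i ∈ S, z i =
      w * aeval τ (polyA c W e h) + aeval τ (polyB c W e h) := by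
    simp only [polyA, polyB, map_sum, Finset.mul_sum, ← Finset.sum_add_distrib]
    refine Finset.sum_congr rfl fun S _ => ?_
    by_cases he : e ∈ S
    · simp only [he, if_true, aeval_monomial, map_zero, add_zero]
      rw [← Finset.mul_prod_erase S z he]
      have hz1 : z e = w := by simp [z]
      have hz2 : ∏ i ∈ S.erase e, z i = ∏ i ∈ S.erase e, (τ * ((Real.exp (h i) : ℝ) : ℂ)) := by
        refine Finset.prod_congr rfl fun i hi => ?_
        simp [z, Finset.ne_of_mem_erase hi]
      rw [hz1, hz2, prod_ray, Finset.card_erase_of_mem he]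
      simp only [Complex.coe_algebraMap]
      push_cast
      ring
    · simp only [he, if_false, aeval_monomial, map_zero, mul_zero, zero_add]
      have hz2 : ∏ i ∈ S, z i = ∏ i ∈ S, (τ * ((Real.exp (h i) : ℝ) : ℂ)) := by
        refine Finset.prod_congr rfl fun i hi => ?_
        have : i ≠ e := fun hie => he (hie ▸ hi)
        simp [z, this]
      rw [hz2, prod_ray]
      simp only [Complex.coe_algebraMap]
      push_cast
      ring
  rw [← key]
  exact hs z hz

/-- Shift all tilts by `s`. -/
def shiftAll (h : E → ℝ) (s : ℝ) : E → ℝ := fun a => h a + s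

lemma expSum_shiftAll (h : E → ℝ) (s : ℝ) (S : Finset E) :
    expSum (shiftAll h s) S = expSum h S * (Real.exp s) ^ S.card := by
  simp only [expSum, shiftAll, Finset.sum_add_distrib, Finset.sum_const, nsmul_eq_mul]
  rw [Real.exp_add, ← Real.exp_nat_mul]

lemma expSum_erase (h : E → ℝ) {S : Finset E} {e : E} (he : e ∈ S) [DecidableEq E] :
    expSum h S = Real.exp (h e) * expSum h (S.erase e) := by
  simp only [expSum]
  rw [← Finset.add_sum_erase S h he, Real.exp_add]

lemma gibbsNum_shiftAll (e : E) (h : E → ℝ) (s : ℝ) :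
    gibbsNum c W e (shiftAll h s) =
      Real.exp s * Real.exp (h e) * (polyA c W e h).eval (Real.exp s) := by
  classical
  simp only [gibbsNum, polyA, Polynomial.eval_finsetSum, Finset.mul_sum]
  refine Finset.sum_congr rfl fun S _ => ?_
  by_cases he : e ∈ S
  · simp only [he, if_true, eval_monomial, expSum_shiftAll]
    rw [expSum_erase h he]
    have hcard : S.card = (S.card - 1) + 1 := by
      have := Finset.card_pos.mpr ⟨e, he⟩
      omega
    conv_lhs => rw [hcard, pow_succ]
    ring
  · simp [he]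

lemma gibbsRest_shiftAll (e : E) (h : E → ℝ) (s : ℝ) :
    gibbsRest c W e (shiftAll h s) = (polyB c W e h).eval (Real.exp s) := by
  classical
  simp only [gibbsRest, polyB, Polynomial.eval_finsetSum]
  refine Finset.sum_congr rfl fun S _ => ?_
  by_cases he : e ∈ S
  · simp [he]
  · simp only [he, if_false, eval_monomial, expSum_shiftAll]
    ring

/-- **Ray monotonicity.** -/
theorem gibbsMean_shiftAll_mono (hc : GoodCoef c W) (hs : StableOn c W) (e : E) (h : E → ℝ)
    {s s' : ℝ} (hss : s ≤ s') :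
    gibbsMean c W e (shiftAll h s) ≤ gibbsMean c W e (shiftAll h s') := by
  rw [gibbsMean_eq, gibbsMean_eq]
  apply frac_le_frac
  · rw [← gibbsZ_eq]; exact gibbsZ_pos hc _
  · rw [← gibbsZ_eq]; exact gibbsZ_pos hc _
  · rw [gibbsNum_shiftAll, gibbsNum_shiftAll, gibbsRest_shiftAll, gibbsRest_shiftAll]
    have key := stable_pair_ray (polyA_coeff_nonneg hc e h) (polyB_coeff_nonneg hc e h)
      (fun τ w hτ hw => polyPair_stable hs e h τ w hτ hw) (Real.exp_pos s)
      (Real.exp_le_exp.mpr hss)
    have hx := (Real.exp_pos (h e)).le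
    nlinarith [mul_le_mul_of_nonneg_left key hx]


/-! ### Rayleigh -/

/-- A family of Möbius coefficients continuous at `0`, real at `0`, without solutions in the upper
half plane for positive parameters, has nonpositive determinant at `0`. -/
lemma rayleigh_core {q₁₁ q₁₀ q₀₁ q₀₀ : ℝ → ℂ} {r₁₁ r₁₀ r₀₁ r₀₀ : ℝ}
    (h₁₁ : Continuous q₁₁) (h₁₀ : Continuous q₁₀) (h₀₁ : Continuous q₀₁) (h₀₀ : Continuous q₀₀)
    (e₁₁ : q₁₁ 0 = r₁₁) (e₁₀ : q₁₀ 0 = r₁₀) (e₀₁ : q₀₁ 0 = r₀₁) (e₀₀ : q₀₀ 0 = r₀₀)
    (hr01 : 0 ≤ r₀₁) (hr10 : 0 ≤ r₁₀)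
    (hst : ∀ η : ℝ, 0 < η → ∀ w : ℂ, 0 < w.im →
      w * (Complex.I * q₁₁ η + q₁₀ η) + (Complex.I * q₀₁ η + q₀₀ η) ≠ 0) :
    r₀₀ * r₁₁ ≤ r₀₁ * r₁₀ := by
  by_contra hlt
  push Not at hlt
  have hprod : 0 ≤ r₀₁ * r₁₀ := mul_nonneg hr01 hr10
  have hr11 : r₁₁ ≠ 0 := by
    intro h0
    rw [h0] at hlt
    simp at hlt
    linarith
  let D : ℝ → ℂ := fun η => Complex.I * q₁₁ η + q₁₀ η
  let Nn : ℝ → ℂ := fun η => Complex.I * q₀₁ η + q₀₀ η
  have hDc : Continuous D := (continuous_const.mul h₁₁).add h₁₀
  have hNc : Continuous Nn := (continuous_const.mul h₀₁).add h₀₀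
  have hD0 : D 0 = Complex.I * r₁₁ + r₁₀ := by simp [D, e₁₁, e₁₀]
  have hN0 : Nn 0 = Complex.I * r₀₁ + r₀₀ := by simp [Nn, e₀₁, e₀₀]
  have hDne : D 0 ≠ 0 := by
    rw [hD0]
    intro h
    have := congrArg Complex.im h
    simp at this
    exact hr11 this
  have hW : ContinuousAt (fun η => -(Nn η) / D η) 0 :=
    (hNc.continuousAt.neg).div hDc.continuousAt hDne
  have hIm0 : 0 < (-(Nn 0) / D 0).im := by
    have hN : 0 < Complex.normSq (D 0) := Complex.normSq_pos.mpr hDne
    have hcalc : (-(Nn 0) / D 0).im = (r₀₀ * r₁₁ - r₀₁ * r₁₀) / Complex.normSq (D 0) := by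
      have e1 : (-(Nn 0)).im = -r₀₁ := by rw [hN0]; simp
      have e2 : (-(Nn 0)).re = -r₀₀ := by rw [hN0]; simp
      have e3 : (D 0).re = r₁₀ := by rw [hD0]; simp
      have e4 : (D 0).im = r₁₁ := by rw [hD0]; simp
      rw [Complex.div_im, e1, e2, e3, e4]
      ring
    rw [hcalc]
    exact div_pos (by linarith) hN
  have hev1 : ∀ᶠ η in nhds (0:ℝ), 0 < (-(Nn η) / D η).im :=
    (Complex.continuous_im.continuousAt.comp hW).eventually (lt_mem_nhds hIm0)
  have hev2 : ∀ᶠ η in nhds (0:ℝ), D η ≠ 0 := hDc.continuousAt.eventually_ne hDne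
  have hev : ∀ᶠ η in nhdsWithin (0:ℝ) (Set.Ioi 0), 0 < (-(Nn η) / D η).im ∧ D η ≠ 0 :=
    (nhdsWithin_le_nhds (hev1.and hev2))
  have hmem : ∀ᶠ η in nhdsWithin (0:ℝ) (Set.Ioi 0), 0 < η := eventually_mem_nhdsWithin
  obtain ⟨η, ⟨hIm, hDη⟩, hη⟩ := (hev.and hmem).exists
  apply hst η hη (-(Nn η) / D η) hIm
  show -(Nn η) / D η * D η + Nn η = 0
  field_simp
  ring

open Classical in
/-- Rest of the product over `S` after removing `e` and `a`. -/
noncomputable def coreSet (S : Finset E) (e a : E) : Finset E := (S.erase e).erase a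

lemma prod_split [DecidableEq E] {R : Type*} [CommMonoid R] (z : E → R) (S : Finset E) {e a : E}
    (hae : a ≠ e) :
    ∏ i ∈ S, z i = (if e ∈ S then z e else 1) * (if a ∈ S then z a else 1) *
      ∏ i ∈ (S.erase e).erase a, z i := by
  by_cases he : e ∈ S <;> by_cases ha : a ∈ S
  · have ha' : a ∈ S.erase e := Finset.mem_erase.mpr ⟨hae, ha⟩
    simp only [he, ha, if_true]
    rw [← Finset.mul_prod_erase S z he, ← Finset.mul_prod_erase _ z ha', mul_assoc]
  · have ha' : a ∉ S.erase e := fun h => ha (Finset.mem_of_mem_erase h)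
    simp only [he, ha, if_true, if_false, one_mul, mul_one, Finset.erase_eq_of_notMem ha']
    rw [← Finset.mul_prod_erase S z he]
  · simp only [he, ha, if_true, if_false, one_mul, Finset.erase_eq_of_notMem he]
    rw [← Finset.mul_prod_erase S z ha]
  · simp [he, ha, Finset.erase_eq_of_notMem]

lemma expSum_split [DecidableEq E] (h : E → ℝ) (S : Finset E) {e a : E} (hae : a ≠ e) :
    expSum h S = (if e ∈ S then Real.exp (h e) else 1) * (if a ∈ S then Real.exp (h a) else 1) *
      expSum h ((S.erase e).erase a) := by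
  have := prod_split (fun i => Real.exp (h i)) S hae
  have h2 : expSum h S = ∏ i ∈ S, Real.exp (h i) := by rw [expSum, Real.exp_sum]
  have h3 : expSum h ((S.erase e).erase a) = ∏ i ∈ (S.erase e).erase a, Real.exp (h i) := by
    rw [expSum, Real.exp_sum]
  rw [h2, h3]
  exact this

section RayleighDefs
variable [DecidableEq E]

/-- The four Rayleigh coefficients (real versions) at real tilt. -/
noncomputable def rr (c : Finset E → ℝ) (W : Finset E) (e a : E) (h : E → ℝ) (α β : Bool) : ℝ :=
  ∑ S ∈ W.powerset, if (decide (e ∈ S) = α ∧ decide (a ∈ S) = β) then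
    c S * expSum h ((S.erase e).erase a) else 0

/-- The complex versions at `x (1 + i η)`. -/
noncomputable def qq (c : Finset E → ℝ) (W : Finset E) (e a : E) (h : E → ℝ) (α β : Bool)
    (η : ℝ) : ℂ :=
  ∑ S ∈ W.powerset, if (decide (e ∈ S) = α ∧ decide (a ∈ S) = β) then
    ((c S : ℝ) : ℂ) * ∏ i ∈ (S.erase e).erase a,
      (((Real.exp (h i) : ℝ) : ℂ) * (1 + Complex.I * (η : ℂ))) else 0

lemma qq_continuous (e a : E) (h : E → ℝ) (α β : Bool) : Continuous (qq c W e a h α β) := by
  unfold qq
  refine continuous_finsetSum _ fun S _ => ?_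
  split_ifs
  · refine continuous_const.mul (continuous_finsetProd _ fun i _ => ?_)
    exact continuous_const.mul (continuous_const.add (continuous_const.mul Complex.continuous_ofReal))
  · exact continuous_const

lemma qq_zero (e a : E) (h : E → ℝ) (α β : Bool) :
    qq c W e a h α β 0 = ((rr c W e a h α β : ℝ) : ℂ) := by
  unfold qq rr
  push_cast
  refine Finset.sum_congr rfl fun S _ => ?_
  split_ifs
  · simp [expSum, Real.exp_sum]
  · rfl

lemma rr_nonneg (hc : GoodCoef c W) (e a : E) (h : E → ℝ) (α β : Bool) :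
    0 ≤ rr c W e a h α β := by
  unfold rr
  apply Finset.sum_nonneg
  intro S hS
  split_ifs
  · exact mul_nonneg (hc.nonneg S hS) (expSum_pos h _).le
  · exact le_rfl

lemma stable_qq (hs : StableOn c W) {e a : E} (hae : a ≠ e) (h : E → ℝ) (η : ℝ) (hη : 0 < η)
    (w : ℂ) (hw : 0 < w.im) :
    w * (Complex.I * qq c W e a h true true η + qq c W e a h true false η) +
      (Complex.I * qq c W e a h false true η + qq c W e a h false false η) ≠ 0 := by
  let z : E → ℂ := fun i => if i = e then w else if i = a then Complex.I else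
    ((Real.exp (h i) : ℝ) : ℂ) * (1 + Complex.I * (η : ℂ))
  have hz : ∀ i ∈ W, 0 < (z i).im := by
    intro i _
    by_cases h1 : i = e
    · simpa [z, h1] using hw
    by_cases h2 : i = a
    · simp [z, h1, h2, hae]
    · simp only [z, h1, h2, if_false]
      simp only [Complex.mul_im, Complex.ofReal_re, Complex.ofReal_im, Complex.add_im,
        Complex.one_im, Complex.I_re, Complex.I_im, Complex.add_re, Complex.one_re, zero_add,
        zero_mul, one_mul, add_zero]
      exact mul_pos (Real.exp_pos _) hη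
  have key : ∑ S ∈ W.powerset, ((c S : ℝ) : ℂ) * ∏ i ∈ S, z i =
      w * (Complex.I * qq c W e a h true true η + qq c W e a h true false η) +
      (Complex.I * qq c W e a h false true η + qq c W e a h false false η) := by
    simp only [qq, Finset.mul_sum, ← Finset.sum_add_distrib]
    refine Finset.sum_congr rfl fun S _ => ?_
    have hz0 : ∏ i ∈ (S.erase e).erase a, z i = ∏ i ∈ (S.erase e).erase a,
        (((Real.exp (h i) : ℝ) : ℂ) * (1 + Complex.I * (η : ℂ))) := by
      refine Finset.prod_congr rfl fun i hi => ?_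
      have h1 : i ≠ a := Finset.ne_of_mem_erase hi
      have h2 : i ≠ e := Finset.ne_of_mem_erase (Finset.mem_of_mem_erase hi)
      simp [z, h1, h2]
    rw [prod_split z S hae, hz0]
    have hze : z e = w := by simp [z]
    have hza : z a = Complex.I := by simp [z, hae]
    rw [hze, hza]
    by_cases he : e ∈ S <;> by_cases ha : a ∈ S <;> simp [he, ha] <;> ring
  rw [← key]
  exact hs z hz

theorem rayleigh_rr (hc : GoodCoef c W) (hs : StableOn c W) {e a : E} (hae : a ≠ e) (h : E → ℝ) :
    rr c W e a h false false * rr c W e a h true true ≤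
      rr c W e a h false true * rr c W e a h true false :=
  rayleigh_core (qq_continuous e a h _ _) (qq_continuous e a h _ _) (qq_continuous e a h _ _)
    (qq_continuous e a h _ _) (qq_zero e a h _ _) (qq_zero e a h _ _) (qq_zero e a h _ _)
    (qq_zero e a h _ _) (rr_nonneg hc e a h _ _) (rr_nonneg hc e a h _ _)
    (fun η hη w hw => stable_qq hs hae h η hη w hw)

lemma rr_congr {h h' : E → ℝ} {e a : E} (hh : ∀ b, b ≠ a → b ≠ e → h b = h' b) (α β : Bool) :
    rr c W e a h α β = rr c W e a h' α β := by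
  unfold rr
  refine Finset.sum_congr rfl fun S _ => ?_
  have : expSum h ((S.erase e).erase a) = expSum h' ((S.erase e).erase a) :=
    expSum_congr fun b hb => hh b (Finset.ne_of_mem_erase hb)
      (Finset.ne_of_mem_erase (Finset.mem_of_mem_erase hb))
  rw [this]

lemma gibbsNum_rr {e a : E} (hae : a ≠ e) (h : E → ℝ) :
    gibbsNum c W e h = Real.exp (h e) *
      (Real.exp (h a) * rr c W e a h true true + rr c W e a h true false) := by
  simp only [gibbsNum, rr, Finset.mul_sum, ← Finset.sum_add_distrib]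
  refine Finset.sum_congr rfl fun S _ => ?_
  rw [expSum_split h S hae]
  by_cases he : e ∈ S <;> by_cases ha : a ∈ S <;> simp [he, ha] <;> ring

lemma gibbsRest_rr {e a : E} (hae : a ≠ e) (h : E → ℝ) :
    gibbsRest c W e h =
      Real.exp (h a) * rr c W e a h false true + rr c W e a h false false := by
  simp only [gibbsRest, rr, Finset.mul_sum, ← Finset.sum_add_distrib]
  refine Finset.sum_congr rfl fun S _ => ?_
  rw [expSum_split h S hae]
  by_cases he : e ∈ S <;> by_cases ha : a ∈ S <;> simp [he, ha]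
  ring

end RayleighDefs

/-- **Rayleigh monotonicity**: raising the tilt at `a ≠ e` lowers the occupation of `e`. -/
theorem gibbsMean_anti_coord (hc : GoodCoef c W) (hs : StableOn c W) {e a : E} (hae : a ≠ e)
    {h h' : E → ℝ} (hh : ∀ b, b ≠ a → h b = h' b) (hle : h a ≤ h' a) :
    gibbsMean c W e h' ≤ gibbsMean c W e h := by
  classical
  rw [gibbsMean_eq, gibbsMean_eq]
  apply frac_le_frac
  · rw [← gibbsZ_eq]; exact gibbsZ_pos hc _
  · rw [← gibbsZ_eq]; exact gibbsZ_pos hc _
  · have hee : h e = h' e := hh e (Ne.symm hae)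
    rw [gibbsNum_rr hae h', gibbsNum_rr hae h, gibbsRest_rr hae h', gibbsRest_rr hae h]
    have hcongr : ∀ α β, rr c W e a h' α β = rr c W e a h α β := fun α β =>
      (rr_congr (fun b hb _ => hh b hb) α β).symm
    simp only [hcongr, ← hee]
    have hR := rayleigh_rr hc hs hae h
    have hy : Real.exp (h a) ≤ Real.exp (h' a) := Real.exp_le_exp.mpr hle
    have hx := Real.exp_pos (h e)
    set r11 := rr c W e a h true true
    set r10 := rr c W e a h true false
    set r01 := rr c W e a h false true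
    set r00 := rr c W e a h false false
    set y := Real.exp (h a)
    set y' := Real.exp (h' a)
    set x := Real.exp (h e)
    have hd : 0 ≤ (y' - y) * (r01 * r10 - r00 * r11) :=
      mul_nonneg (by linarith) (by linarith)
    have := mul_le_mul_of_nonneg_left hd hx.le
    nlinarith


/-- Changing all tilts except the one at `e`. -/
theorem gibbsMean_anti_others (hc : GoodCoef c W) (hs : StableOn c W) {e : E} {h h' : E → ℝ}
    (hee : h e = h' e) (hle : ∀ a ∈ W, a ≠ e → h a ≤ h' a) :
    gibbsMean c W e h' ≤ gibbsMean c W e h := by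
  classical
  let mix : Finset E → E → ℝ := fun T a => if a ∈ T then h' a else h a
  have step : ∀ T : Finset E, T ⊆ W.erase e → gibbsMean c W e (mix T) ≤ gibbsMean c W e h := by
    intro T
    induction T using Finset.induction_on with
    | empty =>
      intro _
      have : mix ∅ = h := by
        funext a
        simp [mix]
      rw [this]
    | insert a T haT ih =>
      intro hsub
      have haW := hsub (Finset.mem_insert_self a T)
      have h1 := Finset.mem_erase.mp haW
      refine le_trans ?_ (ih (fun x hx => hsub (Finset.mem_insert_of_mem hx)))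
      apply gibbsMean_anti_coord hc hs h1.1
      · intro b hb
        by_cases hbT : b ∈ T
        · simp [mix, hbT]
        · simp [mix, hbT, hb]
      · simp only [mix, haT, if_false, Finset.mem_insert_self, if_true]
        exact hle a h1.2 h1.1
  have hend := step (W.erase e) (Finset.Subset.refl _)
  have hcong : gibbsMean c W e (mix (W.erase e)) = gibbsMean c W e h' := by
    apply gibbsMean_congr
    intro a ha
    by_cases hae : a = e
    · subst hae
      simp [mix, hee]
    · simp [mix, hae, ha]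
  rwa [hcong] at hend

/-- Logistic step. -/
lemma logistic_step {A B δ : ℝ} (hA : 0 ≤ A) (hB : 0 ≤ B) (hAB : 0 < A + B) (hδ : 0 ≤ δ) :
    Real.exp δ * A / (Real.exp δ * A + B) ≤ A / (A + B) + δ / 4 := by
  have hden : ∀ s : ℝ, 0 < Real.exp s * A + B := by
    intro s
    rcases hA.eq_or_lt with h | h
    · rw [← h] at hAB ⊢
      simp only [mul_zero, zero_add] at hAB ⊢
      exact hAB
    · have := mul_pos (Real.exp_pos s) h
      linarith
  let f : ℝ → ℝ := fun s => Real.exp s * A / (Real.exp s * A + B)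
  have hder : ∀ s, HasDerivAt f ((Real.exp s * A) * B / (Real.exp s * A + B) ^ 2) s := by
    intro s
    have h1 : HasDerivAt (fun s => Real.exp s * A) (Real.exp s * A) s :=
      (Real.hasDerivAt_exp s).mul_const A
    have h2 : HasDerivAt (fun s => Real.exp s * A + B) (Real.exp s * A) s := h1.add_const B
    have h3 : HasDerivAt f _ s := h1.div h2 (hden s).ne'
    refine h3.congr_deriv ?_
    congr 1
    ring
  have hdiff : Differentiable ℝ f := fun s => (hder s).differentiableAt
  have hle : ∀ s, deriv f s ≤ 1 / 4 := by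
    intro s
    rw [(hder s).deriv, div_le_iff₀ (pow_pos (hden s) 2)]
    nlinarith [sq_nonneg (Real.exp s * A - B)]
  have key := image_sub_le_mul_sub_of_deriv_le hdiff hle hδ
  have e0 : f 0 = A / (A + B) := by simp [f]
  simp only [sub_zero] at key
  rw [e0] at key
  have : f δ = Real.exp δ * A / (Real.exp δ * A + B) := rfl
  rw [← this]
  linarith

/-- Own-coordinate step. -/
lemma expSum_bump [DecidableEq E] (h : E → ℝ) (e : E) (δ : ℝ) (S : Finset E) :
    expSum (fun a => if a = e then h a + δ else h a) S =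
      (if e ∈ S then Real.exp δ else 1) * expSum h S := by
  have h1 : ∀ a, (if a = e then h a + δ else h a) = h a + if a = e then δ else 0 := by
    intro a; split_ifs <;> simp
  simp only [expSum, h1, Finset.sum_add_distrib, Finset.sum_ite_eq', Real.exp_add]
  split_ifs <;> simp [mul_comm]

theorem gibbsMean_own_step (hc : GoodCoef c W) (e : E) (h : E → ℝ) {δ : ℝ} (hδ : 0 ≤ δ) :
    haveI := Classical.decEq E
    gibbsMean c W e h ≤ gibbsMean c W e (fun a => if a = e then h a + δ else h a) ∧
    gibbsMean c W e (fun a => if a = e then h a + δ else h a) ≤ gibbsMean c W e h + δ / 4 := by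
  classical
  set h' : E → ℝ := fun a => if a = e then h a + δ else h a with hh'
  have hN : gibbsNum c W e h' = Real.exp δ * gibbsNum c W e h := by
    simp only [gibbsNum, Finset.mul_sum]
    refine Finset.sum_congr rfl fun S _ => ?_
    by_cases he : e ∈ S
    · simp only [he, if_true, hh', expSum_bump]
      ring
    · simp [he]
  have hR : gibbsRest c W e h' = gibbsRest c W e h := by
    simp only [gibbsRest]
    refine Finset.sum_congr rfl fun S _ => ?_
    by_cases he : e ∈ S
    · simp [he]
    · simp only [he, if_false, hh', expSum_bump, one_mul]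
  have hNn := gibbsNum_nonneg hc e h
  have hRn := gibbsRest_nonneg hc e h
  have hpos : 0 < gibbsNum c W e h + gibbsRest c W e h := by
    rw [← gibbsZ_eq]; exact gibbsZ_pos hc _
  have hpos' : 0 < gibbsNum c W e h' + gibbsRest c W e h' := by
    rw [← gibbsZ_eq]; exact gibbsZ_pos hc _
  rw [gibbsMean_eq, gibbsMean_eq, hN, hR] at *
  constructor
  · apply frac_le_frac hpos hpos'
    have : 1 ≤ Real.exp δ := Real.one_le_exp hδ
    have h3 := mul_nonneg hNn hRn
    nlinarith
  · exact logistic_step hNn hRn hpos hδ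

/-- **One-sided Lipschitz bound.** -/
theorem gibbsMean_upper (hc : GoodCoef c W) (hs : StableOn c W) {e : E} (he : e ∈ W)
    {h h' : E → ℝ} {ε : ℝ} (hε : ∀ a ∈ W, |h a - h' a| ≤ ε) :
    gibbsMean c W e h ≤ gibbsMean c W e h' + ε / 2 := by
  classical
  have hε0 : 0 ≤ ε := le_trans (abs_nonneg _) (hε e he)
  have hle : ∀ a ∈ W, h a - h' a ≤ ε ∧ h' a - h a ≤ ε := by
    intro a ha
    have := abs_le.mp (hε a ha)
    constructor <;> linarith [this.1, this.2]
  -- `h₃ = h' - ε`, `h₁ = h₃ + 2ε` at `e`.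
  let h₃ : E → ℝ := shiftAll h' (-ε)
  let h₁ : E → ℝ := fun a => if a = e then h₃ a + 2 * ε else h₃ a
  -- `h₂ = h` with the `e` coordinate raised to that of `h₁`.
  have hraise : 0 ≤ h₁ e - h e := by
    simp only [h₁, if_true, h₃, shiftAll]
    linarith [(hle e he).1]
  let h₂ : E → ℝ := fun a => if a = e then h a + (h₁ e - h e) else h a
  have s1 : gibbsMean c W e h ≤ gibbsMean c W e h₂ := (gibbsMean_own_step hc e h hraise).1
  have s2 : gibbsMean c W e h₂ ≤ gibbsMean c W e h₁ := by
    apply gibbsMean_anti_others hc hs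
    · simp only [h₁, h₂, if_true]
      ring
    · intro a ha hae
      simp only [h₁, h₂, hae, if_false, h₃, shiftAll]
      linarith [(hle a ha).2]
  have s3 : gibbsMean c W e h₁ ≤ gibbsMean c W e h₃ + (2 * ε) / 4 :=
    (gibbsMean_own_step hc e h₃ (by linarith)).2
  have s4 : gibbsMean c W e h₃ ≤ gibbsMean c W e (shiftAll h' 0) :=
    gibbsMean_shiftAll_mono hc hs e h' (by linarith)
  have s5 : shiftAll h' 0 = h' := by
    funext a; simp [shiftAll]
  rw [s5] at s4
  linarith

/-- **Task L: the key finite lemma.** -/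
theorem gibbsMean_lipschitz (hc : GoodCoef c W)
    (hs : StableOn c W) {e : E} (he : e ∈ W) {h h' : E → ℝ} {ε : ℝ}
    (hε : ∀ a ∈ W, |h a - h' a| ≤ ε) :
    |gibbsMean c W e h - gibbsMean c W e h'| ≤ ε / 2 := by
  rw [abs_le]
  have h1 := gibbsMean_upper hc hs he hε
  have h2 := gibbsMean_upper hc hs he (h := h') (h' := h) (ε := ε) (fun a ha => by
    rw [abs_sub_comm]; exact hε a ha)
  constructor <;> linarith

/-- The tilted mean lies in `[0,1]`. -/
theorem gibbsMean_mem_Icc (hc : GoodCoef c W) (e : E) (h : E → ℝ) :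
    0 ≤ gibbsMean c W e h ∧ gibbsMean c W e h ≤ 1 := by
  rw [gibbsMean_eq]
  have hN := gibbsNum_nonneg hc e h
  have hR := gibbsRest_nonneg hc e h
  have hp : 0 < gibbsNum c W e h + gibbsRest c W e h := by
    rw [← gibbsZ_eq]; exact gibbsZ_pos hc _
  exact ⟨div_nonneg hN hp.le, (div_le_one hp).mpr (by linarith)⟩

end Crest.Agent.Lib.SRF
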