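/-
Row 168, S0254 half: limit laws on binary configurations via compactness (Prokhorov).
If all "all occupied on F" masses of a sequence of probability laws on `ι → Bool` converge, there is
a probability law `ν` whose coefficient table is the limit of the coefficient tables.
-/
import Crest.Agent.Lib.SRF.Lipschitz

set_option autoImplicit false

namespace Crest.Agent.Lib.SRF

open MeasureTheory Filter Topology Set

variable {ι : Type*}

/-- The cylinder "all occupied on `T`, all free on `D`". -/
def cylTD (T D : Finset ι) : Set (ι → Bool) := {ω | (∀ i ∈ T, ω i = true) ∧ ∀ i ∈ D, ω i = false}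

lemma isClopen_cylTD (T D : Finset ι) : IsClopen (cylTD T D) := by
  have h : cylTD T D = (⋂ i ∈ T, (fun ω : ι → Bool => ω i) ⁻¹' {true}) ∩
      (⋂ i ∈ D, (fun ω : ι → Bool => ω i) ⁻¹' {false}) := by
    ext ω
    simp [cylTD]
  rw [h]
  apply IsClopen.inter
  · exact isClopen_biInter_finset fun i _ => (isClopen_discrete _).preimage (continuous_apply i)
  · exact isClopen_biInter_finset fun i _ => (isClopen_discrete _).preimage (continuous_apply i)

lemma measurableSet_cylTD [Countable ι] (T D : Finset ι) : MeasurableSet (cylTD T D) :=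
  (isClopen_cylTD T D).isOpen.measurableSet

lemma cylTD_insert [DecidableEq ι] (T D : Finset ι) (d : ι) :
    cylTD T D = cylTD T (insert d D) ∪ cylTD (insert d T) D := by
  ext ω
  simp only [cylTD, mem_setOf_eq, mem_union, Finset.mem_insert, forall_eq_or_imp]
  cases h : ω d <;> simp [h]

lemma disjoint_cylTD_insert [DecidableEq ι] (T D : Finset ι) (d : ι) :
    Disjoint (cylTD T (insert d D)) (cylTD (insert d T) D) := by
  rw [Set.disjoint_left]
  intro ω h₁ h₂
  have a := h₁.2 d (Finset.mem_insert_self d D)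
  have b := h₂.1 d (Finset.mem_insert_self d T)
  simp [a] at b

/-- Convergence of the increasing-cylinder masses gives convergence of all cylinder masses. -/
lemma tendsto_cylTD [Countable ι] (P : ℕ → Measure (ι → Bool)) [∀ n, IsProbabilityMeasure (P n)]
    (h : ∀ F : Finset ι, ∃ l, Tendsto (fun n => (P n {ω | ∀ i ∈ F, ω i = true}).toReal) atTop (𝓝 l))
    (D T : Finset ι) :
    ∃ l, Tendsto (fun n => (P n (cylTD T D)).toReal) atTop (𝓝 l) := by
  classical
  induction D using Finset.induction_on generalizing T with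
  | empty =>
    obtain ⟨l, hl⟩ := h T
    refine ⟨l, ?_⟩
    simpa [cylTD] using hl
  | insert d D _ ih =>
    obtain ⟨l₁, h₁⟩ := ih T
    obtain ⟨l₂, h₂⟩ := ih (insert d T)
    refine ⟨l₁ - l₂, (h₁.sub h₂).congr fun n => ?_⟩
    have hu := cylTD_insert T D d
    have hm : P n (cylTD T D) = P n (cylTD T (insert d D)) + P n (cylTD (insert d T) D) := by
      conv_lhs => rw [hu]
      exact measure_union (disjoint_cylTD_insert T D d) (measurableSet_cylTD _ _)
    rw [hm, ENNReal.toReal_add (measure_ne_top _ _) (measure_ne_top _ _)]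
    ring

/-- The coefficient cylinder is a `cylTD`. -/
lemma coef_eq_cylTD [DecidableEq ι] (ν : Measure (ι → Bool)) (W S : Finset ι) :
    coef ν W S = (ν (cylTD (W ∩ S) (W \ S))).toReal := by
  have : {ω : ι → Bool | ∀ i ∈ W, (ω i = true ↔ i ∈ S)} = cylTD (W ∩ S) (W \ S) := by
    ext ω
    simp only [mem_setOf_eq, cylTD, Finset.mem_inter, Finset.mem_sdiff]
    constructor
    · intro h
      refine ⟨fun i hi => (h i hi.1).2 hi.2, fun i hi => ?_⟩
      have := h i hi.1
      cases hω : ω i
      · rfl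
      · rw [hω] at this
        exact absurd (this.1 rfl) hi.2
    · rintro ⟨h₁, h₂⟩ i hi
      by_cases hS : i ∈ S
      · simp [h₁ i ⟨hi, hS⟩, hS]
      · simp [h₂ i ⟨hi, hS⟩, hS]
  rw [coef, this]

/-- **Limit law.**  If all increasing-cylinder masses converge there is a probability law whose
coefficient table is the limit of the tables. -/
theorem exists_limit_law [Countable ι] (P : ℕ → Measure (ι → Bool))
    [∀ n, IsProbabilityMeasure (P n)]
    (h : ∀ F : Finset ι, ∃ l, Tendsto (fun n => (P n {ω | ∀ i ∈ F, ω i = true}).toReal) atTop (𝓝 l)) :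
    ∃ ν : Measure (ι → Bool), IsProbabilityMeasure ν ∧
      ∀ W S : Finset ι, Tendsto (fun n => coef (P n) W S) atTop (𝓝 (coef ν W S)) := by
  classical
  let PP : ℕ → ProbabilityMeasure (ι → Bool) := fun n => ⟨P n, inferInstance⟩
  obtain ⟨ν, hν⟩ : ∃ ν : ProbabilityMeasure (ι → Bool), MapClusterPt ν atTop PP :=
    exists_clusterPt_of_compactSpace _
  refine ⟨(ν : Measure (ι → Bool)), inferInstance, fun W S => ?_⟩
  -- the cylinder mass is continuous
  set A := cylTD (W ∩ S) (W \ S) with hA
  have hclo : IsClopen A := isClopen_cylTD _ _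
  let f : BoundedContinuousFunction (ι → Bool) ℝ :=
    BoundedContinuousFunction.ofNormedAddCommGroup (A.indicator fun _ => (1 : ℝ))
      (continuous_const.indicator (by
        intro a ha
        rw [hclo.frontier_eq] at ha
        exact absurd ha (by simp))) 1 (by
        intro x
        by_cases hx : x ∈ A <;> simp [hx])
  have hcont : Continuous fun μ : ProbabilityMeasure (ι → Bool) => ((μ : Measure _) A).toReal := by
    have := ProbabilityMeasure.continuous_integral_boundedContinuousFunction (X := ι → Bool) f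
    refine this.congr fun μ => ?_
    have hf : (f : (ι → Bool) → ℝ) = A.indicator fun _ => (1 : ℝ) := rfl
    rw [hf, integral_indicator hclo.isOpen.measurableSet]
    simp [Measure.real]
  obtain ⟨l, hl⟩ := tendsto_cylTD P h (W \ S) (W ∩ S)
  have hcl : MapClusterPt ((ν : Measure (ι → Bool)) A).toReal atTop
      (fun n => (P n A).toReal) := by
    have := hν.tendsto_comp hcont.continuousAt
    exact this
  have heq : ((ν : Measure (ι → Bool)) A).toReal = l := by
    have h1 : ClusterPt ((ν : Measure (ι → Bool)) A).toReal (𝓝 l) := ClusterPt.mono hcl hl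
    exact eq_of_nhds_neBot h1
  have hfinal : Tendsto (fun n => coef (P n) W S) atTop (𝓝 (coef (ν : Measure (ι → Bool)) W S)) := by
    rw [coef_eq_cylTD, ← hA, heq]
    refine hl.congr fun n => ?_
    rw [coef_eq_cylTD]
  exact hfinal

/-! ### Coefficient tables of probability laws -/

/-- The coefficient table of a probability law is a good table. -/
theorem goodCoef_coefLaw [Countable ι] (ν : Measure (ι → Bool)) [IsProbabilityMeasure ν]
    (W : Finset ι) : GoodCoef (coef ν W) W := by
  classical
  refine ⟨fun S _ => ENNReal.toReal_nonneg, ?_⟩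
  have hcyl : ∀ S : Finset ι, MeasurableSet {ω : ι → Bool | ∀ i ∈ W, (ω i = true ↔ i ∈ S)} := by
    intro S
    have := coef_eq_cylTD (ν := ν) W S
    have h2 : {ω : ι → Bool | ∀ i ∈ W, (ω i = true ↔ i ∈ S)} = cylTD (W ∩ S) (W \ S) := by
      ext ω
      simp only [Set.mem_setOf_eq, cylTD, Finset.mem_inter, Finset.mem_sdiff]
      constructor
      · intro h
        refine ⟨fun i hi => (h i hi.1).2 hi.2, fun i hi => ?_⟩
        have := h i hi.1
        cases hω : ω i
        · rfl
        · rw [hω] at this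
          exact absurd (this.1 rfl) hi.2
      · rintro ⟨h₁, h₂⟩ i hi
        by_cases hS : i ∈ S
        · simp [h₁ i ⟨hi, hS⟩, hS]
        · simp [h₂ i ⟨hi, hS⟩, hS]
    rw [h2]
    exact measurableSet_cylTD _ _
  have hdisj : Set.PairwiseDisjoint (↑W.powerset : Set (Finset ι))
      (fun S => {ω : ι → Bool | ∀ i ∈ W, (ω i = true ↔ i ∈ S)}) := by
    intro S hS T hT hne
    rw [Function.onFun, Set.disjoint_left]
    intro ω h₁ h₂
    apply hne
    ext i
    by_cases hi : i ∈ W
    · exact (h₁ i hi).symm.trans (h₂ i hi)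
    · have hS' := Finset.mem_powerset.mp (Finset.mem_coe.mp hS)
      have hT' := Finset.mem_powerset.mp (Finset.mem_coe.mp hT)
      exact ⟨fun a => absurd (hS' a) hi, fun a => absurd (hT' a) hi⟩
  have hunion : (⋃ S ∈ W.powerset, {ω : ι → Bool | ∀ i ∈ W, (ω i = true ↔ i ∈ S)}) = univ := by
    ext ω
    simp only [Set.mem_iUnion, Set.mem_setOf_eq, Set.mem_univ, iff_true]
    refine ⟨W.filter fun i => ω i = true, Finset.mem_powerset.mpr (Finset.filter_subset _ _), ?_⟩
    intro i hi
    simp [hi]
  have hsum : ∑ S ∈ W.powerset, ν {ω : ι → Bool | ∀ i ∈ W, (ω i = true ↔ i ∈ S)} = 1 := by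
    rw [← measure_biUnion_finset hdisj (fun S _ => hcyl S), hunion, measure_univ]
  have := congrArg ENNReal.toReal hsum
  rw [ENNReal.toReal_sum (fun _ _ => measure_ne_top _ _)] at this
  simpa [coef] using this

/-! ### Lipschitz bound passes to limits of tables -/

lemma tendsto_gibbsZ {E : Type*} {c : ℕ → Finset E → ℝ} {c' : Finset E → ℝ} {W : Finset E}
    (hlim : ∀ S, Tendsto (fun n => c n S) atTop (𝓝 (c' S))) (h : E → ℝ) :
    Tendsto (fun n => gibbsZ (c n) W h) atTop (𝓝 (gibbsZ c' W h)) :=
  tendsto_finset_sum _ fun S _ => (hlim S).mul_const _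

lemma tendsto_gibbsNum {E : Type*} {c : ℕ → Finset E → ℝ} {c' : Finset E → ℝ} {W : Finset E}
    (hlim : ∀ S, Tendsto (fun n => c n S) atTop (𝓝 (c' S))) (e : E) (h : E → ℝ) :
    Tendsto (fun n => gibbsNum (c n) W e h) atTop (𝓝 (gibbsNum c' W e h)) := by
  classical
  refine tendsto_finset_sum _ fun S _ => ?_
  split_ifs
  · exact (hlim S).mul_const _
  · exact tendsto_const_nhds

lemma goodCoef_of_tendsto {E : Type*} {c : ℕ → Finset E → ℝ} {c' : Finset E → ℝ} {W : Finset E}
    (hg : ∀ n, GoodCoef (c n) W) (hlim : ∀ S, Tendsto (fun n => c n S) atTop (𝓝 (c' S))) :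
    GoodCoef c' W := by
  refine ⟨fun S hS => ge_of_tendsto' (hlim S) fun n => (hg n).nonneg S hS, ?_⟩
  have h1 : Tendsto (fun n => ∑ S ∈ W.powerset, c n S) atTop (𝓝 (∑ S ∈ W.powerset, c' S)) :=
    tendsto_finset_sum _ fun S _ => hlim S
  have h2 : (fun n => ∑ S ∈ W.powerset, c n S) = fun _ => (1 : ℝ) := by
    funext n
    exact (hg n).sum_eq_one
  rw [h2] at h1
  exact tendsto_nhds_unique h1 tendsto_const_nhds

lemma tendsto_gibbsMean {E : Type*} {c : ℕ → Finset E → ℝ} {c' : Finset E → ℝ} {W : Finset E}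
    (hg : GoodCoef c' W) (hlim : ∀ S, Tendsto (fun n => c n S) atTop (𝓝 (c' S)))
    (e : E) (h : E → ℝ) :
    Tendsto (fun n => gibbsMean (c n) W e h) atTop (𝓝 (gibbsMean c' W e h)) :=
  (tendsto_gibbsNum hlim e h).div (tendsto_gibbsZ hlim h) (gibbsZ_pos hg h).ne'

/-- The `1/2`-Lipschitz bound passes to limits of stable tables. -/
theorem gibbsMean_lipschitz_of_tendsto {E : Type*} {c : ℕ → Finset E → ℝ} {c' : Finset E → ℝ}
    {W : Finset E} (hg : ∀ n, GoodCoef (c n) W) (hs : ∀ n, StableOn (c n) W)
    (hlim : ∀ S, Tendsto (fun n => c n S) atTop (𝓝 (c' S))) {e : E} (he : e ∈ W)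
    {h h' : E → ℝ} {ε : ℝ} (hε : ∀ a ∈ W, |h a - h' a| ≤ ε) :
    |gibbsMean c' W e h - gibbsMean c' W e h'| ≤ ε / 2 := by
  have hg' := goodCoef_of_tendsto hg hlim
  have h1 := (tendsto_gibbsMean hg' hlim e h).sub (tendsto_gibbsMean hg' hlim e h')
  exact le_of_tendsto h1.abs (Eventually.of_forall fun n =>
    gibbsMean_lipschitz (hg n) (hs n) he hε)

end Crest.Agent.Lib.SRF
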