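/-
Row 168 (S0254 half): the matrix-tree theorem in the form
`det (∑ e ∈ E, z e • b e bᵀ e) = ∑ over spanning trees of ∏ z`,
and nonvanishing of the determinant on (products of) upper half planes and positive reals.
-/
import Crest.Agent.Lib.SRF.CauchyBinet

set_option autoImplicit false

namespace Crest.Agent.Lib.SRF

open Finset Matrix SimpleGraph

set_option linter.unusedSectionVars false
set_option linter.style.haveILetI false

variable {V : Type*} [DecidableEq V]

/-- The graph on the vertex set `S` with edge set `A`. -/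
abbrev pieceGraph (S : Finset V) (A : Finset (Sym2 V)) : SimpleGraph (S : Set V) :=
  (fromEdgeSet (A : Set (Sym2 V))).induce (S : Set V)

/-- Integer signed incidence. -/
noncomputable def inc (e : Sym2 V) (v : V) : ℤ :=
  (if v = (Quot.out e : V × V).1 then 1 else 0) - (if v = (Quot.out e : V × V).2 then 1 else 0)

/-- The two ends of an edge, in the orientation chosen by `Quot.out`. -/
noncomputable abbrev end₁ (e : Sym2 V) : V := (Quot.out e : V × V).1
noncomputable abbrev end₂ (e : Sym2 V) : V := (Quot.out e : V × V).2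

omit [DecidableEq V] in
lemma mk_ends (e : Sym2 V) : s(end₁ e, end₂ e) = e := by
  have := Quot.out_eq e
  exact this

/-- Rows of the reduced incidence matrix. -/
noncomputable def rowB (R : Type*) [Ring R] (S : Finset V) (r : V) (e : Sym2 V)
    (j : ↥(S.erase r)) : R := ((inc e (j : V) : ℤ) : R)

/-- Extension by zero. -/
noncomputable def extZ {R : Type*} [Zero R] (S : Finset V) (r : V) (x : ↥(S.erase r) → R) (v : V) : R :=
  if h : v ∈ S.erase r then x ⟨v, h⟩ else 0

lemma sum_ite_eq_extZ {R : Type*} [Ring R] (S : Finset V) (r : V) (x : ↥(S.erase r) → R) (a : V) :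
    ∑ j : ↥(S.erase r), (if (j : V) = a then (1 : R) else 0) * x j = extZ S r x a := by
  by_cases h : a ∈ S.erase r
  · rw [extZ, dif_pos h, Finset.sum_eq_single ⟨a, h⟩]
    · simp
    · intro j _ hj
      have : (j : V) ≠ a := fun hh => hj (Subtype.ext hh)
      simp [this]
    · simp
  · rw [extZ, dif_neg h]
    apply Finset.sum_eq_zero
    intro j _
    have : (j : V) ≠ a := fun hh => h (hh ▸ j.2)
    simp [this]

lemma sum_rowB_mul {R : Type*} [Ring R] (S : Finset V) (r : V) (e : Sym2 V)
    (x : ↥(S.erase r) → R) :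
    ∑ j, rowB R S r e j * x j = extZ S r x (end₁ e) - extZ S r x (end₂ e) := by
  rw [← sum_ite_eq_extZ, ← sum_ite_eq_extZ, ← Finset.sum_sub_distrib]
  refine Finset.sum_congr rfl fun j _ => ?_
  simp only [rowB, inc]
  by_cases h1 : (j : V) = end₁ e <;> by_cases h2 : (j : V) = end₂ e <;> simp [h1, h2, sub_mul]

/-- Propagation along a connected piece: a function constant along the edges of `I` vanishes if it
vanishes at the root. -/
lemma extZ_eq_zero_of_connected {R : Type*} [Zero R] {S : Finset V} {r : V} (hr : r ∈ S)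
    {I : Finset (Sym2 V)} (hconn : (pieceGraph S I).Connected) (f : V → R) (hf0 : f r = 0)
    (hf : ∀ e ∈ I, f (end₁ e) = f (end₂ e)) {v : V} (hv : v ∈ S) : f v = 0 := by
  have hstep : ∀ (a b : (S : Set V)), (pieceGraph S I).Adj a b → f a = f b := by
    intro a b hab
    have hab' : s((a : V), (b : V)) ∈ (I : Set (Sym2 V)) ∧ (a : V) ≠ b := by
      simpa [pieceGraph, fromEdgeSet_adj] using hab
    have h1 := hf _ (Finset.mem_coe.mp hab'.1)
    have h2 := mk_ends s((a : V), (b : V))
    rw [Sym2.eq_iff] at h2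
    rcases h2 with ⟨h3, h4⟩ | ⟨h3, h4⟩
    · rw [h3, h4] at h1; exact h1
    · rw [h3, h4] at h1; exact h1.symm
  have hwalk : ∀ (a b : (S : Set V)) (_ : (pieceGraph S I).Walk a b), f a = f b := by
    intro a b p
    induction p with
    | nil => rfl
    | cons h _ ih => exact (hstep _ _ h).trans ih
  obtain ⟨p⟩ := hconn.preconnected (⟨r, Finset.mem_coe.mpr hr⟩ : (S : Set V)) ⟨v, Finset.mem_coe.mpr hv⟩
  have := hwalk _ _ p
  simpa [hf0] using this.symm

/-- Matrix with rows given by a family. -/
lemma detRows_eq_zero_iff_kernel {R : Type*} [CommRing R] [IsDomain R] {S : Finset V} {r : V}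
    (g : ↥(S.erase r) → Sym2 V) :
    detRows (rowB R S r) g = 0 ↔
      ∃ x : ↥(S.erase r) → R, x ≠ 0 ∧ ∀ i, extZ S r x (end₁ (g i)) = extZ S r x (end₂ (g i)) := by
  rw [detRows, ← Matrix.exists_mulVec_eq_zero_iff]
  constructor
  · rintro ⟨x, hx, h⟩
    refine ⟨x, hx, fun i => ?_⟩
    have := congrFun h i
    simp only [Matrix.mulVec, dotProduct, Matrix.of_apply, Pi.zero_apply] at this
    rw [sum_rowB_mul] at this
    exact sub_eq_zero.mp this
  · rintro ⟨x, hx, h⟩
    refine ⟨x, hx, ?_⟩
    funext i
    simp only [Matrix.mulVec, dotProduct, Matrix.of_apply, Pi.zero_apply]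
    rw [sum_rowB_mul, h i, sub_self]

lemma extZ_root {R : Type*} [Zero R] (S : Finset V) (r : V) (x : ↥(S.erase r) → R) :
    extZ S r x r = 0 := by
  simp [extZ]

lemma x_eq_zero_of_extZ {R : Type*} [Zero R] {S : Finset V} {r : V} {x : ↥(S.erase r) → R}
    (h : ∀ v ∈ S, extZ S r x v = 0) : x = 0 := by
  funext j
  have := h j (Finset.mem_of_mem_erase j.2)
  simpa [extZ, j.2] using this

/-- Over a domain the minor of a connected piece does not vanish. -/
lemma detRows_ne_zero_of_connected {R : Type*} [CommRing R] [IsDomain R] {S : Finset V} {r : V}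
    (hr : r ∈ S) {I : Finset (Sym2 V)} (hconn : (pieceGraph S I).Connected)
    {g : ↥(S.erase r) → Sym2 V} (hg : ∀ e ∈ I, ∃ i, g i = e) :
    detRows (rowB R S r) g ≠ 0 := by
  intro h0
  obtain ⟨x, hx, h⟩ := (detRows_eq_zero_iff_kernel g).mp h0
  apply hx
  apply x_eq_zero_of_extZ
  intro v hv
  apply extZ_eq_zero_of_connected hr hconn (extZ S r x) (extZ_root S r x) _ hv
  intro e he
  obtain ⟨i, rfl⟩ := hg e he
  exact h i

/-- Minors are integer casts. -/
lemma detRows_cast {R : Type*} [CommRing R] {S : Finset V} {r : V}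
    (g : ↥(S.erase r) → Sym2 V) :
    detRows (rowB R S r) g = ((detRows (rowB ℤ S r) g : ℤ) : R) := by
  simp only [detRows]
  have := (Int.castRingHom R).map_det (Matrix.of fun i j => rowB ℤ S r (g i) j)
  simp only [eq_intCast] at this
  rw [this]
  congr 1

/-- The integer minor of a connected piece is a unit. -/
lemma detRows_sq_eq_one_of_connected {S : Finset V} {r : V}
    (hr : r ∈ S) {I : Finset (Sym2 V)} (hconn : (pieceGraph S I).Connected)
    {g : ↥(S.erase r) → Sym2 V} (hg : ∀ e ∈ I, ∃ i, g i = e) :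
    (detRows (rowB ℤ S r) g) ^ 2 = 1 := by
  set d := detRows (rowB ℤ S r) g with hd
  have hnat : d.natAbs = 1 := by
    rw [Nat.eq_one_iff_not_exists_prime_dvd]
    intro p hp hdvd
    haveI : Fact p.Prime := ⟨hp⟩
    have h1 := detRows_ne_zero_of_connected (R := ZMod p) hr hconn hg
    apply h1
    rw [detRows_cast, ← hd]
    rw [ZMod.intCast_zmod_eq_zero_iff_dvd]
    exact Int.natCast_dvd.mpr hdvd
  have : d ^ 2 = (d.natAbs : ℤ) ^ 2 := (Int.natAbs_sq d).symm
  rw [this, hnat]
  norm_num

/-- The integer minor of a disconnected piece vanishes. -/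
lemma detRows_eq_zero_of_not_connected {S : Finset V} {r : V}
    (hr : r ∈ S) {I : Finset (Sym2 V)} (hIS : ∀ e ∈ I, e ∈ S.sym2 ∧ ¬ e.IsDiag)
    (hconn : ¬ (pieceGraph S I).Connected)
    {g : ↥(S.erase r) → Sym2 V} (hg : ∀ i, g i ∈ I) :
    detRows (rowB ℤ S r) g = 0 := by
  classical
  rw [detRows_eq_zero_iff_kernel]
  set G := pieceGraph S I with hG
  have hrS : r ∈ (S : Set V) := Finset.mem_coe.mpr hr
  set r' : (S : Set V) := ⟨r, hrS⟩ with hr'
  -- a vertex not reachable from the root
  have hex : ∃ w : (S : Set V), ¬ G.Reachable r' w := by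
    by_contra hne
    push Not at hne
    apply hconn
    haveI : Nonempty (S : Set V) := ⟨r'⟩
    refine ⟨fun a b => (hne a).symm.trans (hne b)⟩
  obtain ⟨w, hw⟩ := hex
  let col : V → ℤ := fun v => if h : v ∈ (S : Set V) then (if G.Reachable r' ⟨v, h⟩ then 0 else 1) else 0
  have hcolr : col r = 0 := by
    simp only [col, dif_pos hrS]
    rw [if_pos (SimpleGraph.Reachable.refl _)]
  refine ⟨fun j => col j, ?_, ?_⟩
  · intro h0
    have hwr : (w : V) ≠ r := by
      intro h
      apply hw
      have : w = r' := Subtype.ext h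
      rw [this]
    have hwm : (w : V) ∈ S.erase r := Finset.mem_erase.mpr ⟨hwr, Finset.mem_coe.mp w.2⟩
    have := congrFun h0 ⟨w, hwm⟩
    simp only [Pi.zero_apply, col] at this
    rw [dif_pos w.2] at this
    simp only [Subtype.coe_eta] at this
    rw [if_neg hw] at this
    exact one_ne_zero this
  · have hext : ∀ v, extZ S r (fun j => col (j : V)) v = col v := by
      intro v
      by_cases h : v ∈ S.erase r
      · simp [extZ, h]
      · rw [extZ, dif_neg h]
        by_cases hv : v = r
        · rw [hv, hcolr]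
        · have : v ∉ (S : Set V) := fun hvS => h (Finset.mem_erase.mpr ⟨hv, Finset.mem_coe.mp hvS⟩)
          simp only [col, dif_neg this]
    intro i
    rw [hext, hext]
    have hmem := hIS _ (hg i)
    have hs : s(end₁ (g i), end₂ (g i)) = g i := mk_ends _
    have hend₁ : end₁ (g i) ∈ (S : Set V) := by
      have := hmem.1
      rw [← hs, Finset.mk_mem_sym2_iff] at this
      exact Finset.mem_coe.mpr this.1
    have hend₂ : end₂ (g i) ∈ (S : Set V) := by
      have := hmem.1
      rw [← hs, Finset.mk_mem_sym2_iff] at this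
      exact Finset.mem_coe.mpr this.2
    have hne : end₁ (g i) ≠ end₂ (g i) := by
      intro h
      apply hmem.2
      rw [← hs]
      simpa using h
    have hadj : G.Adj ⟨_, hend₁⟩ ⟨_, hend₂⟩ := by
      simp only [hG, pieceGraph, comap_adj, Function.Embedding.subtype_apply, fromEdgeSet_adj]
      refine ⟨?_, hne⟩
      rw [hs]
      exact Finset.mem_coe.mpr (hg i)
    have hreach : G.Reachable r' ⟨_, hend₁⟩ ↔ G.Reachable r' ⟨_, hend₂⟩ :=
      ⟨fun h => h.trans hadj.reachable, fun h => h.trans hadj.symm.reachable⟩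
    simp only [col, dif_pos hend₁, dif_pos hend₂]
    by_cases h1 : G.Reachable r' ⟨_, hend₁⟩
    · rw [if_pos h1, if_pos (hreach.mp h1)]
    · rw [if_neg h1, if_neg (fun h => h1 (hreach.mpr h))]

/-- Edge count of a piece. -/
lemma natCard_edgeSet_piece {S : Finset V} {A : Finset (Sym2 V)}
    (hA : ∀ e ∈ A, e ∈ S.sym2 ∧ ¬ e.IsDiag) :
    Nat.card (pieceGraph S A).edgeSet = A.card := by
  have hinj : Function.Injective (Sym2.map (Subtype.val : ↥(S : Set V) → V)) :=
    Sym2.map.injective (fun _ _ h => Subtype.ext h)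
  have him : Sym2.map (Subtype.val : ↥(S : Set V) → V) '' (pieceGraph S A).edgeSet = (A : Set (Sym2 V)) := by
    ext e
    constructor
    · rintro ⟨e', he', rfl⟩
      induction e' using Sym2.ind with
      | _ a b =>
        have : s((a : V), (b : V)) ∈ (A : Set (Sym2 V)) ∧ (a : V) ≠ b := by
          simpa [pieceGraph, fromEdgeSet_adj] using he'
        simpa using this.1
    · intro he
      have he' := hA e (Finset.mem_coe.mp he)
      induction e using Sym2.ind with
      | _ a b =>
        have h1 := he'.1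
        rw [Finset.mk_mem_sym2_iff] at h1
        have hab : a ≠ b := by simpa using he'.2
        refine ⟨s(⟨a, Finset.mem_coe.mpr h1.1⟩, ⟨b, Finset.mem_coe.mpr h1.2⟩), ?_, by simp⟩
        simp only [mem_edgeSet]
        simpa [pieceGraph, fromEdgeSet_adj, hab] using he
  rw [Nat.card_coe_set_eq, ← Set.ncard_image_of_injective _ hinj, him, Set.ncard_coe_finset]

/-- A spanning tree is a connected piece with the right number of edges. -/
lemma isTree_iff {S : Finset V} {r : V} (hr : r ∈ S) {A : Finset (Sym2 V)}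
    (hA : ∀ e ∈ A, e ∈ S.sym2 ∧ ¬ e.IsDiag) :
    (pieceGraph S A).IsTree ↔ (pieceGraph S A).Connected ∧ A.card = (S.erase r).card := by
  rw [isTree_iff_connected_and_card, natCard_edgeSet_piece hA]
  have h1 : Nat.card (S : Set V) = S.card := by simp
  have h2 : (S.erase r).card + 1 = S.card := Finset.card_erase_add_one hr
  rw [h1, ← h2]
  simp

/-- The minor of a piece: `1` if connected, `0` otherwise (for pieces with the right size). -/
lemma minorSq_rowB {R : Type*} [CommRing R] {S : Finset V} {r : V} (hr : r ∈ S)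
    {I : Finset (Sym2 V)} (hIS : ∀ e ∈ I, e ∈ S.sym2 ∧ ¬ e.IsDiag)
    (hcard : I.card = Fintype.card ↥(S.erase r)) :
    minorSq ↥(S.erase r) (rowB R S r) I = if (pieceGraph S I).Connected then 1 else 0 := by
  classical
  rw [minorSq, dif_pos hcard]
  set g : ↥(S.erase r) → Sym2 V := fun i => (enumF I hcard i : Sym2 V) with hg
  have hgmem : ∀ i, g i ∈ I := fun i => (enumF I hcard i).2
  have hgsurj : ∀ e ∈ I, ∃ i, g i = e := by
    intro e he
    obtain ⟨i, hi⟩ := (enumF I hcard).surjective ⟨e, he⟩
    exact ⟨i, by simp [hg, hi]⟩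
  rw [detRows_cast]
  split_ifs with hc
  · have := detRows_sq_eq_one_of_connected hr hc hgsurj
    rw [← Int.cast_pow, this, Int.cast_one]
  · rw [detRows_eq_zero_of_not_connected hr hIS hc hgmem]
    simp

/-- The weighted reduced Laplacian. -/
noncomputable def lapM {R : Type*} [CommRing R] (S : Finset V) (r : V) (E : Finset (Sym2 V))
    (z : Sym2 V → R) : Matrix ↥(S.erase r) ↥(S.erase r) R :=
  Matrix.of fun i j => ∑ e ∈ E, z e * rowB R S r e i * rowB R S r e j

open Classical in
/-- Spanning trees of the piece `(S, E)`. -/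
noncomputable def treesOf (S : Finset V) (E : Finset (Sym2 V)) : Finset (Finset (Sym2 V)) :=
  E.powerset.filter (fun A => (pieceGraph S A).IsTree)

/-- **Matrix-tree theorem.** -/
theorem det_lapM {R : Type*} [CommRing R] {S : Finset V} {r : V} (hr : r ∈ S)
    {E : Finset (Sym2 V)} (hE : ∀ e ∈ E, e ∈ S.sym2 ∧ ¬ e.IsDiag) (z : Sym2 V → R) :
    (lapM S r E z).det = ∑ A ∈ treesOf S E, ∏ e ∈ A, z e := by
  classical
  rw [lapM, det_sum_rankOne]
  have h1 : ∀ I ∈ E.powersetCard (Fintype.card ↥(S.erase r)),
      (∏ e ∈ I, z e) * minorSq ↥(S.erase r) (rowB R S r) I =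
        if (pieceGraph S I).Connected then ∏ e ∈ I, z e else 0 := by
    intro I hI
    rw [Finset.mem_powersetCard] at hI
    rw [minorSq_rowB hr (fun e he => hE e (hI.1 he)) hI.2]
    split_ifs <;> simp
  rw [Finset.sum_congr rfl h1, ← Finset.sum_filter]
  refine Finset.sum_congr ?_ fun _ _ => rfl
  ext A
  simp only [treesOf, Finset.mem_filter, Finset.mem_powersetCard, Finset.mem_powerset,
    Fintype.card_coe]
  constructor
  · rintro ⟨⟨hAE, hcard⟩, hc⟩
    exact ⟨hAE, (isTree_iff hr (fun e he => hE e (hAE he))).mpr ⟨hc, hcard⟩⟩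
  · rintro ⟨hAE, htree⟩
    have := (isTree_iff hr (fun e he => hE e (hAE he))).mp htree
    exact ⟨⟨hAE, this.2⟩, this.1⟩

/-- Nonvanishing of the determinant. -/
theorem det_lapM_ne_zero {S : Finset V} {r : V} (hr : r ∈ S)
    {E : Finset (Sym2 V)} (hconn : (pieceGraph S E).Connected) (z : Sym2 V → ℂ)
    (hz : ∀ e ∈ E, 0 < (z e).im ∨ ((z e).im = 0 ∧ 0 < (z e).re)) :
    (lapM S r E z).det ≠ 0 := by
  classical
  intro h0
  obtain ⟨x, hx, hker⟩ := Matrix.exists_mulVec_eq_zero_iff.mpr h0
  apply hx
  -- the quadratic form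
  set y : Sym2 V → ℂ := fun e => ∑ j, rowB ℂ S r e j * x j with hy
  have hyval : ∀ e, y e = extZ S r x (end₁ e) - extZ S r x (end₂ e) := fun e => sum_rowB_mul S r e x
  have hquad : ∑ e ∈ E, z e * ((Complex.normSq (y e) : ℝ) : ℂ) = 0 := by
    have h1 : ∑ i, star (x i) * (lapM S r E z *ᵥ x) i = 0 := by
      rw [hker]; simp
    rw [← h1]
    have h2 : ∀ i, (lapM S r E z *ᵥ x) i = ∑ e ∈ E, z e * rowB ℂ S r e i * y e := by
      intro i
      simp only [Matrix.mulVec, dotProduct, lapM, Matrix.of_apply, hy, Finset.sum_mul]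
      rw [Finset.sum_comm]
      refine Finset.sum_congr rfl fun e _ => ?_
      rw [Finset.mul_sum]
      refine Finset.sum_congr rfl fun j _ => ?_
      ring
    simp only [h2, Finset.mul_sum]
    rw [Finset.sum_comm]
    refine Finset.sum_congr rfl fun e _ => ?_
    have h3 : star (y e) = ∑ i, rowB ℂ S r e i * star (x i) := by
      simp only [hy, star_sum, star_mul']
      refine Finset.sum_congr rfl fun j _ => ?_
      simp [rowB]
    have h4 : ((Complex.normSq (y e) : ℝ) : ℂ) = star (y e) * y e := by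
      rw [Complex.star_def, Complex.normSq_eq_conj_mul_self]
    rw [h4, h3, Finset.sum_mul, Finset.mul_sum]
    refine Finset.sum_congr rfl fun i _ => ?_
    ring
  have hre : ∑ e ∈ E, (z e).re * Complex.normSq (y e) = 0 := by
    have := congrArg Complex.re hquad
    simpa [Complex.re_sum, Complex.mul_re] using this
  have him : ∑ e ∈ E, (z e).im * Complex.normSq (y e) = 0 := by
    have := congrArg Complex.im hquad
    simpa [Complex.im_sum, Complex.mul_im] using this
  have hnn : ∀ e, 0 ≤ Complex.normSq (y e) := fun e => Complex.normSq_nonneg _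
  have him0 : ∀ e ∈ E, (z e).im * Complex.normSq (y e) = 0 := by
    apply (Finset.sum_eq_zero_iff_of_nonneg ?_).mp him
    intro e he
    rcases hz e he with h | h
    · exact mul_nonneg h.le (hnn e)
    · rw [h.1, zero_mul]
  have hy0a : ∀ e ∈ E, 0 < (z e).im → Complex.normSq (y e) = 0 := by
    intro e he h
    have := him0 e he
    exact (mul_eq_zero.mp this).resolve_left h.ne'
  have hre0 : ∀ e ∈ E, (z e).re * Complex.normSq (y e) = 0 := by
    apply (Finset.sum_eq_zero_iff_of_nonneg ?_).mp hre
    intro e he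
    rcases hz e he with h | h
    · rw [hy0a e he h, mul_zero]
    · exact mul_nonneg h.2.le (hnn e)
  have hy0 : ∀ e ∈ E, y e = 0 := by
    intro e he
    rcases hz e he with h | h
    · exact Complex.normSq_eq_zero.mp (hy0a e he h)
    · exact Complex.normSq_eq_zero.mp ((mul_eq_zero.mp (hre0 e he)).resolve_left h.2.ne')
  apply x_eq_zero_of_extZ
  intro v hv
  apply extZ_eq_zero_of_connected hr hconn (extZ S r x) (extZ_root S r x) _ hv
  intro e he
  have := hy0 e he
  rw [hyval] at this
  exact sub_eq_zero.mp this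

end Crest.Agent.Lib.SRF
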