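/-
Row 168: one label splits into the phase and the noise of a site; windows and the factor theorem
for strongly Rayleigh shift-invariant laws (S0255).
-/
import Crest.Agent.Lib.SRF.Assembly
import Crest.Agent.Lib.SRF.Lipschitz
import Crest.Prelude.Def_StronglyRayleigh

set_option autoImplicit false

namespace Crest.Agent.Lib.SRF

open MeasureTheory Filter Topology Set

variable {Γ : Type*}

/-- Join the phase family and the noise family. -/
def joinLab (p : (Γ → Lab) × (Γ × ℕ → Lab)) : Γ × Option ℕ → Lab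
  | (g, none) => p.1 g
  | (g, some k) => p.2 (g, k)

/-- Split a doubly indexed family into a phase family and a noise family. -/
def splitLab (y : Γ × Option ℕ → Lab) : (Γ → Lab) × (Γ × ℕ → Lab) :=
  (fun g => y (g, none), fun i => y (i.1, some i.2))

lemma splitLab_joinLab (p : (Γ → Lab) × (Γ × ℕ → Lab)) : splitLab (joinLab p) = p := rfl

lemma measurable_joinLab : Measurable (joinLab (Γ := Γ)) := by
  refine measurable_pi_iff.mpr ?_
  rintro ⟨g, _ | k⟩
  · exact (measurable_pi_apply g).comp measurable_fst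
  · exact (measurable_pi_apply (g, k)).comp measurable_snd

lemma measurable_splitLab : Measurable (splitLab (Γ := Γ)) :=
  Measurable.prodMk (measurable_pi_iff.mpr fun _ => measurable_pi_apply _)
    (measurable_pi_iff.mpr fun _ => measurable_pi_apply _)

lemma map_joinLab : ((lam Γ).prod (lam (Γ × ℕ))).map joinLab = lam (Γ × Option ℕ) := by
  refine Measure.eq_infinitePi _ fun s t ht => ?_
  classical
  have hi₁ : Set.InjOn (fun g : Γ => ((g, none) : Γ × Option ℕ))
      ((fun g : Γ => ((g, none) : Γ × Option ℕ)) ⁻¹' (s : Set (Γ × Option ℕ))) :=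
    fun a _ b _ h => congrArg Prod.fst h
  have hi₂ : Set.InjOn (fun p : Γ × ℕ => ((p.1, some p.2) : Γ × Option ℕ))
      ((fun p : Γ × ℕ => ((p.1, some p.2) : Γ × Option ℕ)) ⁻¹' (s : Set (Γ × Option ℕ))) := by
    rintro ⟨a, i⟩ _ ⟨b, j⟩ _ h
    simp only [Prod.mk.injEq, Option.some.injEq] at h
    rw [h.1, h.2]
  let s₁ : Finset Γ := s.preimage _ hi₁
  let s₂ : Finset (Γ × ℕ) := s.preimage _ hi₂
  have hset : joinLab ⁻¹' ((s : Set (Γ × Option ℕ)).pi t) =
      ((s₁ : Set Γ).pi (fun g => t (g, none))) ×ˢ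
        ((s₂ : Set (Γ × ℕ)).pi (fun p => t (p.1, some p.2))) := by
    ext ⟨u, v⟩
    simp only [mem_preimage, Set.mem_pi, Finset.mem_coe, Set.mem_prod]
    constructor
    · intro h
      exact ⟨fun g hg => h _ (by simpa [s₁] using hg), fun p hp => h _ (by simpa [s₂] using hp)⟩
    · rintro ⟨h1, h2⟩ ⟨g, _ | k⟩ hi
      · exact h1 g (by simpa [s₁] using hi)
      · exact h2 (g, k) (by simpa [s₂] using hi)
  rw [Measure.map_apply measurable_joinLab (MeasurableSet.pi s.countable_toSet fun i _ => ht i),
    hset, Measure.prod_prod]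
  unfold lam Crest.ProbabilityR.Labels.labelMeasure
  rw [Measure.infinitePi_pi _ (fun g _ => ht _), Measure.infinitePi_pi _ (fun p _ => ht _)]
  have e₁ := Finset.prod_preimage' (fun g : Γ => ((g, none) : Γ × Option ℕ)) s hi₁
    (fun i => (volume : Measure Lab) (t i))
  have e₂ := Finset.prod_preimage' (fun p : Γ × ℕ => ((p.1, some p.2) : Γ × Option ℕ)) s hi₂
    (fun i => (volume : Measure Lab) (t i))
  rw [e₁, e₂]
  rw [← Finset.prod_filter_mul_prod_filter_not s
    (fun i => i ∈ Set.range (fun g : Γ => ((g, none) : Γ × Option ℕ)))]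
  congr 2
  ext ⟨g, o⟩
  cases o <;> simp

lemma map_splitLab : (lam (Γ × Option ℕ)).map splitLab = (lam Γ).prod (lam (Γ × ℕ)) := by
  rw [← map_joinLab, Measure.map_map measurable_splitLab measurable_joinLab]
  have : splitLab ∘ joinLab = (id : (Γ → Lab) × (Γ × ℕ → Lab) → _) := rfl
  rw [this, Measure.map_id]

/-- The splitting map of the whole label field. -/
def splitAll (s : Lab → Option ℕ → Lab) (x : Γ → Lab) : (Γ → Lab) × (Γ × ℕ → Lab) :=
  splitLab (fun i => s (x i.1) i.2)

lemma measurable_splitAll {s : Lab → Option ℕ → Lab} (hs : Measurable s) :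
    Measurable (splitAll (Γ := Γ) s) := by
  refine measurable_splitLab.comp (measurable_pi_iff.mpr fun i => ?_)
  exact (measurable_pi_apply i.2).comp (hs.comp (measurable_pi_apply i.1))

lemma map_splitAll {s : Lab → Option ℕ → Lab} (hs : Measurable s)
    (hmap : (volume : Measure Lab).map s = lam (Option ℕ)) :
    (lam Γ).map (splitAll s) = (lam Γ).prod (lam (Γ × ℕ)) := by
  have h1 : (lam Γ).map (fun x g => s (x g)) = Measure.infinitePi (fun _ : Γ => lam (Option ℕ)) := by
    have := Measure.infinitePi_map_pi (μ := fun _ : Γ => (volume : Measure Lab)) (f := fun _ => s)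
      (fun _ => hs)
    simp only [hmap] at this
    exact this
  have h2 : (Measure.infinitePi (fun _ : Γ => lam (Option ℕ))).map
      (MeasurableEquiv.curry Γ (Option ℕ) Lab).symm = lam (Γ × Option ℕ) :=
    Measure.infinitePi_map_curry_symm (fun _ _ => (volume : Measure Lab))
  have hm1 : Measurable (fun (x : Γ → Lab) g => s (x g)) :=
    measurable_pi_iff.mpr fun g => hs.comp (measurable_pi_apply g)
  have h3 : splitAll (Γ := Γ) s = (splitLab ∘ (MeasurableEquiv.curry Γ (Option ℕ) Lab).symm) ∘
      (fun (x : Γ → Lab) g => s (x g)) := rfl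
  rw [h3, ← Measure.map_map (measurable_splitLab.comp (MeasurableEquiv.measurable _)) hm1, h1,
    ← Measure.map_map measurable_splitLab (MeasurableEquiv.measurable _), h2, map_splitLab]

section Windows

variable [Group Γ]

open Crest.ProbabilityR.StronglyRayleigh

/-- Translated windows from an exhausting sequence at the identity. -/
noncomputable def winOf (W₀ : ℕ → Finset Γ) (e : Γ) (n : ℕ) : Finset Γ :=
  (W₀ n).map (Equiv.mulLeft e).toEmbedding

open Classical in
/-- An exhausting sequence at the identity. -/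
noncomputable def baseWin (f : ℕ → Γ) (n : ℕ) : Finset Γ :=
  insert 1 ((Finset.range n).image f)

lemma baseWin_mono (f : ℕ → Γ) : Monotone (baseWin f) := by
  classical
  intro m n hmn
  unfold baseWin
  exact Finset.insert_subset_insert _ (Finset.image_subset_image (Finset.range_mono hmn))

lemma exhausting_winOf {f : ℕ → Γ} (hf : Function.Surjective f) :
    Exhausting (winOf (baseWin f)) := by
  classical
  refine ⟨?_, ?_, ?_⟩
  · intro e m n hmn
    exact Finset.map_subset_map.mpr (baseWin_mono f hmn)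
  · intro e n
    refine Finset.mem_map.mpr ⟨1, ?_, by simp⟩
    simp [baseWin]
  · intro e a
    obtain ⟨m, hm⟩ := hf (e⁻¹ * a)
    refine ⟨m + 1, Finset.mem_map.mpr ⟨e⁻¹ * a, ?_, by simp⟩⟩
    have : e⁻¹ * a ∈ (Finset.range (m + 1)).image f :=
      Finset.mem_image.mpr ⟨m, Finset.mem_range.mpr (Nat.lt_succ_self m), hm⟩
    exact Finset.mem_insert_of_mem this

omit [Group Γ] in
lemma goodCoef_coef (ν : Measure (Γ → Bool)) [IsProbabilityMeasure ν] (W₀ : Finset Γ) :
    GoodCoef (coef ν W₀) W₀ :=
  ⟨fun S _ => coef_nonneg ν W₀ S, sum_coef ν W₀⟩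

omit [Group Γ] in
lemma stableOn_coef {ν : Measure (Γ → Bool)} (hsr : IsStronglyRayleigh ν) (W₀ : Finset Γ) :
    StableOn (coef ν W₀) W₀ := by
  intro z hz
  exact hsr W₀ z hz

omit [Group Γ] in
lemma isLip_coef {ν : Measure (Γ → Bool)} [IsProbabilityMeasure ν] (hsr : IsStronglyRayleigh ν)
    {W : Γ → ℕ → Finset Γ} (hW : Exhausting W) : IsLip (coef ν) W where
  mem := hW.mem
  bdd e _ h := gibbsMean_mem_Icc (goodCoef_coef ν _) e h
  lip e n _ _ _ hε := gibbsMean_lipschitz (goodCoef_coef ν _) (stableOn_coef hsr _) (hW.mem e n) hε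

omit [Group Γ] in
lemma measurableSet_cyl (W S : Finset Γ) :
    MeasurableSet {ω : Γ → Bool | ∀ i ∈ W, (ω i = true ↔ i ∈ S)} := by
  have : {ω : Γ → Bool | ∀ i ∈ W, (ω i = true ↔ i ∈ S)} =
      ⋂ i ∈ W, {ω : Γ → Bool | ω i = true ↔ i ∈ S} := by
    ext ω
    simp
  rw [this]
  refine Finset.measurableSet_biInter W fun i _ => ?_
  have hm : Measurable (fun ω : Γ → Bool => ω i) := measurable_pi_apply i
  exact hm (MeasurableSet.of_discrete (s := {b : Bool | b = true ↔ i ∈ S}))

lemma coef_map_of_shift {ν : Measure (Γ → Bool)} (hinv : IsShiftInvariant ν) (g : Γ)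
    (W S : Finset Γ) :
    coef ν (W.map (Equiv.mulLeft g).toEmbedding) (S.map (Equiv.mulLeft g).toEmbedding) =
      coef ν W S := by
  unfold coef
  congr 1
  rw [← hinv g⁻¹ _ (measurableSet_cyl W S)]
  congr 1
  ext ω
  simp only [mem_ofPred_eq, Finset.mem_map, Equiv.coe_toEmbedding, Equiv.coe_mulLeft, mem_preimage,
    leftShift, inv_inv]
  constructor
  · rintro h i hi
    have := h (g * i) ⟨i, hi, rfl⟩
    simpa using this
  · rintro h i ⟨j, hj, rfl⟩
    have := h j hj
    simpa using this

end Windows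

/-- The factor theorem (S0255). -/
theorem exists_factor (Γ : Type*) [Group Γ]
    [Countable Γ] (ν : MeasureTheory.Measure (Γ → Bool)) [MeasureTheory.IsProbabilityMeasure ν]
    (hsr : Crest.ProbabilityR.StronglyRayleigh.IsStronglyRayleigh ν)
    (hinv : Crest.ProbabilityR.StronglyRayleigh.IsShiftInvariant ν) :
    ∃ Φ : (Γ → unitInterval) → (Γ → Bool), Measurable Φ ∧
      (∀ (g : Γ) (u : Γ → unitInterval),
        Φ (Crest.ProbabilityR.StronglyRayleigh.leftShift g u) =
          Crest.ProbabilityR.StronglyRayleigh.leftShift g (Φ u)) ∧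
      (Crest.ProbabilityR.Labels.labelMeasure Γ).map Φ = ν := by
  obtain ⟨f, hf⟩ := exists_surjective_nat Γ
  have hWx : Exhausting (winOf (baseWin f)) := exhausting_winOf hf
  let F : Family Unit Γ := ⟨fun _ => coef ν, fun _ => winOf (baseWin f), Set.univ⟩
  have hc : ∀ W S, Measurable fun θ => F.c θ W S := fun _ _ => measurable_const
  have hW : ∀ e n W₀, MeasurableSet {θ | F.W θ e n = W₀} := fun _ _ _ => MeasurableSet.of_discrete
  have hg : MeasurableSet F.good₀ := MeasurableSet.univ
  have hL : ∀ θ ∈ F.good₀, IsLip (F.c θ) (F.W θ) := fun _ _ => isLip_coef hsr hWx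
  obtain ⟨s, hs, hsmap⟩ := exists_split (Option ℕ → Lab) (lam (Option ℕ))
  have hS := measurable_splitAll (Γ := Γ) hs
  refine ⟨fun x => Psi F ((), splitAll s x), ?_, ?_, ?_⟩
  · exact (measurable_Psi F hc hW hg hL).comp (measurable_const.prodMk hS)
  · intro g x
    have h1 := Psi_equivariant F (Equiv.mulLeft g) (Equiv.refl Unit) (fun _ => Iff.rfl) hL
      (fun _ _ W S => coef_map_of_shift hinv g W S)
      (fun _ _ e n => by
        simp only [F, winOf]
        rw [Finset.map_map]
        congr 1
        ext a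
        simp [mul_assoc])
      () (splitAll s x).1 (splitAll s x).2
    exact h1
  · have h2 : (fun x => Psi F ((), splitAll s x)) =
        (fun p => Psi F ((), p)) ∘ splitAll (Γ := Γ) s := rfl
    have hm : Measurable (fun p : (Γ → Lab) × (Γ × ℕ → Lab) => Psi F ((), p)) :=
      (measurable_Psi F hc hW hg hL).comp measurable_prodMk_left
    rw [h2, ← MeasureTheory.Measure.map_map hm hS]
    have h3 := map_splitAll (Γ := Γ) hs hsmap
    change ((lam Γ).map (splitAll s)).map _ = ν
    rw [h3]
    exact Psi_law F hc hW hg hL (θ := ()) (Set.mem_univ _) ν rfl hWx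

end Crest.Agent.Lib.SRF
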