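/-
Row 168 (S0254 half): the uniform spanning tree table of a connected piece: stability, negative
correlation, deletion monotonicity.
-/
import Crest.Agent.Lib.SRF.MatrixTree
import Crest.Agent.Lib.SRF.Lipschitz

set_option autoImplicit false
set_option linter.unusedSectionVars false
set_option linter.style.haveILetI false

namespace Crest.Agent.Lib.SRF

open Finset Matrix SimpleGraph Filter Topology

variable {V : Type*} [DecidableEq V]

/-- A connected piece has a spanning tree. -/
theorem treesOf_nonempty {S : Finset V} {E : Finset (Sym2 V)}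
    (hE : ∀ e ∈ E, e ∈ S.sym2 ∧ ¬ e.IsDiag) (hconn : (pieceGraph S E).Connected) :
    (treesOf S E).Nonempty := by
  obtain ⟨⟨r, hr⟩⟩ := hconn.nonempty
  have hr' : r ∈ S := Finset.mem_coe.mp hr
  have h1 := det_lapM_ne_zero hr' hconn (fun _ => (1 : ℂ)) (fun e _ => Or.inr (by simp))
  rw [det_lapM hr' hE] at h1
  by_contra hne
  rw [Finset.not_nonempty_iff_eq_empty] at hne
  rw [hne] at h1
  simp at h1

/-- The tree polynomial does not vanish if every weight is in the open upper half plane or positive. -/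
theorem treePoly_ne_zero {S : Finset V} {E : Finset (Sym2 V)}
    (hE : ∀ e ∈ E, e ∈ S.sym2 ∧ ¬ e.IsDiag) (hconn : (pieceGraph S E).Connected) (z : Sym2 V → ℂ)
    (hz : ∀ e ∈ E, 0 < (z e).im ∨ ((z e).im = 0 ∧ 0 < (z e).re)) :
    ∑ A ∈ treesOf S E, ∏ e ∈ A, z e ≠ 0 := by
  obtain ⟨⟨r, hr⟩⟩ := hconn.nonempty
  have hr' : r ∈ S := Finset.mem_coe.mp hr
  rw [← det_lapM hr' hE]
  exact det_lapM_ne_zero hr' hconn z hz

open Classical in
/-- The table of the uniform spanning tree of the piece `(S,E)`, in the window `W`: the chance that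
the tree meets `W` exactly in `A`. -/
noncomputable def ustTab (S : Finset V) (E W A : Finset (Sym2 V)) : ℝ :=
  (((treesOf S E).filter (fun T => T ∩ W = A)).card : ℝ) / ((treesOf S E).card : ℝ)

lemma ustTab_nonneg (S : Finset V) (E W A : Finset (Sym2 V)) : 0 ≤ ustTab S E W A := by
  unfold ustTab; positivity

open Classical in
lemma sum_tab_mul {R : Type*} [CommRing R] (S : Finset V) (E W : Finset (Sym2 V)) (f : Finset (Sym2 V) → R) :
    ∑ A ∈ W.powerset, (((treesOf S E).filter (fun T => T ∩ W = A)).card : R) * f A =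
      ∑ T ∈ treesOf S E, f (T ∩ W) := by
  have hmaps : ∀ T ∈ treesOf S E, T ∩ W ∈ W.powerset := fun T _ =>
    Finset.mem_powerset.mpr Finset.inter_subset_right
  rw [← Finset.sum_fiberwise_of_maps_to hmaps]
  refine Finset.sum_congr rfl fun A _ => ?_
  rw [Finset.sum_congr rfl (g := fun _ => f A)]
  · simp
  · intro T hT
    rw [(Finset.mem_filter.mp hT).2]

/-- The table is a probability table. -/
theorem ustTab_good {S : Finset V} {E : Finset (Sym2 V)}
    (hE : ∀ e ∈ E, e ∈ S.sym2 ∧ ¬ e.IsDiag) (hconn : (pieceGraph S E).Connected)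
    (W : Finset (Sym2 V)) : GoodCoef (ustTab S E W) W := by
  classical
  refine ⟨fun A _ => ustTab_nonneg S E W A, ?_⟩
  have hN : ((treesOf S E).card : ℝ) ≠ 0 := by
    have := (treesOf_nonempty hE hconn).card_pos
    positivity
  unfold ustTab
  rw [← Finset.sum_div, div_eq_one_iff_eq hN]
  have := sum_tab_mul (R := ℝ) S E W (fun _ => 1)
  simp only [mul_one, Finset.sum_const, nsmul_eq_mul] at this
  rw [this]

/-- The table is stable. -/
theorem ustTab_stable {S : Finset V} {E : Finset (Sym2 V)}
    (hE : ∀ e ∈ E, e ∈ S.sym2 ∧ ¬ e.IsDiag) (hconn : (pieceGraph S E).Connected)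
    (W : Finset (Sym2 V)) : StableOn (ustTab S E W) W := by
  classical
  intro z hz
  have hN : ((treesOf S E).card : ℂ) ≠ 0 := by
    have := (treesOf_nonempty hE hconn).card_pos
    exact_mod_cast this.ne'
  set z' : Sym2 V → ℂ := fun e => if e ∈ W then z e else 1 with hz'
  have h1 := treePoly_ne_zero hE hconn z' (fun e _ => by
    by_cases he : e ∈ W
    · left; simpa [hz', he] using hz e he
    · right; simp [hz', he])
  have h2 : ∀ T : Finset (Sym2 V), ∏ e ∈ T, z' e = ∏ e ∈ T ∩ W, z e := by
    intro T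
    rw [← Finset.filter_mem_eq_inter, Finset.prod_filter]
  have h3 : ∑ A ∈ W.powerset, ((ustTab S E W A : ℝ) : ℂ) * ∏ i ∈ A, z i =
      (∑ T ∈ treesOf S E, ∏ e ∈ T, z' e) / ((treesOf S E).card : ℂ) := by
    simp only [h2]
    rw [← sum_tab_mul (R := ℂ) S E W (fun A => ∏ i ∈ A, z i), Finset.sum_div]
    refine Finset.sum_congr rfl fun A _ => ?_
    simp only [ustTab]
    push_cast
    first
      | done
      | ring
  rw [h3]
  exact div_ne_zero h1 hN

open Classical in
/-- Number of spanning trees containing `F`. -/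
noncomputable def nTrees (S : Finset V) (E F : Finset (Sym2 V)) : ℕ :=
  ((treesOf S E).filter (fun T => F ⊆ T)).card

lemma nTrees_empty (S : Finset V) (E : Finset (Sym2 V)) : nTrees S E ∅ = (treesOf S E).card := by
  classical
  simp [nTrees]

lemma treesOf_subset {S : Finset V} {E T : Finset (Sym2 V)} (hT : T ∈ treesOf S E) : T ⊆ E := by
  classical
  exact Finset.mem_powerset.mp (Finset.mem_filter.mp hT).1

/-- The table in the full window. -/
lemma ustTab_full {S : Finset V} {E : Finset (Sym2 V)} (A : Finset (Sym2 V)) :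
    ((treesOf S E).card : ℝ) * ustTab S E E A = if A ∈ treesOf S E then 1 else 0 := by
  classical
  by_cases hN : ((treesOf S E).card : ℝ) = 0
  · have h0 : treesOf S E = ∅ := by
      have : (treesOf S E).card = 0 := by exact_mod_cast hN
      exact Finset.card_eq_zero.mp this
    simp [h0]
  · unfold ustTab
    rw [mul_div_cancel₀ _ hN]
    have h1 : (treesOf S E).filter (fun T => T ∩ E = A) = if A ∈ treesOf S E then {A} else ∅ := by
      ext T
      simp only [Finset.mem_filter]
      split_ifs with hA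
      · simp only [Finset.mem_singleton]
        constructor
        · rintro ⟨hT, h⟩
          rw [Finset.inter_eq_left.mpr (treesOf_subset hT)] at h
          exact h
        · rintro rfl
          exact ⟨hA, Finset.inter_eq_left.mpr (treesOf_subset hA)⟩
      · simp only [Finset.notMem_empty, iff_false, not_and]
        intro hT h
        rw [Finset.inter_eq_left.mpr (treesOf_subset hT)] at h
        exact hA (h ▸ hT)
    rw [h1]
    split_ifs <;> simp

/-- Sums against the table in the full window. -/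
lemma sum_ustTab_full {S : Finset V} {E : Finset (Sym2 V)} (hN : ((treesOf S E).card : ℝ) ≠ 0)
    (f : Finset (Sym2 V) → ℝ) :
    ∑ A ∈ E.powerset, ustTab S E E A * f A =
      (∑ T ∈ treesOf S E, f T) / ((treesOf S E).card : ℝ) := by
  classical
  rw [Finset.sum_div]
  have hsub : treesOf S E ⊆ E.powerset := fun T hT => Finset.mem_powerset.mpr (treesOf_subset hT)
  rw [← Finset.sum_subset hsub (f := fun A => ustTab S E E A * f A)]
  · refine Finset.sum_congr rfl fun T hT => ?_
    have := ustTab_full (S := S) (E := E) T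
    rw [if_pos hT] at this
    field_simp
    linear_combination f T * this
  · intro A _ hA
    have := ustTab_full (S := S) (E := E) A
    rw [if_neg hA] at this
    have h0 : ustTab S E E A = 0 := (mul_eq_zero.mp this).resolve_left hN
    rw [h0, zero_mul]

open Classical in
/-- Negative correlation of a single edge with the event "contains `F`". -/
theorem neg_corr {S : Finset V} {E : Finset (Sym2 V)}
    (hE : ∀ e ∈ E, e ∈ S.sym2 ∧ ¬ e.IsDiag) (hconn : (pieceGraph S E).Connected)
    (F : Finset (Sym2 V)) {e : Sym2 V} (heF : e ∉ F) :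
    (nTrees S E (insert e F) : ℝ) * (treesOf S E).card ≤
      (nTrees S E F : ℝ) * (nTrees S E {e} : ℝ) := by
  have hN : ((treesOf S E).card : ℝ) ≠ 0 := by
    have := (treesOf_nonempty hE hconn).card_pos
    positivity
  have hNpos : (0 : ℝ) < (treesOf S E).card := by
    have := (treesOf_nonempty hE hconn).card_pos
    positivity
  set c := ustTab S E E with hc
  have hgood : GoodCoef c E := ustTab_good hE hconn E
  have hstab : StableOn c E := ustTab_stable hE hconn E
  -- the tilt
  let hs : ℝ → Sym2 V → ℝ := fun s a => if a ∈ F then s else 0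
  have hee : ∀ s, hs s e = hs 0 e := by
    intro s; simp [hs, heF]
  have hle : ∀ s, 0 ≤ s → ∀ a ∈ E, a ≠ e → hs 0 a ≤ hs s a := by
    intro s hs0 a _ _
    simp only [hs]
    split_ifs
    · exact hs0
    · exact le_rfl
  have hanti : ∀ s, 0 ≤ s → gibbsMean c E e (hs s) ≤ gibbsMean c E e (hs 0) := fun s h0 =>
    gibbsMean_anti_others hgood hstab (hee s).symm (hle s h0)
  -- the partition functions
  have hZ : ∀ h : Sym2 V → ℝ, gibbsZ c E h = (∑ T ∈ treesOf S E, expSum h T) / ((treesOf S E).card : ℝ) := by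
    intro h
    exact sum_ustTab_full hN (expSum h)
  have hNum : ∀ h : Sym2 V → ℝ, gibbsNum c E e h =
      (∑ T ∈ treesOf S E, if e ∈ T then expSum h T else 0) / ((treesOf S E).card : ℝ) := by
    intro h
    rw [← sum_ustTab_full hN]
    refine Finset.sum_congr rfl fun A _ => ?_
    split_ifs <;> simp [hc]
  have hZpos : ∀ h : Sym2 V → ℝ, 0 < ∑ T ∈ treesOf S E, expSum h T := by
    intro h
    apply Finset.sum_pos (fun T _ => expSum_pos h T) (treesOf_nonempty hE hconn)
  -- value at zero
  have hzero : gibbsMean c E e (hs 0) = (nTrees S E {e} : ℝ) / (treesOf S E).card := by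
    have hs0 : ∀ T, expSum (hs 0) T = 1 := by
      intro T
      simp [expSum, hs]
    rw [gibbsMean, hZ, hNum]
    simp only [hs0]
    have h1 : (∑ T ∈ treesOf S E, if e ∈ T then (1 : ℝ) else 0) = (nTrees S E {e} : ℝ) := by
      rw [Finset.sum_boole]
      simp [nTrees]
    rw [h1]
    simp only [Finset.sum_const, nsmul_eq_mul, mul_one]
    field_simp
  -- key inequality for all `s ≥ 0`
  set p : ℝ := (nTrees S E {e} : ℝ) / (treesOf S E).card with hp
  have hkey : ∀ s, 0 ≤ s → 0 ≤ ∑ T ∈ treesOf S E, (p - if e ∈ T then 1 else 0) * expSum (hs s) T := by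
    intro s hs0
    have h1 := hanti s hs0
    rw [hzero, gibbsMean, hZ, hNum] at h1
    have h2 : ((∑ T ∈ treesOf S E, if e ∈ T then expSum (hs s) T else 0) / ((treesOf S E).card : ℝ)) /
        ((∑ T ∈ treesOf S E, expSum (hs s) T) / ((treesOf S E).card : ℝ)) =
        (∑ T ∈ treesOf S E, if e ∈ T then expSum (hs s) T else 0) / (∑ T ∈ treesOf S E, expSum (hs s) T) := by
      field_simp
    rw [h2, div_le_iff₀ (hZpos _)] at h1
    have h3 : ∑ T ∈ treesOf S E, (p - if e ∈ T then 1 else 0) * expSum (hs s) T =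
        p * (∑ T ∈ treesOf S E, expSum (hs s) T) - ∑ T ∈ treesOf S E, if e ∈ T then expSum (hs s) T else 0 := by
      rw [Finset.mul_sum, ← Finset.sum_sub_distrib]
      refine Finset.sum_congr rfl fun T _ => ?_
      split_ifs <;> ring
    rw [h3]
    linarith
  -- the limit
  have hexp : ∀ s T, expSum (hs s) T = Real.exp (s * (F.card : ℝ)) * Real.exp (-(s * ((F \ T).card : ℝ))) := by
    intro s T
    rw [expSum, ← Real.exp_add]
    congr 1
    have h1 : ∑ a ∈ T, hs s a = s * ((T ∩ F).card : ℝ) := by
      simp only [hs]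
      rw [Finset.sum_ite, Finset.sum_const_zero, add_zero, Finset.sum_const, nsmul_eq_mul, mul_comm]
      congr 3
    rw [h1]
    have h2 : ((F \ T).card : ℝ) + ((T ∩ F).card : ℝ) = F.card := by
      have := Finset.card_sdiff_add_card_inter F T
      rw [Finset.inter_comm] at this
      exact_mod_cast this
    rw [← h2]
    ring
  have hkey2 : ∀ s, 0 ≤ s → 0 ≤ ∑ T ∈ treesOf S E, (p - if e ∈ T then 1 else 0) * Real.exp (-(s * ((F \ T).card : ℝ))) := by
    intro s hs0
    have h1 := hkey s hs0
    simp only [hexp] at h1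
    have h2 : ∑ T ∈ treesOf S E, (p - if e ∈ T then 1 else 0) * (Real.exp (s * (F.card : ℝ)) * Real.exp (-(s * ((F \ T).card : ℝ)))) =
        Real.exp (s * (F.card : ℝ)) * ∑ T ∈ treesOf S E, (p - if e ∈ T then 1 else 0) * Real.exp (-(s * ((F \ T).card : ℝ))) := by
      rw [Finset.mul_sum]
      refine Finset.sum_congr rfl fun T _ => ?_
      ring
    rw [h2] at h1
    exact nonneg_of_mul_nonneg_right h1 (Real.exp_pos _)
  have hlim : ∀ T : Finset (Sym2 V), Tendsto (fun s : ℝ => Real.exp (-(s * ((F \ T).card : ℝ)))) atTop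
      (𝓝 (if F ⊆ T then 1 else 0)) := by
    intro T
    by_cases hFT : F ⊆ T
    · rw [if_pos hFT, Finset.sdiff_eq_empty_iff_subset.mpr hFT]
      simp
    · rw [if_neg hFT]
      have hpos : (0 : ℝ) < ((F \ T).card : ℝ) := by
        have : (F \ T).Nonempty := by
          by_contra hne
          rw [Finset.not_nonempty_iff_eq_empty, Finset.sdiff_eq_empty_iff_subset] at hne
          exact hFT hne
        exact_mod_cast this.card_pos
      apply Real.tendsto_exp_atBot.comp
      apply tendsto_neg_atTop_atBot.comp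
      exact tendsto_id.atTop_mul_const hpos
  have hfin : Tendsto (fun s : ℝ => ∑ T ∈ treesOf S E, (p - if e ∈ T then 1 else 0) * Real.exp (-(s * ((F \ T).card : ℝ)))) atTop
      (𝓝 (∑ T ∈ treesOf S E, (p - if e ∈ T then 1 else 0) * (if F ⊆ T then 1 else 0))) :=
    tendsto_finsetSum _ fun T _ => (hlim T).const_mul _
  have hge : 0 ≤ ∑ T ∈ treesOf S E, (p - if e ∈ T then 1 else 0) * (if F ⊆ T then (1 : ℝ) else 0) :=
    ge_of_tendsto hfin (Filter.eventually_atTop.mpr ⟨0, fun s hs0 => hkey2 s hs0⟩)
  -- evaluate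
  have h4 : ∑ T ∈ treesOf S E, (p - if e ∈ T then 1 else 0) * (if F ⊆ T then (1 : ℝ) else 0) =
      p * (nTrees S E F : ℝ) - (nTrees S E (insert e F) : ℝ) := by
    have h5 : (nTrees S E F : ℝ) = ∑ T ∈ treesOf S E, if F ⊆ T then (1 : ℝ) else 0 := by
      rw [Finset.sum_boole]; rfl
    have h6 : (nTrees S E (insert e F) : ℝ) = ∑ T ∈ treesOf S E, if insert e F ⊆ T then (1 : ℝ) else 0 := by
      rw [Finset.sum_boole]; rfl
    rw [h5, h6, Finset.mul_sum, ← Finset.sum_sub_distrib]
    refine Finset.sum_congr rfl fun T _ => ?_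
    by_cases h7 : e ∈ T <;> by_cases h8 : F ⊆ T <;> simp [h7, h8, Finset.insert_subset_iff]
  rw [h4, hp] at hge
  have h9 : (nTrees S E (insert e F) : ℝ) ≤ (nTrees S E {e} : ℝ) / (treesOf S E).card * (nTrees S E F : ℝ) := by
    linarith
  calc (nTrees S E (insert e F) : ℝ) * (treesOf S E).card
      ≤ ((nTrees S E {e} : ℝ) / (treesOf S E).card * (nTrees S E F : ℝ)) * (treesOf S E).card :=
        mul_le_mul_of_nonneg_right h9 hNpos.le
    _ = (nTrees S E F : ℝ) * (nTrees S E {e} : ℝ) := by field_simp

end Crest.Agent.Lib.SRF
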