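/-
Row 168 (S0254 half): monotonicity of the free uniform spanning tree marginals in the piece, and
existence of the free uniform spanning forest marginals along every exhaustion.
-/
import Crest.Agent.Lib.SRF.USTTable
import Crest.Prelude.Def_SpanningTrees

set_option autoImplicit false
set_option linter.unusedSectionVars false
set_option linter.style.haveILetI false

namespace Crest.Agent.Lib.SRF

open Finset Matrix SimpleGraph Filter Topology
open Crest.ProbabilityR.SpanningTrees

variable {V : Type*} [DecidableEq V]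

/-- Probability that the uniform spanning tree of the piece `(S,E)` contains `F`. -/
noncomputable def probF (S : Finset V) (E F : Finset (Sym2 V)) : ℝ :=
  (nTrees S E F : ℝ) / ((treesOf S E).card : ℝ)

lemma probF_nonneg (S : Finset V) (E F : Finset (Sym2 V)) : 0 ≤ probF S E F := by
  unfold probF; positivity

lemma pieceGraph_mono {S : Finset V} {A B : Finset (Sym2 V)} (h : A ⊆ B) :
    pieceGraph S A ≤ pieceGraph S B := by
  intro a b hab
  simp only [pieceGraph, comap_adj, Function.Embedding.subtype_apply, fromEdgeSet_adj,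
    Finset.mem_coe] at hab ⊢
  exact ⟨h hab.1, hab.2⟩

omit [DecidableEq V] in
lemma treesOf_erase [DecidableEq V] (S : Finset V) (E : Finset (Sym2 V)) (a : Sym2 V) :
    treesOf S (E.erase a) = (treesOf S E).filter (fun T => a ∉ T) := by
  classical
  ext T
  simp only [treesOf, Finset.mem_filter, Finset.mem_powerset]
  constructor
  · rintro ⟨h1, h2⟩
    exact ⟨⟨fun x hx => (Finset.mem_erase.mp (h1 hx)).2, h2⟩, fun h => (Finset.mem_erase.mp (h1 h)).1 rfl⟩
  · rintro ⟨⟨h1, h2⟩, h3⟩
    exact ⟨fun x hx => Finset.mem_erase.mpr ⟨fun h => h3 (h ▸ hx), h1 hx⟩, h2⟩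

lemma card_treesOf_erase (S : Finset V) (E : Finset (Sym2 V)) (a : Sym2 V) :
    ((treesOf S (E.erase a)).card : ℝ) = ((treesOf S E).card : ℝ) - (nTrees S E {a} : ℝ) := by
  classical
  have h1 := Finset.card_filter_add_card_filter_not (s := treesOf S E) (fun T => a ∈ T)
  have h2 : nTrees S E {a} = ((treesOf S E).filter (fun T => a ∈ T)).card := by
    simp [nTrees]
  rw [treesOf_erase, h2]
  have h3 : (((treesOf S E).filter (fun T => a ∈ T)).card : ℝ) +
      (((treesOf S E).filter (fun T => ¬ a ∈ T)).card : ℝ) = ((treesOf S E).card : ℝ) := by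
    exact_mod_cast h1
  linarith

lemma nTrees_erase (S : Finset V) (E F : Finset (Sym2 V)) (a : Sym2 V) :
    (nTrees S (E.erase a) F : ℝ) = (nTrees S E F : ℝ) - (nTrees S E (insert a F) : ℝ) := by
  classical
  have h1 := Finset.card_filter_add_card_filter_not (s := (treesOf S E).filter (fun T => F ⊆ T))
    (fun T => a ∈ T)
  have h2 : nTrees S E (insert a F) = (((treesOf S E).filter (fun T => F ⊆ T)).filter (fun T => a ∈ T)).card := by
    simp only [nTrees, Finset.filter_filter]
    congr 1
    ext T
    simp only [Finset.mem_filter, Finset.insert_subset_iff]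
    tauto
  have h3 : nTrees S (E.erase a) F = (((treesOf S E).filter (fun T => F ⊆ T)).filter (fun T => ¬ a ∈ T)).card := by
    simp only [nTrees, treesOf_erase, Finset.filter_filter]
    congr 1
    ext T
    simp only [Finset.mem_filter]
    tauto
  rw [h2, h3]
  have h4 : (((((treesOf S E).filter (fun T => F ⊆ T)).filter (fun T => a ∈ T)).card : ℝ)) +
      (((((treesOf S E).filter (fun T => F ⊆ T)).filter (fun T => ¬ a ∈ T)).card : ℝ)) =
        (((treesOf S E).filter (fun T => F ⊆ T)).card : ℝ) := by
    exact_mod_cast h1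
  have h5 : (nTrees S E F : ℝ) = (((treesOf S E).filter (fun T => F ⊆ T)).card : ℝ) := rfl
  rw [h5]
  linarith

/-- Deleting an edge outside `F` (keeping the piece connected) increases the chance of containing `F`. -/
theorem probF_le_erase {S : Finset V} {E F : Finset (Sym2 V)} {a : Sym2 V}
    (hE : ∀ e ∈ E, e ∈ S.sym2 ∧ ¬ e.IsDiag) (hconn : (pieceGraph S (E.erase a)).Connected)
    (haF : a ∉ F) : probF S E F ≤ probF S (E.erase a) F := by
  have hconn' : (pieceGraph S E).Connected := hconn.mono (pieceGraph_mono (Finset.erase_subset a E))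
  have hE' : ∀ e ∈ E.erase a, e ∈ S.sym2 ∧ ¬ e.IsDiag := fun e he => hE e (Finset.mem_of_mem_erase he)
  have hN : (0 : ℝ) < (treesOf S E).card := by
    have := (treesOf_nonempty hE hconn').card_pos
    positivity
  have hN' : (0 : ℝ) < (treesOf S (E.erase a)).card := by
    have := (treesOf_nonempty hE' hconn).card_pos
    positivity
  have hcorr := neg_corr hE hconn' F haF
  unfold probF
  rw [div_le_div_iff₀ hN hN']
  rw [card_treesOf_erase, nTrees_erase]
  nlinarith [hcorr]

/-- Deleting a set of edges disjoint from `F`. -/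
theorem probF_le_sdiff {S : Finset V} {E F : Finset (Sym2 V)} (D : Finset (Sym2 V))
    (hE : ∀ e ∈ E, e ∈ S.sym2 ∧ ¬ e.IsDiag) (hconn : (pieceGraph S (E \ D)).Connected)
    (hD : Disjoint F D) : probF S E F ≤ probF S (E \ D) F := by
  classical
  induction D using Finset.induction_on with
  | empty => simp
  | insert a D haD ih =>
    have h1 : E \ insert a D = (E \ D).erase a := by
      ext x
      simp only [Finset.mem_sdiff, Finset.mem_insert, Finset.mem_erase]
      tauto
    rw [h1] at hconn ⊢
    have hconn2 : (pieceGraph S (E \ D)).Connected :=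
      hconn.mono (pieceGraph_mono (Finset.erase_subset a _))
    have hF : Disjoint F D := Finset.disjoint_of_subset_right (Finset.subset_insert a D) hD
    have haF : a ∉ F := fun h => (Finset.disjoint_left.mp hD h) (Finset.mem_insert_self a D)
    refine (ih hconn2 hF).trans ?_
    exact probF_le_erase (fun e he => hE e (Finset.sdiff_subset he)) hconn haF

section Pendant

variable {S : Finset V} {E : Finset (Sym2 V)} {u v : V}

/-- Adding a pendant vertex keeps a piece connected. -/
lemma connected_insert_pendant (hu : u ∈ S) (hv : v ∉ S)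
    {A : Finset (Sym2 V)} (hconn : (pieceGraph S A).Connected) :
    (pieceGraph (insert v S) (insert s(u, v) A)).Connected := by
  classical
  have huv : u ≠ v := fun h => hv (h ▸ hu)
  set S' : Finset V := insert v S with hS'
  have hsub : S ⊆ S' := Finset.subset_insert v S
  have huS' : u ∈ (S' : Set V) := Finset.mem_coe.mpr (hsub hu)
  have hvS' : v ∈ (S' : Set V) := Finset.mem_coe.mpr (Finset.mem_insert_self v S)
  let ι : ↥(S : Set V) → ↥(S' : Set V) := fun x => ⟨x.1, Finset.mem_coe.mpr (hsub (Finset.mem_coe.mp x.2))⟩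
  have hstep : ∀ a b : (S : Set V), (pieceGraph S A).Adj a b → (pieceGraph S' (insert s(u, v) A)).Adj (ι a) (ι b) := by
    intro a b hab
    simp only [pieceGraph, comap_adj, Function.Embedding.subtype_apply, fromEdgeSet_adj,
      Finset.mem_coe, Finset.mem_insert, ι] at hab ⊢
    exact ⟨Or.inr hab.1, hab.2⟩
  have hwalk : ∀ (a b : (S : Set V)) (_ : (pieceGraph S A).Walk a b),
      (pieceGraph S' (insert s(u, v) A)).Reachable (ι a) (ι b) := by
    intro a b p
    induction p with
    | nil => exact Reachable.refl _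
    | cons h _ ih => exact (hstep _ _ h).reachable.trans ih
  have huS : u ∈ (S : Set V) := Finset.mem_coe.mpr hu
  have hroot : ∀ x : (S' : Set V), (pieceGraph S' (insert s(u, v) A)).Reachable ⟨u, huS'⟩ x := by
    intro x
    by_cases hx : (x : V) ∈ S
    · have hxS : (x : V) ∈ (S : Set V) := Finset.mem_coe.mpr hx
      obtain ⟨p⟩ := hconn.preconnected ⟨u, huS⟩ ⟨x, hxS⟩
      exact hwalk _ _ p
    · have hxv : (x : V) = v := by
        have := Finset.mem_coe.mp x.2
        rcases Finset.mem_insert.mp this with h | h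
        · exact h
        · exact absurd h hx
      have hadj : (pieceGraph S' (insert s(u, v) A)).Adj ⟨u, huS'⟩ x := by
        simp only [pieceGraph, comap_adj, Function.Embedding.subtype_apply, fromEdgeSet_adj,
          Finset.mem_coe, Finset.mem_insert, hxv]
        exact ⟨Or.inl trivial, huv⟩
      exact hadj.reachable
  haveI : Nonempty (S' : Set V) := ⟨⟨u, huS'⟩⟩
  exact ⟨fun a b => (hroot a).symm.trans (hroot b)⟩

/-- Removing a pendant vertex keeps a piece connected. -/
lemma connected_erase_pendant (hu : u ∈ S) (hv : v ∉ S) {A : Finset (Sym2 V)}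
    (hA : ∀ e ∈ A, e ∈ S.sym2 ∧ ¬ e.IsDiag)
    (hconn : (pieceGraph (insert v S) (insert s(u, v) A)).Connected) :
    (pieceGraph S A).Connected := by
  classical
  set S' : Finset V := insert v S with hS'
  have hsub : S ⊆ S' := Finset.subset_insert v S
  have huS : u ∈ (S : Set V) := Finset.mem_coe.mpr hu
  let φ : ↥(S' : Set V) → ↥(S : Set V) := fun x =>
    if h : (x : V) ∈ (S : Set V) then ⟨x, h⟩ else ⟨u, huS⟩
  have hstep : ∀ a b : (S' : Set V), (pieceGraph S' (insert s(u, v) A)).Adj a b →
      (pieceGraph S A).Reachable (φ a) (φ b) := by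
    intro a b hab
    simp only [pieceGraph, comap_adj, Function.Embedding.subtype_apply, fromEdgeSet_adj,
      Finset.mem_coe, Finset.mem_insert] at hab
    obtain ⟨h1, h2⟩ := hab
    by_cases hA' : s((a : V), (b : V)) ∈ A
    · have h3 := (hA _ hA').1
      rw [Finset.mk_mem_sym2_iff] at h3
      have ha : (a : V) ∈ (S : Set V) := Finset.mem_coe.mpr h3.1
      have hb : (b : V) ∈ (S : Set V) := Finset.mem_coe.mpr h3.2
      have : (pieceGraph S A).Adj ⟨a, ha⟩ ⟨b, hb⟩ := by
        simp only [pieceGraph, comap_adj, Function.Embedding.subtype_apply, fromEdgeSet_adj,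
          Finset.mem_coe]
        exact ⟨hA', h2⟩
      simp only [φ, dif_pos ha, dif_pos hb]
      exact this.reachable
    · have h3 : s((a : V), (b : V)) = s(u, v) := h1.resolve_right hA'
      have hvS : v ∉ (S : Set V) := fun h => hv (Finset.mem_coe.mp h)
      rw [Sym2.eq_iff] at h3
      rcases h3 with ⟨h4, h5⟩ | ⟨h4, h5⟩
      · simp only [φ, h4, h5, dif_pos huS, dif_neg hvS]
        exact Reachable.refl _
      · simp only [φ, h4, h5, dif_pos huS, dif_neg hvS]
        exact Reachable.refl _
  have hwalk : ∀ (a b : (S' : Set V)) (_ : (pieceGraph S' (insert s(u, v) A)).Walk a b),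
      (pieceGraph S A).Reachable (φ a) (φ b) := by
    intro a b p
    induction p with
    | nil => exact Reachable.refl _
    | cons h _ ih => exact (hstep _ _ h).trans ih
  haveI : Nonempty (S : Set V) := ⟨⟨u, huS⟩⟩
  refine ⟨fun a b => ?_⟩
  have ha : (a : V) ∈ (S' : Set V) := Finset.mem_coe.mpr (hsub (Finset.mem_coe.mp a.2))
  have hb : (b : V) ∈ (S' : Set V) := Finset.mem_coe.mpr (hsub (Finset.mem_coe.mp b.2))
  obtain ⟨p⟩ := hconn.preconnected ⟨a, ha⟩ ⟨b, hb⟩
  have := hwalk _ _ p
  simpa [φ, a.2, b.2] using this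

/-- Spanning trees of a piece with a pendant vertex. -/
theorem treesOf_pendant (hu : u ∈ S) (hv : v ∉ S)
    (hE : ∀ e ∈ E, e ∈ S.sym2 ∧ ¬ e.IsDiag) :
    treesOf (insert v S) (insert s(u, v) E) = (treesOf S E).image (insert s(u, v)) := by
  classical
  have huv : u ≠ v := fun h => hv (h ▸ hu)
  have hu' : u ∈ insert v S := Finset.mem_insert_of_mem hu
  have ha0 : s(u, v) ∉ E := by
    intro h
    have := (hE _ h).1
    rw [Finset.mk_mem_sym2_iff] at this
    exact hv this.2
  have hE' : ∀ e ∈ insert s(u, v) E, e ∈ (insert v S).sym2 ∧ ¬ e.IsDiag := by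
    intro e he
    rcases Finset.mem_insert.mp he with rfl | he
    · refine ⟨?_, by simpa using huv⟩
      rw [Finset.mk_mem_sym2_iff]
      exact ⟨hu', Finset.mem_insert_self _ _⟩
    · refine ⟨Finset.sym2_mono (Finset.subset_insert v S) (hE e he).1, (hE e he).2⟩
  have hcard : (S.erase u).card + 1 = ((insert v S).erase u).card := by
    have h1 := Finset.card_erase_add_one hu
    have h2 := Finset.card_erase_add_one hu'
    have h3 := Finset.card_insert_of_notMem hv
    omega
  ext T'
  simp only [treesOf, Finset.mem_filter, Finset.mem_powerset, Finset.mem_image]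
  constructor
  · rintro ⟨hT'sub, htree⟩
    have hT'E := fun e he => hE' e (hT'sub he)
    have htree' := (isTree_iff hu' hT'E).mp htree
    -- the edge `s(u,v)` belongs to the tree
    have ha0T : s(u, v) ∈ T' := by
      have hvS' : v ∈ ((insert v S : Finset V) : Set V) := Finset.mem_coe.mpr (Finset.mem_insert_self _ _)
      have huS' : u ∈ ((insert v S : Finset V) : Set V) := Finset.mem_coe.mpr hu'
      obtain ⟨p⟩ := htree'.1.preconnected (⟨v, hvS'⟩ : ((insert v S : Finset V) : Set V)) ⟨u, huS'⟩
      cases p with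
      | nil => exact absurd rfl huv
      | @cons _ w _ h _ =>
        have h' : s(v, (w : V)) ∈ T' ∧ v ≠ w := by
          simpa [pieceGraph, fromEdgeSet_adj] using h
        have h2 := hT'sub h'.1
        rcases Finset.mem_insert.mp h2 with h3 | h3
        · rw [← h3]; exact h'.1
        · have := (hE _ h3).1
          rw [Finset.mk_mem_sym2_iff] at this
          exact absurd this.1 hv
    refine ⟨T'.erase s(u, v), ⟨?_, ?_⟩, Finset.insert_erase ha0T⟩
    · intro e he
      have h1 := Finset.mem_erase.mp he
      rcases Finset.mem_insert.mp (hT'sub h1.2) with h2 | h2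
      · exact absurd h2 h1.1
      · exact h2
    · have hAE : ∀ e ∈ T'.erase s(u, v), e ∈ S.sym2 ∧ ¬ e.IsDiag := by
        intro e he
        have h1 := Finset.mem_erase.mp he
        rcases Finset.mem_insert.mp (hT'sub h1.2) with h2 | h2
        · exact absurd h2 h1.1
        · exact hE e h2
      rw [isTree_iff hu hAE]
      constructor
      · apply connected_erase_pendant hu hv hAE
        rw [Finset.insert_erase ha0T]
        exact htree'.1
      · have h1 := Finset.card_erase_add_one ha0T
        omega
  · rintro ⟨T, ⟨hTsub, htree⟩, rfl⟩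
    have hTE : ∀ e ∈ T, e ∈ S.sym2 ∧ ¬ e.IsDiag := fun e he => hE e (hTsub he)
    have htree' := (isTree_iff hu hTE).mp htree
    refine ⟨Finset.insert_subset_insert _ hTsub, ?_⟩
    have hins : ∀ e ∈ insert s(u, v) T, e ∈ (insert v S).sym2 ∧ ¬ e.IsDiag :=
      fun e he => hE' e (Finset.insert_subset_insert _ hTsub he)
    rw [isTree_iff hu' hins]
    constructor
    · exact connected_insert_pendant hu hv htree'.1
    · rw [Finset.card_insert_of_notMem (fun h => ha0 (hTsub h)), htree'.2]
      exact hcard

/-- The pendant edge does not change the probabilities. -/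
theorem probF_pendant {F : Finset (Sym2 V)} (hu : u ∈ S) (hv : v ∉ S)
    (hE : ∀ e ∈ E, e ∈ S.sym2 ∧ ¬ e.IsDiag) (hF : s(u, v) ∉ F) :
    probF (insert v S) (insert s(u, v) E) F = probF S E F := by
  classical
  have ha0 : s(u, v) ∉ E := by
    intro h
    have := (hE _ h).1
    rw [Finset.mk_mem_sym2_iff] at this
    exact hv this.2
  have hinj : Set.InjOn (insert s(u, v)) (treesOf S E : Set (Finset (Sym2 V))) := by
    intro T hT T' hT' h
    have h1 : s(u, v) ∉ T := fun h' => ha0 (treesOf_subset (Finset.mem_coe.mp hT) h')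
    have h2 : s(u, v) ∉ T' := fun h' => ha0 (treesOf_subset (Finset.mem_coe.mp hT') h')
    rw [← Finset.erase_insert h1, ← Finset.erase_insert h2, h]
  have h1 : (treesOf (insert v S) (insert s(u, v) E)).card = (treesOf S E).card := by
    rw [treesOf_pendant hu hv hE, Finset.card_image_of_injOn hinj]
  have h2 : nTrees (insert v S) (insert s(u, v) E) F = nTrees S E F := by
    simp only [nTrees]
    rw [treesOf_pendant hu hv hE, Finset.filter_image, Finset.card_image_of_injOn]
    · congr 1
      ext T
      simp only [Finset.mem_filter]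
      constructor
      · rintro ⟨h3, h4⟩
        refine ⟨h3, fun x hx => ?_⟩
        have := h4 hx
        rcases Finset.mem_insert.mp this with h5 | h5
        · exact absurd (h5 ▸ hx) hF
        · exact h5
      · rintro ⟨h3, h4⟩
        exact ⟨h3, h4.trans (Finset.subset_insert _ _)⟩
    · exact hinj.mono (by intro T hT; exact (Finset.mem_filter.mp (Finset.mem_coe.mp hT)).1)
  rw [probF, probF, h1, h2]

end Pendant

section Pieces

variable (G : SimpleGraph V)

omit [DecidableEq V] in
lemma edgesIn_spec [DecidableEq V] (S : Finset V) : ∀ e ∈ edgesIn G S, e ∈ S.sym2 ∧ ¬ e.IsDiag := by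
  classical
  intro e he
  simp only [edgesIn, Finset.mem_filter] at he
  exact ⟨he.1, G.not_isDiag_of_mem_edgeSet he.2⟩

omit [DecidableEq V] in
lemma mk_mem_edgesIn {S : Finset V} {a b : V} : s(a, b) ∈ edgesIn G S ↔ a ∈ S ∧ b ∈ S ∧ G.Adj a b := by
  classical
  simp only [edgesIn, Finset.mem_filter, Finset.mk_mem_sym2_iff, mem_edgeSet]
  tauto

lemma pieceGraph_edgesIn (S : Finset V) : pieceGraph S (edgesIn G S) = G.induce (S : Set V) := by
  ext a b
  simp only [pieceGraph, comap_adj, Function.Embedding.subtype_apply, fromEdgeSet_adj,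
    Finset.mem_coe, mk_mem_edgesIn]
  constructor
  · rintro ⟨⟨_, _, h⟩, _⟩; exact h
  · intro h
    exact ⟨⟨Finset.mem_coe.mp a.2, Finset.mem_coe.mp b.2, h⟩, h.ne⟩

/-- The frozen definition in terms of `probF`. -/
theorem ustContains_eq (S : Finset V) (F : Finset (Sym2 V)) :
    ustContains G S F = probF S (edgesIn G S) F := by
  classical
  have h1 : (edgesIn G S).powerset.filter (fun A => IsSpanningTreeOn G S A) = treesOf S (edgesIn G S) := by
    ext A
    rw [Finset.mem_filter, treesOf, Finset.mem_filter, Finset.mem_powerset]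
    simp only [IsSpanningTreeOn, pieceGraph]
    tauto
  have h2 : (edgesIn G S).powerset.filter (fun A => IsSpanningTreeOn G S A ∧ F ⊆ A) =
      (treesOf S (edgesIn G S)).filter (fun T => F ⊆ T) := by
    ext A
    rw [Finset.mem_filter, Finset.mem_filter, treesOf, Finset.mem_filter, Finset.mem_powerset]
    simp only [IsSpanningTreeOn, pieceGraph]
    tauto
  unfold ustContains probF nTrees
  rw [← h2, ← h1]
  congr!

/-- One vertex step. -/
theorem ustContains_insert_le {S : Finset V} {u v : V} (hu : u ∈ S) (hv : v ∉ S) (huv : G.Adj u v)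
    (hconn : (G.induce (S : Set V)).Connected) {F : Finset (Sym2 V)} (hF : F ⊆ edgesIn G S) :
    ustContains G (insert v S) F ≤ ustContains G S F := by
  classical
  rw [ustContains_eq, ustContains_eq]
  set S' : Finset V := insert v S with hS'
  set E0 := insert s(u, v) (edgesIn G S) with hE0
  have hsub : E0 ⊆ edgesIn G S' := by
    intro e he
    rcases Finset.mem_insert.mp he with rfl | he
    · rw [mk_mem_edgesIn]
      exact ⟨Finset.mem_insert_of_mem hu, Finset.mem_insert_self _ _, huv⟩
    · induction e using Sym2.ind with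
      | _ a b =>
        rw [mk_mem_edgesIn] at he ⊢
        exact ⟨Finset.mem_insert_of_mem he.1, Finset.mem_insert_of_mem he.2.1, he.2.2⟩
  have hsd : edgesIn G S' \ (edgesIn G S' \ E0) = E0 := by
    ext x
    simp only [Finset.mem_sdiff]
    constructor
    · rintro ⟨h1, h2⟩
      by_contra h3
      exact h2 ⟨h1, h3⟩
    · intro h
      exact ⟨hsub h, fun h' => h'.2 h⟩
  have hconn0 : (pieceGraph S' E0).Connected := by
    rw [← pieceGraph_edgesIn] at hconn
    exact connected_insert_pendant hu hv hconn
  have hdisj : Disjoint F (edgesIn G S' \ E0) := by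
    rw [Finset.disjoint_left]
    intro e he he'
    exact (Finset.mem_sdiff.mp he').2 (Finset.mem_insert_of_mem (hF he))
  have h1 := probF_le_sdiff (edgesIn G S' \ E0) (edgesIn_spec G S') (by rw [hsd]; exact hconn0) hdisj
  rw [hsd] at h1
  have hF0 : s(u, v) ∉ F := by
    intro h
    have := hF h
    rw [mk_mem_edgesIn] at this
    exact hv this.2.1
  rwa [hE0, hS', probF_pendant hu hv (edgesIn_spec G S) hF0] at h1

lemma edgesIn_mono {S S' : Finset V} (h : S ⊆ S') : edgesIn G S ⊆ edgesIn G S' := by
  classical
  intro e he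
  induction e using Sym2.ind with
  | _ a b =>
    rw [mk_mem_edgesIn] at he ⊢
    exact ⟨h he.1, h he.2.1, he.2.2⟩

/-- **Monotonicity of the free uniform spanning tree marginals.** -/
theorem ustContains_anti {S S' : Finset V} (hSS' : S ⊆ S')
    (hconn : (G.induce (S : Set V)).Connected) (hconn' : (G.induce (S' : Set V)).Connected)
    {F : Finset (Sym2 V)} (hF : F ⊆ edgesIn G S) :
    ustContains G S' F ≤ ustContains G S F := by
  classical
  induction hn : (S' \ S).card generalizing S with
  | zero =>
    have h1 : S' \ S = ∅ := Finset.card_eq_zero.mp hn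
    have h2 : S' ⊆ S := Finset.sdiff_eq_empty_iff_subset.mp h1
    rw [Finset.Subset.antisymm hSS' h2]
  | succ n ih =>
    have hne : (S' \ S).Nonempty := by
      rw [← Finset.card_pos, hn]; omega
    obtain ⟨y, hy⟩ := hne
    obtain ⟨hyS', hyS⟩ := Finset.mem_sdiff.mp hy
    obtain ⟨⟨x, hx⟩⟩ := hconn.nonempty
    have hx' : x ∈ S := Finset.mem_coe.mp hx
    have hxS' : x ∈ (S' : Set V) := Finset.mem_coe.mpr (hSS' hx')
    have hyS'' : y ∈ (S' : Set V) := Finset.mem_coe.mpr hyS'
    obtain ⟨p⟩ := hconn'.preconnected (⟨x, hxS'⟩ : (S' : Set V)) ⟨y, hyS''⟩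
    obtain ⟨d, _, hd1, hd2⟩ := p.exists_boundary_dart {a : (S' : Set V) | (a : V) ∈ S} hx' hyS
    have hadj : G.Adj d.fst.1 d.snd.1 := d.adj
    have hv' : d.snd.1 ∈ S' := Finset.mem_coe.mp d.snd.2
    set u : V := d.fst.1 with hu
    set v : V := d.snd.1 with hv
    have hu1 : u ∈ S := hd1
    have hv1 : v ∉ S := hd2
    have hS1 : insert v S ⊆ S' := Finset.insert_subset hv' hSS'
    have hconn1 : (G.induce ((insert v S : Finset V) : Set V)).Connected := by
      have h1 : (pieceGraph S (edgesIn G S)).Connected := by rwa [pieceGraph_edgesIn]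
      have h2 := connected_insert_pendant hu1 hv1 h1
      rw [← pieceGraph_edgesIn]
      refine h2.mono (pieceGraph_mono ?_)
      intro e he
      rcases Finset.mem_insert.mp he with rfl | he
      · rw [mk_mem_edgesIn]
        exact ⟨Finset.mem_insert_of_mem hu1, Finset.mem_insert_self _ _, hadj⟩
      · exact edgesIn_mono G (Finset.subset_insert v S) he
    have hcard : (S' \ insert v S).card = n := by
      have h1 : S' \ insert v S = (S' \ S).erase v := by
        ext a
        simp only [Finset.mem_sdiff, Finset.mem_insert, Finset.mem_erase]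
        tauto
      rw [h1, Finset.card_erase_of_mem (Finset.mem_sdiff.mpr ⟨hv', hv1⟩), hn]
      rfl
    have h1 := ih hS1 hconn1 (hF.trans (edgesIn_mono G (Finset.subset_insert v S))) hcard
    exact h1.trans (ustContains_insert_le G hu1 hv1 hadj hconn hF)

/-- The limiting marginal: the infimum over connected pieces containing `F`. -/
noncomputable def fsfProb (F : Finset (Sym2 V)) : ℝ :=
  ⨅ S : {S : Finset V // (G.induce (S : Set V)).Connected ∧ F ⊆ edgesIn G S}, ustContains G S F

lemma ustContains_nonneg (S : Finset V) (F : Finset (Sym2 V)) : 0 ≤ ustContains G S F := by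
  rw [ustContains_eq]; exact probF_nonneg _ _ _

lemma exists_finset_subset {S : ℕ → Finset V} (hmono : Monotone S) (hcover : ∀ v, ∃ n, v ∈ S n)
    (A : Finset V) : ∃ n, A ⊆ S n := by
  classical
  induction A using Finset.induction_on with
  | empty => exact ⟨0, Finset.empty_subset _⟩
  | insert a A _ ih =>
    obtain ⟨n, hn⟩ := ih
    obtain ⟨m, hm⟩ := hcover a
    refine ⟨max n m, Finset.insert_subset (hmono (le_max_right _ _) hm) (hn.trans (hmono (le_max_left _ _)))⟩

lemma exists_edges_subset {S : ℕ → Finset V} (hmono : Monotone S) (hcover : ∀ v, ∃ n, v ∈ S n)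
    {F : Finset (Sym2 V)} (hF : (F : Set (Sym2 V)) ⊆ G.edgeSet) : ∃ n, F ⊆ edgesIn G (S n) := by
  classical
  induction F using Finset.induction_on with
  | empty => exact ⟨0, Finset.empty_subset _⟩
  | insert e F _ ih =>
    obtain ⟨n, hn⟩ := ih (fun x hx => hF (Finset.mem_coe.mpr (Finset.mem_insert_of_mem (Finset.mem_coe.mp hx))))
    have he : e ∈ G.edgeSet := hF (Finset.mem_coe.mpr (Finset.mem_insert_self _ _))
    induction e using Sym2.ind with
    | _ a b =>
      obtain ⟨m, hm⟩ := exists_finset_subset hmono hcover {a, b}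
      refine ⟨max n m, Finset.insert_subset ?_ (hn.trans (edgesIn_mono G (hmono (le_max_left _ _))))⟩
      rw [mk_mem_edgesIn]
      have h1 := hmono (le_max_right n m) (hm (by simp : a ∈ ({a, b} : Finset V)))
      have h2 := hmono (le_max_right n m) (hm (by simp : b ∈ ({a, b} : Finset V)))
      exact ⟨h1, h2, he⟩

/-- **The free uniform spanning forest marginals exist**, along every exhaustion, and do not depend
on it. -/
theorem tendsto_ustContains {S : ℕ → Finset V} (hmono : Monotone S) (hcover : ∀ v, ∃ n, v ∈ S n)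
    (hconn : ∀ n, (G.induce (S n : Set V)).Connected) {F : Finset (Sym2 V)}
    (hF : (F : Set (Sym2 V)) ⊆ G.edgeSet) :
    Tendsto (fun n => ustContains G (S n) F) atTop (𝓝 (fsfProb G F)) := by
  classical
  obtain ⟨n0, hn0⟩ := exists_edges_subset G hmono hcover hF
  haveI : Nonempty {S : Finset V // (G.induce (S : Set V)).Connected ∧ F ⊆ edgesIn G S} :=
    ⟨⟨S n0, hconn n0, hn0⟩⟩
  have hbdd : BddBelow (Set.range fun S : {S : Finset V // (G.induce (S : Set V)).Connected ∧ F ⊆ edgesIn G S} =>
      ustContains G S F) := ⟨0, by rintro _ ⟨S, rfl⟩; exact ustContains_nonneg G _ _⟩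
  rw [Metric.tendsto_atTop]
  intro ε hε
  have hlt : fsfProb G F < fsfProb G F + ε := by linarith
  obtain ⟨S₀, hS₀⟩ := exists_lt_of_ciInf_lt hlt
  obtain ⟨n1, hn1⟩ := exists_finset_subset hmono hcover S₀.1
  refine ⟨max n0 n1, fun n hn => ?_⟩
  have hn0' : F ⊆ edgesIn G (S n) := hn0.trans (edgesIn_mono G (hmono (le_trans (le_max_left _ _) hn)))
  have hS₀n : S₀.1 ⊆ S n := hn1.trans (hmono (le_trans (le_max_right _ _) hn))
  have h1 : ustContains G (S n) F ≤ ustContains G S₀ F :=
    ustContains_anti G hS₀n S₀.2.1 (hconn n) S₀.2.2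
  have h2 : fsfProb G F ≤ ustContains G (S n) F :=
    ciInf_le hbdd (⟨S n, hconn n, hn0'⟩ : {S : Finset V // (G.induce (S : Set V)).Connected ∧ F ⊆ edgesIn G S})
  rw [Real.dist_eq, abs_lt]
  constructor <;> linarith

end Pieces

end Crest.Agent.Lib.SRF
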