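/- helper3's UST statements in the shape used by `FSF.lean` (proved, despite the historical file name). -/
import Crest.Agent.Lib.SRF.LimitLaw
import Crest.Agent.Lib.SRF.USTMono

set_option autoImplicit false

namespace Crest.Agent.Lib.SRF

open Crest.ProbabilityR.SpanningTrees Filter Topology

open Classical in
noncomputable def ustTrees (G : SimpleGraph ℕ) (S : Finset ℕ) : Finset (Finset (Sym2 ℕ)) :=
  (edgesIn G S).powerset.filter (fun A => IsSpanningTreeOn G S A)

open Classical in
noncomputable def ustTable (G : SimpleGraph ℕ) (S : Finset ℕ) (W B : Finset (Sym2 ℕ)) : ℝ :=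
  (((ustTrees G S).filter (fun A => ∀ i ∈ W, (i ∈ A ↔ i ∈ B))).card : ℝ) / ((ustTrees G S).card : ℝ)

lemma ustTrees_eq_treesOf (G : SimpleGraph ℕ) (S : Finset ℕ) :
    ustTrees G S = treesOf S (edgesIn G S) := by
  classical
  ext A
  rw [ustTrees, Finset.mem_filter, treesOf, Finset.mem_filter, Finset.mem_powerset]
  simp only [IsSpanningTreeOn, pieceGraph]
  tauto

lemma connected_piece {G : SimpleGraph ℕ} {S : Finset ℕ} (hc : (G.induce (S : Set ℕ)).Connected) :
    (pieceGraph S (edgesIn G S)).Connected := by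
  rwa [pieceGraph_edgesIn]

theorem ustTrees_nonempty {G : SimpleGraph ℕ} {S : Finset ℕ} (hc : (G.induce (S : Set ℕ)).Connected) :
    (ustTrees G S).Nonempty := by
  rw [ustTrees_eq_treesOf]
  exact treesOf_nonempty (edgesIn_spec G S) (connected_piece hc)

/-- The two forms of the table. -/
lemma ustTable_eq_ustTab (G : SimpleGraph ℕ) (S : Finset ℕ) (W : Finset (Sym2 ℕ)) {B : Finset (Sym2 ℕ)}
    (hB : B ⊆ W) : ustTable G S W B = ustTab S (edgesIn G S) W B := by
  classical
  unfold ustTable ustTab
  rw [ustTrees_eq_treesOf]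
  congr 3
  ext A
  simp only [Finset.mem_filter]
  refine and_congr_right fun _ => ?_
  constructor
  · intro h
    ext i
    simp only [Finset.mem_inter]
    constructor
    · rintro ⟨hi, hw⟩; exact (h i hw).mp hi
    · intro hi; exact ⟨(h i (hB hi)).mpr hi, hB hi⟩
  · rintro rfl i hi
    simp [hi]

theorem ustTable_stable {G : SimpleGraph ℕ} {S : Finset ℕ} (hc : (G.induce (S : Set ℕ)).Connected)
    (W : Finset (Sym2 ℕ)) : StableOn (ustTable G S W) W := by
  intro z hz
  have h1 := ustTab_stable (edgesIn_spec G S) (connected_piece hc) W z hz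
  have h2 : ∑ B ∈ W.powerset, ((ustTable G S W B : ℝ) : ℂ) * ∏ i ∈ B, z i =
      ∑ B ∈ W.powerset, ((ustTab S (edgesIn G S) W B : ℝ) : ℂ) * ∏ i ∈ B, z i := by
    refine Finset.sum_congr rfl fun B hB => ?_
    rw [ustTable_eq_ustTab G S W (Finset.mem_powerset.mp hB)]
  rw [h2]
  exact h1

open Classical in
theorem ust_limit {G : SimpleGraph ℕ} (_hG : G.Connected) (_hlf : ∀ v, (G.neighborSet v).Finite) :
    ∃ μ : Finset (Sym2 ℕ) → ℝ, ∀ S : ℕ → Finset ℕ, Monotone S → (∀ v, ∃ n, v ∈ S n) →
      (∀ n, (G.induce (S n : Set ℕ)).Connected) →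
      ∀ F, Tendsto (fun n => ustContains G (S n) F) atTop (𝓝 (μ F)) := by
  refine ⟨fun F => if (F : Set (Sym2 ℕ)) ⊆ G.edgeSet then fsfProb G F else 0, ?_⟩
  intro S hmono hcover hconn F
  by_cases hF : (F : Set (Sym2 ℕ)) ⊆ G.edgeSet
  · simp only [if_pos hF]
    exact tendsto_ustContains G hmono hcover hconn hF
  · simp only [if_neg hF]
    have h0 : ∀ n, ustContains G (S n) F = 0 := by
      intro n
      rw [ustContains_eq]
      unfold probF
      have : nTrees (S n) (edgesIn G (S n)) F = 0 := by
        rw [nTrees, Finset.card_eq_zero, Finset.filter_eq_empty_iff]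
        intro T hT hFT
        apply hF
        intro e he
        have h2 := treesOf_subset hT (hFT (Finset.mem_coe.mp he))
        simp only [edgesIn, Finset.mem_filter] at h2
        exact h2.2
      simp [this]
    simp only [h0]
    exact tendsto_const_nhds

end Crest.Agent.Lib.SRF
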